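import Vale.Agent.P233.H715.TestI
import Vale.Agent.P233.H53.Stat

/-! P242, Part A, vocabulary (helper542): the classes `gam` and `qam` of the heat flow of the weak
`Γ₂`, and centre families `Cen` (classes of `p_s(x,·)`). Kernel-free: `P = C.P` is the semigroup
of the calculus `C`, `K₀ = -K`. The functional form is `C.NN (-K₀) f g φ` of `Bd3/B1.lean`. -/

set_option linter.all false

open MeasureTheory Filter Topology Set
open scoped ENNReal NNReal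

namespace Vale.Agent.P233

variable {M : Type*} [MeasurableSpace M] {m : Measure M} {C : Calc m}

/-- `γ_s(f,g) = ½ Δ P_s Γ(f,g) - ½ P_s(Γ(f,Δg) + Γ(g,Δf)) + K₀ P_s Γ(f,g)` -/
noncomputable def Calc.gam (C : Calc m) (K₀ s : ℝ) (f g : M →ₘ[m] ℝ) : M →ₘ[m] ℝ :=
  (2 : ℝ)⁻¹ • C.lap (C.P s (C.Γ f g))
    - (2 : ℝ)⁻¹ • C.P s (C.Γ f (C.lap g) + C.Γ g (C.lap f)) + K₀ • C.P s (C.Γ f g)

/-- `γ_s(f,g) - (1/N) P_s(Δf Δg)` -/
noncomputable def Calc.qam (C : Calc m) (K₀ N s : ℝ) (f g : M →ₘ[m] ℝ) : M →ₘ[m] ℝ :=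
  C.gam K₀ s f g - N⁻¹ • C.P s (C.lap f * C.lap g)

/-- the root of the gradient: the class of `|∇f|` -/
noncomputable def Calc.gr (C : Calc m) (f : M →ₘ[m] ℝ) : M →ₘ[m] ℝ :=
  AEEqFun.comp Real.sqrt Real.continuous_sqrt (C.Γ f f)

theorem Calc.gr_ae (C : Calc m) (f : M →ₘ[m] ℝ) : ∀ᵐ x ∂m, C.gr f x = √(C.Γ f f x) :=
  AEEqFun.coeFn_comp _ _ _

theorem Calc.gr_nonneg (C : Calc m) (f : M →ₘ[m] ℝ) : 0 ≤ C.gr f := by
  rw [nonneg_iff_ae]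
  filter_upwards [C.gr_ae f] with x hx
  rw [hx]; exact Real.sqrt_nonneg _

theorem abs_ae' (f : M →ₘ[m] ℝ) : ∀ᵐ x ∂m, |f| x = |f x| := AEEqFun.coeFn_abs f

namespace IsDir

variable (hC : IsDir C) {s t : ℝ} {f g h w F G φ : M →ₘ[m] ℝ}
include hC

/-- `Δ P_s` is symmetric on `L²` -/
theorem lap_P_symm (hs : 0 < s) (hF : MemLp F 2 m) (hG : MemLp G 2 m) :
    I (C.lap (C.P s F) * G) = I (F * C.lap (C.P s G)) := by
  have h2 : 0 < s / 2 := by linarith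
  have e : s / 2 + s / 2 = s := by ring
  have a1 := hC.P_lap_add h2.le h2 hF
  have a2 := hC.P_lap_add h2.le h2 hG
  rw [e] at a1 a2
  have lF := hC.P_isLap h2 hF
  have lG := hC.P_isLap h2 hG
  rw [a1, a2, hC.P_symm _ lF.2.1 hG, ← hC.P_symm _ hF lG.2.1]
  have b1 : I (C.Γ (C.P (s / 2) F) (C.P (s / 2) G))
      = -I (C.lap (C.P (s / 2) F) * C.P (s / 2) G) := lF.2.2 _ lG.1
  have b2 : I (C.Γ (C.P (s / 2) G) (C.P (s / 2) F))
      = -I (C.lap (C.P (s / 2) G) * C.P (s / 2) F) := lG.2.2 _ lF.1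
  rw [hC.symm _ lG.1 _ lF.1] at b2
  rw [mul_comm (C.P (s / 2) F)]
  linarith

theorem lap_P_mem2 (hs : 0 < s) (hF : MemLp F 2 m) : MemLp (C.lap (C.P s F)) 2 m :=
  (hC.P_isLap hs hF).2.1

/-- `I(w Δ P_s F) = -I(Γ(F, P_s w))` for `F ∈ W` -/
theorem I_lap_P (hs : 0 < s) (hF : F ∈ C.W) (hw : MemLp w 2 m) :
    I (C.lap (C.P s F) * w) = -I (C.Γ F (C.P s w)) := by
  have hF2 := hC.memLp _ hF
  have lw := hC.P_isLap hs hw
  have b1 : I (C.Γ (C.P s w) F) = -I (C.lap (C.P s w) * F) := lw.2.2 _ hF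
  rw [hC.lap_P_symm hs hF2 hw, hC.symm _ hF _ lw.1, b1, mul_comm F]
  ring

theorem P_lap_add' (hs : 0 < s) (ht : 0 ≤ t) (hF : MemLp F 2 m) :
    C.P t (C.lap (C.P s F)) = C.lap (C.P (s + t) F) := by
  rw [add_comm s t, hC.P_lap_add ht hs hF]

theorem lap_P_add (hs : 0 < s) (hF : MemLp F 2 m) (hG : MemLp G 2 m) :
    C.lap (C.P s (F + G)) = C.lap (C.P s F) + C.lap (C.P s G) := by
  rw [hC.P_add s hF hG]
  exact hC.lap_eq (hC.isLap_add (hC.P_isLap hs hF) (hC.P_isLap hs hG))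

theorem lap_P_smul (hs : 0 < s) (c : ℝ) (hF : MemLp F 2 m) :
    C.lap (C.P s (c • F)) = c • C.lap (C.P s F) := by
  rw [hC.P_smul s c hF]
  exact hC.lap_eq (hC.isLap_smul c (hC.P_isLap hs hF))

end IsDir

namespace IsGamma

variable (hC : IsGamma C) {κ K₀ N s t : ℝ} (hB : C.BEi κ)
variable {f g h k w F G φ : M →ₘ[m] ℝ}

section basic
include hC

/-- `Γ(f, Δg) + Γ(g, Δf) ∈ L²` for test functions -/
theorem mix_mem2 (hf : f ∈ C.Test) (hg : g ∈ C.Test) :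
    MemLp (C.Γ f (C.lap g) + C.Γ g (C.lap f) : M →ₘ[m] ℝ) 2 m := by
  have fA := hC.test_A hf
  have gA := hC.test_A hg
  exact mem_add (hC.Γ_mem2 fA.1 (hC.test_Γ_top hf) (hC.test_lap_mem hg))
    (hC.Γ_mem2 gA.1 (hC.test_Γ_top hg) (hC.test_lap_mem hf))

theorem testI_lap2 (hf : f ∈ C.TestI) (hg : g ∈ C.Test) :
    MemLp (C.lap f * C.lap g : M →ₘ[m] ℝ) 2 m :=
  mem_mul_top hf.2 (hC.memLp _ (hC.test_lap_mem hg))

theorem tI_add (hf : f ∈ C.TestI) (hg : g ∈ C.TestI) : f + g ∈ C.TestI := by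
  refine ⟨hC.test_add' hf.1 hg.1, ?_⟩
  rw [hC.lap_eq (hC.isLap_add (hC.test_isLap hf.1) (hC.test_isLap hg.1))]
  exact mem_add hf.2 hg.2

theorem tI_smul (c : ℝ) (hf : f ∈ C.TestI) : c • f ∈ C.TestI := by
  refine ⟨hC.test_smul' c hf.1, ?_⟩
  rw [hC.lap_eq (hC.isLap_smul c (hC.test_isLap hf.1))]
  exact mem_smul _ hf.2

theorem tI_sub (hf : f ∈ C.TestI) (hg : g ∈ C.TestI) : f - g ∈ C.TestI := by
  have e : f - g = f + (-1 : ℝ) • g := by module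
  rw [e]; exact hC.tI_add hf (hC.tI_smul _ hg)

theorem tI_zero : (0 : M →ₘ[m] ℝ) ∈ C.TestI := by
  refine ⟨hC.test_zero', ?_⟩
  have h0 : C.lap (0 : M →ₘ[m] ℝ) = 0 := by
    refine hC.lap_eq ⟨hC.zero_mem, mem_zero, fun g hg => ?_⟩
    show I (C.Γ 0 g) = -I (0 * g)
    rw [hC.Γ_zero_left hg, zero_mul, I_zero, neg_zero]
  rw [h0]; exact mem_zero

theorem tI_sum {ι : Type*} (s : Finset ι) {F : ι → M →ₘ[m] ℝ} (hF : ∀ i ∈ s, F i ∈ C.TestI) :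
    ∑ i ∈ s, F i ∈ C.TestI := by
  classical
  induction s using Finset.induction_on with
  | empty => simpa using hC.tI_zero
  | insert i s hi ih =>
    rw [Finset.sum_insert hi]
    exact hC.tI_add (hF i (Finset.mem_insert_self i s))
      (ih fun j hj => hF j (Finset.mem_insert_of_mem hj))

end basic

include hC hB

theorem Γ_mem2' (hf : f ∈ C.Test) (hg : g ∈ C.Test) : MemLp (C.Γ f g) 2 m :=
  hC.memLp _ (hC.Γ_mem hB hf hg).1

theorem gam_mem2 (hs : 0 < s) (hf : f ∈ C.Test) (hg : g ∈ C.Test) :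
    MemLp (C.gam K₀ s f g) 2 m := by
  have a := hC.Γ_mem2' hB hf hg
  exact mem_add (mem_sub (mem_smul _ (hC.lap_P_mem2 hs a))
    (mem_smul _ (hC.P_mem2 s (hC.mix_mem2 hf hg)))) (mem_smul _ (hC.P_mem2 s a))

theorem qam_mem2 (hs : 0 < s) (hf : f ∈ C.TestI) (hg : g ∈ C.TestI) :
    MemLp (C.qam K₀ N s f g) 2 m :=
  mem_sub (hC.gam_mem2 hB hs hf.1 hg.1) (mem_smul _ (hC.P_mem2 s (hC.testI_lap2 hf hg.1)))

theorem gam_symm (hf : f ∈ C.Test) (hg : g ∈ C.Test) : C.gam K₀ s f g = C.gam K₀ s g f := by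
  unfold Calc.gam
  rw [hC.symm _ (hC.test_A hf).1 _ (hC.test_A hg).1, add_comm (C.Γ f (C.lap g))]

theorem qam_symm (hf : f ∈ C.Test) (hg : g ∈ C.Test) : C.qam K₀ N s f g = C.qam K₀ N s g f := by
  unfold Calc.qam
  rw [hC.gam_symm hB hf hg, mul_comm (C.lap f)]

theorem gam_add_left (hs : 0 < s) (hf : f ∈ C.Test) (hg : g ∈ C.Test) (hh : h ∈ C.Test) :
    C.gam K₀ s (f + g) h = C.gam K₀ s f h + C.gam K₀ s g h := by
  have fA := (hC.test_A hf).1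
  have gA := (hC.test_A hg).1
  have hA := (hC.test_A hh).1
  have lf := hC.test_lap_mem hf
  have lg := hC.test_lap_mem hg
  have lh := hC.test_lap_mem hh
  have a1 := hC.Γ_mem2' hB hf hh
  have a2 := hC.Γ_mem2' hB hg hh
  unfold Calc.gam
  have e1 : C.Γ (f + g) (C.lap h) + C.Γ h (C.lap (f + g))
      = (C.Γ f (C.lap h) + C.Γ h (C.lap f)) + (C.Γ g (C.lap h) + C.Γ h (C.lap g)) := by
    rw [hC.lap_add hB hf hg, hC.add_left _ fA _ gA _ lh, hC.Γ_add_right hA lf lg]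
    algebra
  rw [e1, hC.add_left _ fA _ gA _ hA, hC.lap_P_add hs a1 a2, hC.P_add s a1 a2,
    hC.P_add s (hC.mix_mem2 hf hh) (hC.mix_mem2 hg hh)]
  module

theorem gam_smul_left (hs : 0 < s) (c : ℝ) (hf : f ∈ C.Test) (hh : h ∈ C.Test) :
    C.gam K₀ s (c • f) h = c • C.gam K₀ s f h := by
  have fA := (hC.test_A hf).1
  have hA := (hC.test_A hh).1
  have lf := hC.test_lap_mem hf
  have lh := hC.test_lap_mem hh
  have a1 := hC.Γ_mem2' hB hf hh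
  unfold Calc.gam
  have e1 : C.Γ (c • f) (C.lap h) + C.Γ h (C.lap (c • f))
      = c • (C.Γ f (C.lap h) + C.Γ h (C.lap f)) := by
    rw [hC.lap_smul hB c hf, hC.smul_left _ _ fA _ lh, hC.Γ_smul_right _ hA lf]
    module
  rw [e1, hC.smul_left _ _ fA _ hA, hC.lap_P_smul hs c a1, hC.P_smul s c a1,
    hC.P_smul s c (hC.mix_mem2 hf hh)]
  module

theorem gam_add_right (hs : 0 < s) (hf : f ∈ C.Test) (hg : g ∈ C.Test) (hh : h ∈ C.Test) :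
    C.gam K₀ s f (g + h) = C.gam K₀ s f g + C.gam K₀ s f h := by
  rw [hC.gam_symm hB hf (hC.test_add hB hg hh), hC.gam_add_left hB hs hg hh hf,
    hC.gam_symm hB hg hf, hC.gam_symm hB hh hf]

theorem gam_smul_right (hs : 0 < s) (c : ℝ) (hf : f ∈ C.Test) (hg : g ∈ C.Test) :
    C.gam K₀ s f (c • g) = c • C.gam K₀ s f g := by
  rw [hC.gam_symm hB hf (hC.test_smul hB c hg), hC.gam_smul_left hB hs c hg hf,
    hC.gam_symm hB hg hf]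

theorem qam_add_left (hs : 0 < s) (hf : f ∈ C.TestI) (hg : g ∈ C.TestI) (hh : h ∈ C.TestI) :
    C.qam K₀ N s (f + g) h = C.qam K₀ N s f h + C.qam K₀ N s g h := by
  unfold Calc.qam
  have e : C.lap (f + g) * C.lap h = C.lap f * C.lap h + C.lap g * C.lap h := by
    rw [hC.lap_add hB hf.1 hg.1, add_mul]
  rw [hC.gam_add_left hB hs hf.1 hg.1 hh.1, e,
    hC.P_add s (hC.testI_lap2 hf hh.1) (hC.testI_lap2 hg hh.1)]
  module

theorem qam_smul_left (hs : 0 < s) (c : ℝ) (hf : f ∈ C.TestI) (hh : h ∈ C.TestI) :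
    C.qam K₀ N s (c • f) h = c • C.qam K₀ N s f h := by
  unfold Calc.qam
  have e : C.lap (c • f) * C.lap h = c • (C.lap f * C.lap h) := by
    rw [hC.lap_smul hB c hf.1, smul_mul_assoc]
  rw [hC.gam_smul_left hB hs c hf.1 hh.1, e, hC.P_smul s c (hC.testI_lap2 hf hh.1)]
  module

/-- `P_t γ_s(f,g) = γ_{s+t}(f,g)` -/
theorem P_gam (hs : 0 < s) (ht : 0 ≤ t) (hf : f ∈ C.Test) (hg : g ∈ C.Test) :
    C.P t (C.gam K₀ s f g) = C.gam K₀ (s + t) f g := by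
  have a := hC.Γ_mem2' hB hf hg
  have b := hC.mix_mem2 hf hg
  have l2 := hC.lap_P_mem2 hs a
  unfold Calc.gam
  rw [hC.P_add t (mem_sub (mem_smul _ l2) (mem_smul _ (hC.P_mem2 s b)))
    (mem_smul _ (hC.P_mem2 s a)), hC.P_sub t (mem_smul _ l2) (mem_smul _ (hC.P_mem2 s b)),
    hC.P_smul t _ l2, hC.P_smul t _ (hC.P_mem2 s b), hC.P_smul t _ (hC.P_mem2 s a),
    hC.P_lap_add' hs ht a, hC.P_P ht hs.le b, hC.P_P ht hs.le a, add_comm t s]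

theorem P_qam (hs : 0 < s) (ht : 0 ≤ t) (hf : f ∈ C.TestI) (hg : g ∈ C.TestI) :
    C.P t (C.qam K₀ N s f g) = C.qam K₀ N (s + t) f g := by
  have c := hC.testI_lap2 hf hg.1
  unfold Calc.qam
  rw [hC.P_sub t (hC.gam_mem2 hB hs hf.1 hg.1) (mem_smul _ (hC.P_mem2 s c)),
    hC.P_gam hB hs ht hf.1 hg.1, hC.P_smul t _ (hC.P_mem2 s c), hC.P_P ht hs.le c, add_comm t s]

/-- the definition, solved for the Laplacian -/
theorem lap_P_Γ : C.lap (C.P s (C.Γ f g)) = (2 : ℝ) • C.gam K₀ s f g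
    + C.P s (C.Γ f (C.lap g) + C.Γ g (C.lap f)) - (2 * K₀) • C.P s (C.Γ f g) := by
  unfold Calc.gam
  module

/-- the functional form: `I(γ_s(f,g) w) = NN_{-K₀}(f,g; P_s w)` -/
theorem I_gam (hs : 0 < s) (hf : f ∈ C.Test) (hg : g ∈ C.Test) (hw : MemLp w 2 m) :
    I (C.gam K₀ s f g * w) = C.NN (-K₀) f g (C.P s w) := by
  have hF := (hC.Γ_mem hB hf hg).1
  have a := hC.memLp _ hF
  have b := hC.mix_mem2 hf hg
  have l2 := hC.lap_P_mem2 hs a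
  have n1 := mem_mul_22 l2 hw
  have n2 := mem_mul_22 (hC.P_mem2 s b) hw
  have n3 := mem_mul_22 (hC.P_mem2 s a) hw
  have e : C.gam K₀ s f g * w = (2 : ℝ)⁻¹ • (C.lap (C.P s (C.Γ f g)) * w)
      - (2 : ℝ)⁻¹ • (C.P s (C.Γ f (C.lap g) + C.Γ g (C.lap f)) * w)
      + K₀ • (C.P s (C.Γ f g) * w) := by
    unfold Calc.gam; algebra
  rw [e, I_add (mem_sub (mem_smul _ n1) (mem_smul _ n2)) (mem_smul _ n3),
    I_sub (mem_smul _ n1) (mem_smul _ n2), I_smul, I_smul, I_smul,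
    hC.I_lap_P hs hF hw, hC.P_symm s b hw, hC.P_symm s a hw]
  unfold Calc.NN
  rw [mul_comm (C.P s w), mul_comm (C.P s w)]
  ring

theorem I_qam (hs : 0 < s) (hf : f ∈ C.TestI) (hg : g ∈ C.TestI) (hw : MemLp w 2 m) :
    I (C.qam K₀ N s f g * w)
      = C.NN (-K₀) f g (C.P s w) - N⁻¹ * I (C.P s w * (C.lap f * C.lap g)) := by
  have c := hC.testI_lap2 hf hg.1
  unfold Calc.qam
  rw [sub_mul, smul_mul_assoc, I_sub (mem_mul_22 (hC.gam_mem2 hB hs hf.1 hg.1) hw)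
    (mem_smul _ (mem_mul_22 (hC.P_mem2 s c) hw)), I_smul, hC.I_gam hB hs hf.1 hg.1 hw,
    hC.P_symm s c hw, mul_comm (C.P s w)]

end IsGamma

namespace IsGamma

variable (hC : IsGamma C) {K₀ N s t : ℝ}
variable {f g h k w F G φ : M →ₘ[m] ℝ}

/-- `BE(-K₀,N)` for the functional `NN` -/
theorem NN_ge (hC : IsGamma C) (hN : 0 < N) (hBE : C.BE (-K₀) N) (hf : f ∈ C.Test)
    (hφ : φ ∈ C.A) (h0 : 0 ≤ φ) :
    N⁻¹ * I (φ * (C.lap f * C.lap f)) ≤ C.NN (-K₀) f f φ := by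
  have hB := hC.bei hN hBE
  have h1 := hC.bochner_weakN hN hBE hf hφ h0
  obtain ⟨n1, n2, n3, n4⟩ := hC.NN_int1 hB hf hf hφ
  have e : φ * (C.Γ f (C.lap f) + (-K₀) • C.Γ f f + N⁻¹ • C.lap f ^ 2)
      = (2 : ℝ)⁻¹ • (φ * (C.Γ f (C.lap f) + C.Γ f (C.lap f))) + (-K₀) • (φ * C.Γ f f)
        + N⁻¹ • (φ * (C.lap f * C.lap f)) := by algebra
  rw [e, I_add (mem_add (mem_smul _ n2) (mem_smul _ n3)) (mem_smul _ n4),
    I_add (mem_smul _ n2) (mem_smul _ n3), I_smul, I_smul, I_smul] at h1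
  unfold Calc.NN
  linarith only [h1]

theorem qam_nonneg (hC : IsGamma C) (hN : 0 < N) (hBE : C.BE (-K₀) N) (hs : 0 < s)
    (hf : f ∈ C.TestI) : 0 ≤ C.qam K₀ N s f f := by
  have hB := hC.bei hN hBE
  refine nonneg_of_forall_L2 (hC.qam_mem2 hB hs hf hf) fun ψ h0 h2 ht => ?_
  rw [hC.I_qam hB hs hf hf h2, sub_nonneg]
  exact hC.NN_ge hN hBE hf.1 ⟨hC.P_mem hs h2, hC.P_memTop hs.le h2 ht⟩
    (hC.P_nonneg hs.le h2 h0)

theorem gam_nonneg (hC : IsGamma C) (hB : C.BEi (-K₀)) (hs : 0 < s)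
    (hf : f ∈ C.Test) : 0 ≤ C.gam K₀ s f f := by
  refine nonneg_of_forall_L2 (hC.gam_mem2 hB hs hf hf) fun ψ h0 h2 ht => ?_
  rw [hC.I_gam hB hs hf hf h2]
  exact hC.NN_nonneg hB hf ⟨hC.P_mem hs h2, hC.P_memTop hs.le h2 ht⟩
    (hC.P_nonneg hs.le h2 h0)

/-- `(1/N) P_s((Δf)²) ≤ γ_s(f,f)` -/
theorem gam_ge (hC : IsGamma C) (hN : 0 < N) (hBE : C.BE (-K₀) N) (hs : 0 < s)
    (hf : f ∈ C.TestI) : N⁻¹ • C.P s (C.lap f * C.lap f) ≤ C.gam K₀ s f f :=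
  sub_nonneg.1 (hC.qam_nonneg hN hBE hs hf)

theorem gam_expand (hC : IsGamma C) {κ : ℝ} (hB : C.BEi κ) (hs : 0 < s) (r : ℝ)
    (hf : f ∈ C.Test) (hg : g ∈ C.Test) :
    C.gam K₀ s (f + r • g) (f + r • g)
      = C.gam K₀ s f f + (2 * r) • C.gam K₀ s f g + (r ^ 2) • C.gam K₀ s g g := by
  have hr := hC.test_smul hB r hg
  rw [hC.gam_add_left hB hs hf hr (hC.test_add hB hf hr), hC.gam_add_right hB hs hf hf hr,
    hC.gam_add_right hB hs hr hf hr, hC.gam_smul_left hB hs r hg hf,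
    hC.gam_smul_left hB hs r hg hr, hC.gam_smul_right hB hs r hg hg,
    hC.gam_smul_right hB hs r hf hg, hC.gam_symm hB hg hf]
  module

theorem qam_expand (hC : IsGamma C) {κ : ℝ} (hB : C.BEi κ) (hs : 0 < s) (r : ℝ)
    (hf : f ∈ C.TestI) (hg : g ∈ C.TestI) :
    C.qam K₀ N s (f + r • g) (f + r • g)
      = C.qam K₀ N s f f + (2 * r) • C.qam K₀ N s f g + (r ^ 2) • C.qam K₀ N s g g := by
  have hr := hC.tI_smul r hg
  have hS := hC.tI_add hf hr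
  have e1 : C.qam K₀ N s (f + r • g) (f + r • g)
      = C.qam K₀ N s f (f + r • g) + r • C.qam K₀ N s g (f + r • g) := by
    rw [hC.qam_add_left hB hs hf hr hS, hC.qam_smul_left hB hs r hg hS]
  have e2 : C.qam K₀ N s f (f + r • g) = C.qam K₀ N s f f + r • C.qam K₀ N s f g := by
    rw [hC.qam_symm hB hf.1 hS.1, hC.qam_add_left hB hs hf hr hf, hC.qam_smul_left hB hs r hg hf,
      hC.qam_symm hB hg.1 hf.1]
  have e3 : C.qam K₀ N s g (f + r • g) = C.qam K₀ N s f g + r • C.qam K₀ N s g g := by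
    rw [hC.qam_symm hB hg.1 hS.1, hC.qam_add_left hB hs hf hr hg, hC.qam_smul_left hB hs r hg hg]
  rw [e1, e2, e3]
  module

theorem gam_nonneg_ae (hC : IsGamma C) (hB : C.BEi (-K₀)) (hs : 0 < s)
    (hf : f ∈ C.Test) : ∀ᵐ x ∂m, 0 ≤ C.gam K₀ s f f x := nonneg_iff_ae.1 (hC.gam_nonneg hB hs hf)

theorem gam_cs_ae (hC : IsGamma C) (hB : C.BEi (-K₀)) (hs : 0 < s)
    (hf : f ∈ C.Test) (hg : g ∈ C.Test) :
    ∀ᵐ x ∂m, C.gam K₀ s f g x ^ 2 ≤ C.gam K₀ s f f x * C.gam K₀ s g g x := by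
  have h1 : ∀ᵐ x ∂m, ∀ q : ℚ, 0 ≤ C.gam K₀ s f f x + 2 * (q : ℝ) * C.gam K₀ s f g x
      + (q : ℝ) ^ 2 * C.gam K₀ s g g x := by
    refine ae_all_iff.2 fun q => ?_
    have h1 := hC.gam_nonneg hB hs (hC.test_add hB hf (hC.test_smul hB (q : ℝ) hg))
    rw [hC.gam_expand hB hs (q : ℝ) hf hg, nonneg_iff_ae] at h1
    filter_upwards [h1, add_ae (C.gam K₀ s f f + (2 * (q : ℝ)) • C.gam K₀ s f g)
        (((q : ℝ) ^ 2) • C.gam K₀ s g g),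
      add_ae (C.gam K₀ s f f) ((2 * (q : ℝ)) • C.gam K₀ s f g),
      smul_ae (C.gam K₀ s f g) (2 * (q : ℝ)), smul_ae (C.gam K₀ s g g) ((q : ℝ) ^ 2)]
      with x a1 a2 a3 a4 a5
    rwa [a2, a3, a4, a5] at a1
  filter_upwards [h1] with x hx
  exact disc_of_forall (forall_real_of_rat hx)

theorem gam_abs_ae (hC : IsGamma C) (hB : C.BEi (-K₀)) (hs : 0 < s)
    (hf : f ∈ C.Test) (hg : g ∈ C.Test) :
    ∀ᵐ x ∂m, |C.gam K₀ s f g x| ≤ √(C.gam K₀ s f f x) * √(C.gam K₀ s g g x) := by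
  filter_upwards [hC.gam_cs_ae hB hs hf hg, hC.gam_nonneg_ae hB hs hf] with x h1 h2
  rw [← Real.sqrt_mul h2]
  exact Real.abs_le_sqrt h1

theorem qam_cs_ae (hC : IsGamma C) (hN : 0 < N) (hBE : C.BE (-K₀) N) (hs : 0 < s)
    (hf : f ∈ C.TestI) (hg : g ∈ C.TestI) :
    ∀ᵐ x ∂m, C.qam K₀ N s f g x ^ 2 ≤ C.qam K₀ N s f f x * C.qam K₀ N s g g x := by
  have hB := hC.bei hN hBE
  have h1 : ∀ᵐ x ∂m, ∀ q : ℚ, 0 ≤ C.qam K₀ N s f f x + 2 * (q : ℝ) * C.qam K₀ N s f g x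
      + (q : ℝ) ^ 2 * C.qam K₀ N s g g x := by
    refine ae_all_iff.2 fun q => ?_
    have h1 := hC.qam_nonneg hN hBE hs (hC.tI_add hf (hC.tI_smul (q : ℝ) hg))
    rw [hC.qam_expand hB hs (q : ℝ) hf hg, nonneg_iff_ae] at h1
    filter_upwards [h1, add_ae (C.qam K₀ N s f f + (2 * (q : ℝ)) • C.qam K₀ N s f g)
        (((q : ℝ) ^ 2) • C.qam K₀ N s g g),
      add_ae (C.qam K₀ N s f f) ((2 * (q : ℝ)) • C.qam K₀ N s f g),
      smul_ae (C.qam K₀ N s f g) (2 * (q : ℝ)), smul_ae (C.qam K₀ N s g g) ((q : ℝ) ^ 2)]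
      with x a1 a2 a3 a4 a5
    rwa [a2, a3, a4, a5] at a1
  filter_upwards [h1] with x hx
  exact disc_of_forall (forall_real_of_rat hx)

end IsGamma

/-! ### the positive functional `NN` on the diagonal -/

namespace IsGamma

variable (hC : IsGamma C) {κ : ℝ} (hB : C.BEi κ)
variable {f g h k φ ψ z : M →ₘ[m] ℝ}
include hC hB

theorem NN_add_right (hf : f ∈ C.Test) (hg : g ∈ C.Test) (hh : h ∈ C.Test) (hφ : φ ∈ C.A) :
    C.NN κ f (g + h) φ = C.NN κ f g φ + C.NN κ f h φ := by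
  rw [hC.NN_symm hB hf (hC.test_add hB hg hh), hC.NN_add_left hB hg hh hf hφ,
    hC.NN_symm hB hg hf, hC.NN_symm hB hh hf]

theorem NN_smul_right (c : ℝ) (hf : f ∈ C.Test) (hg : g ∈ C.Test) (hφ : φ ∈ C.A) :
    C.NN κ f (c • g) φ = c * C.NN κ f g φ := by
  rw [hC.NN_symm hB hf (hC.test_smul hB c hg), hC.NN_smul_left hB c hg hf hφ,
    hC.NN_symm hB hg hf]

theorem NN_expand (r : ℝ) (hf : f ∈ C.Test) (hg : g ∈ C.Test) (hφ : φ ∈ C.A) :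
    C.NN κ (f + r • g) (f + r • g) φ
      = C.NN κ f f φ + 2 * r * C.NN κ f g φ + r ^ 2 * C.NN κ g g φ := by
  have hr := hC.test_smul hB r hg
  rw [hC.NN_add_left hB hf hr (hC.test_add hB hf hr) hφ, hC.NN_add_right hB hf hf hr hφ,
    hC.NN_add_right hB hr hf hr hφ, hC.NN_smul_left hB r hg hf hφ,
    hC.NN_smul_left hB r hg hr hφ, hC.NN_smul_right hB r hg hg hφ,
    hC.NN_smul_right hB r hf hg hφ, hC.NN_symm hB hg hf]
  ring

/-- Cauchy-Schwarz for the functional -/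
theorem NN_cs (hf : f ∈ C.Test) (hg : g ∈ C.Test) (hφ : φ ∈ C.A) (h0 : 0 ≤ φ) :
    C.NN κ f g φ ^ 2 ≤ C.NN κ f f φ * C.NN κ g g φ := by
  refine disc_of_forall fun r => ?_
  rw [← hC.NN_expand hB r hf hg hφ]
  exact hC.NN_nonneg hB (hC.test_add hB hf (hC.test_smul hB r hg)) hφ h0

theorem NN_abs (hf : f ∈ C.Test) (hg : g ∈ C.Test) (hφ : φ ∈ C.A) (h0 : 0 ≤ φ) :
    |C.NN κ f g φ| ≤ √(C.NN κ f f φ) * √(C.NN κ g g φ) := by
  rw [← Real.sqrt_mul (hC.NN_nonneg hB hf hφ h0)]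
  exact Real.abs_le_sqrt (hC.NN_cs hB hf hg hφ h0)

theorem NN_sub_φ (hf : f ∈ C.Test) (hg : g ∈ C.Test) (hφ : φ ∈ C.A) (hψ : ψ ∈ C.A) :
    C.NN κ f g (φ - ψ) = C.NN κ f g φ - C.NN κ f g ψ := by
  have e : φ - ψ = φ + (-1 : ℝ) • ψ := by module
  rw [e, hC.NN_add_φ hB hf hg hφ (hC.A_smul (-1) hψ), hC.NN_smul_φ hB (-1) hf hg hψ]
  ring

/-- monotone in the weight -/
theorem NN_mono (hf : f ∈ C.Test) (hφ : φ ∈ C.A) (hψ : ψ ∈ C.A) (hle : φ ≤ ψ) :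
    C.NN κ f f φ ≤ C.NN κ f f ψ := by
  have h1 := hC.NN_nonneg hB hf (hC.A_sub hψ hφ) (sub_nonneg.2 hle)
  rw [hC.NN_sub_φ hB hf hf hψ hφ] at h1
  linarith

/-- Harnack for the functional -/
theorem NN_harn {c : ℝ} (hf : f ∈ C.Test) (hφ : φ ∈ C.A) (hψ : ψ ∈ C.A) (hle : φ ≤ c • ψ) :
    C.NN κ f f φ ≤ c * C.NN κ f f ψ := by
  rw [← hC.NN_smul_φ hB c hf hf hψ]
  exact hC.NN_mono hB hf hφ (hC.A_smul c hψ) hle

/-- Cauchy-Schwarz with a signed weight `z`, `|z| ≤ φ` -/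
theorem NN_abs_le (hf : f ∈ C.Test) (hg : g ∈ C.Test) (hz : z ∈ C.A) (hφ : φ ∈ C.A)
    (h1 : z ≤ φ) (h2 : -z ≤ φ) :
    |C.NN κ f g z| ≤ √(C.NN κ f f φ) * √(C.NN κ g g φ) := by
  have p1 : φ + z ∈ C.A := hC.A_add hφ hz
  have p2 : φ - z ∈ C.A := hC.A_sub hφ hz
  have q1 : (0 : M →ₘ[m] ℝ) ≤ φ + z := by
    have := sub_nonneg.2 h2
    rwa [sub_neg_eq_add] at this
  have q2 : (0 : M →ₘ[m] ℝ) ≤ φ - z := sub_nonneg.2 h1
  have hφ0 : (0 : M →ₘ[m] ℝ) ≤ φ := by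
    have h3 : (0 : M →ₘ[m] ℝ) ≤ (2 : ℝ)⁻¹ • ((φ + z) + (φ - z)) :=
      smul_nonneg' (by norm_num) (add_nonneg q1 q2)
    have e : (2 : ℝ)⁻¹ • ((φ + z) + (φ - z)) = φ := by module
    rwa [e] at h3
  -- the scaled expansion
  have key : ∀ a b : ℝ, 0 ≤ a ^ 2 * C.NN κ f f φ + 2 * a * b * C.NN κ f g z
      + b ^ 2 * C.NN κ g g φ := by
    intro a b
    have haf := hC.test_smul hB a hf
    have hbg := hC.test_smul hB b hg
    have hbg' := hC.test_smul hB (-b) hg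
    have e1 := hC.NN_nonneg hB (hC.test_add hB haf hbg) p1 q1
    have e2 := hC.NN_nonneg hB (hC.test_add hB haf hbg') p2 q2
    rw [hC.NN_expand hB b haf hg p1, hC.NN_add_φ hB haf haf hφ hz, hC.NN_add_φ hB haf hg hφ hz,
      hC.NN_add_φ hB hg hg hφ hz] at e1
    rw [hC.NN_expand hB (-b) haf hg p2, hC.NN_sub_φ hB haf haf hφ hz,
      hC.NN_sub_φ hB haf hg hφ hz, hC.NN_sub_φ hB hg hg hφ hz] at e2
    have s1 : C.NN κ (a • f) (a • f) φ = a ^ 2 * C.NN κ f f φ := by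
      rw [hC.NN_smul_left hB a hf haf hφ, hC.NN_smul_right hB a hf hf hφ]; ring
    have s2 : C.NN κ (a • f) g z = a * C.NN κ f g z := hC.NN_smul_left hB a hf hg hz
    rw [s1, s2] at e1 e2
    nlinarith [e1, e2]
  have d1 : C.NN κ f g z ^ 2 ≤ C.NN κ f f φ * C.NN κ g g φ := by
    refine disc_of_forall fun r => ?_
    have := key 1 r
    linarith only [this]
  rw [← Real.sqrt_mul (hC.NN_nonneg hB hf hφ hφ0)]
  exact Real.abs_le_sqrt d1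

/-- parallelogram bound -/
theorem NN_sub_le (hf : f ∈ C.Test) (hg : g ∈ C.Test) (hφ : φ ∈ C.A) (h0 : 0 ≤ φ) :
    C.NN κ (f - g) (f - g) φ ≤ 2 * C.NN κ f f φ + 2 * C.NN κ g g φ := by
  have e1 := hC.NN_expand hB (-1) hf hg hφ
  have e2 := hC.NN_expand hB 1 hf hg hφ
  have e3 := hC.NN_nonneg hB (hC.test_add hB hf (hC.test_smul hB 1 hg)) hφ h0
  have e : f - g = f + (-1 : ℝ) • g := by module
  rw [e, e1]
  rw [e2] at e3
  linarith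

theorem NN_add_le (hf : f ∈ C.Test) (hg : g ∈ C.Test) (hφ : φ ∈ C.A) (h0 : 0 ≤ φ) :
    C.NN κ (f + g) (f + g) φ ≤ 2 * C.NN κ f f φ + 2 * C.NN κ g g φ := by
  have e1 := hC.NN_expand hB (-1) hf hg hφ
  have e2 := hC.NN_expand hB 1 hf hg hφ
  have e3 := hC.NN_nonneg hB (hC.test_add hB hf (hC.test_smul hB (-1) hg)) hφ h0
  have e : f + g = f + (1 : ℝ) • g := by module
  rw [e, e2]
  rw [e1] at e3
  linarith

end IsGamma

/-! ### centre families -/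

/-- A centre family: the classes of `p_s(x,·)`, `s > 0`. Then `P_s F (x) = I(φ_s F)` and
`γ_s(f,g)(x) = NN_{-K₀}(f,g;φ_s)`. -/
structure Cen (C : Calc m) (φ : ℝ → M →ₘ[m] ℝ) : Prop where
  mem2 : ∀ s, 0 < s → MemLp (φ s) 2 m
  top : ∀ s, 0 < s → MemLp (φ s) ∞ m
  nonneg : ∀ s, 0 < s → 0 ≤ φ s
  mem1 : ∀ s, 0 < s → MemLp (φ s) 1 m
  mass : ∀ s, 0 < s → I (φ s) = 1
  semi : ∀ s t, 0 < s → 0 ≤ t → C.P t (φ s) = φ (s + t)

namespace Cen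

variable {φ : ℝ → M →ₘ[m] ℝ} (hφ : Cen C φ) {K₀ N s t : ℝ} {f g h F G : M →ₘ[m] ℝ}
include hφ

theorem eq_P (hs : 0 < s) : φ s = C.P (s / 2) (φ (s / 2)) := by
  rw [hφ.semi (s / 2) (s / 2) (by linarith) (by linarith)]
  congr 1; ring

theorem isLap (hC : IsDir C) (hs : 0 < s) : C.IsLap (φ s) (C.lap (φ s)) := by
  rw [hφ.eq_P hs]
  exact hC.P_isLap (by linarith) (hφ.mem2 _ (by linarith))

theorem memA (hC : IsDir C) (hs : 0 < s) : φ s ∈ C.A := ⟨(hφ.isLap hC hs).1, hφ.top s hs⟩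

theorem test (hC : IsGamma C) {κ : ℝ} (hB : C.BEi κ) (hs : 0 < s) : φ s ∈ C.Test := by
  rw [hφ.eq_P hs]
  exact hC.P_test_pos hB (by linarith) (hφ.mem2 _ (by linarith)) (hφ.top _ (by linarith))

theorem testI (hC : IsGamma C) [SigmaFinite m] (hN : 0 < N) {K : ℝ} (hBE : C.BE K N)
    (hs : 0 < s) : φ s ∈ C.TestI := by
  rw [hφ.eq_P hs]
  exact H715.P_testI_pos hC hN hBE (by linarith) (hφ.mem2 _ (by linarith))
    (hφ.top _ (by linarith))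

theorem P_lap (hC : IsDir C) (hs : 0 < s) (ht : 0 ≤ t) :
    C.P t (C.lap (φ s)) = C.lap (φ (s + t)) := by
  rw [← hφ.semi s t hs ht, hC.P_lap_of t (hφ.isLap hC hs)]

/-- `P_s(P_t F)(x) = P_{s+t} F(x)` -/
theorem av_P (hC : IsDir C) (hs : 0 < s) (ht : 0 ≤ t) (hF : MemLp F 2 m) :
    I (φ s * C.P t F) = I (φ (s + t) * F) := by
  rw [← hφ.semi s t hs ht, hC.P_symm t (hφ.mem2 s hs) hF]

/-- `γ_{s+t}(f,g)(x)` as the average of the class `gam` -/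
theorem av_gam (hC : IsGamma C) {κ : ℝ} (hB : C.BEi κ) (hs : 0 < s) (ht : 0 < t)
    (hf : f ∈ C.Test) (hg : g ∈ C.Test) :
    I (φ s * C.gam K₀ t f g) = C.NN (-K₀) f g (φ (s + t)) := by
  rw [mul_comm, hC.I_gam hB ht hf hg (hφ.mem2 s hs), hφ.semi s t hs ht.le]

theorem mem_mul (hs : 0 < s) (hF : MemLp F 1 m) : MemLp (φ s * F : M →ₘ[m] ℝ) 1 m :=
  mem_mul_top (hφ.top s hs) hF

theorem av_mono (hs : 0 < s) (hF : MemLp F 1 m) (hG : MemLp G 1 m) (h : F ≤ G) :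
    I (φ s * F) ≤ I (φ s * G) :=
  I_mono (hφ.mem_mul hs hF) (hφ.mem_mul hs hG) (mul_le_mul_of_nonneg_left h (hφ.nonneg s hs))

theorem av_nonneg (hs : 0 < s) (h0 : 0 ≤ F) : 0 ≤ I (φ s * F) :=
  I_nonneg (mul_nonneg (hφ.nonneg s hs) h0)

/-- `d/ds P_s F(x) = Δ P_s F (x)` -/
theorem hasDeriv_av (hC : IsDir C) (hs : 0 < s) (hF : MemLp F 2 m) :
    HasDerivAt (fun s => I (φ s * F)) (I (C.lap (φ s) * F)) s := by
  have h2 : 0 < s / 2 := by linarith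
  have h1 := hC.P_hasDeriv_I (t := s / 2) h2 (hφ.isLap hC h2) hF
  have e1 : C.P (s / 2) (C.lap (φ (s / 2))) = C.lap (φ s) := by
    rw [hφ.P_lap hC h2 h2.le]
    congr 2; ring
  rw [e1] at h1
  have h3 : HasDerivAt (fun r => I (C.P (r - s / 2) (φ (s / 2)) * F)) (I (C.lap (φ s) * F)) s := by
    have e : s - s / 2 = s / 2 := by ring
    exact HasDerivAt.comp_sub_const s (s / 2) (by rw [e]; exact h1)
  refine h3.congr_of_eventuallyEq ?_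
  filter_upwards [eventually_gt_nhds (show s / 2 < s by linarith)] with r hr
  rw [hφ.semi (s / 2) (r - s / 2) h2 (by linarith)]
  congr 3; ring

/-- `Δ P_s F(x)` for `F ∈ W` -/
theorem I_lap_av (hC : IsDir C) (hs : 0 < s) (hF : F ∈ C.W) :
    I (C.lap (φ s) * F) = -I (C.Γ F (φ s)) := by
  have h1 : I (C.Γ (φ s) F) = -I (C.lap (φ s) * F) := (hφ.isLap hC hs).2.2 _ hF
  rw [hC.symm _ hF _ (hφ.isLap hC hs).1, h1]
  ring

/-- `Δ P_s Γ(f,g)(x) = 2 γ_s(f,g)(x) + P_s(Γ(f,Δg) + Γ(g,Δf))(x) - 2 K₀ P_s Γ(f,g)(x)` -/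
theorem lap_av_Γ (hC : IsGamma C) {κ : ℝ} (hB : C.BEi κ) (hs : 0 < s)
    (hf : f ∈ C.Test) (hg : g ∈ C.Test) :
    I (C.lap (φ s) * C.Γ f g) = 2 * C.NN (-K₀) f g (φ s)
      + I (φ s * (C.Γ f (C.lap g) + C.Γ g (C.lap f))) - 2 * K₀ * I (φ s * C.Γ f g) := by
  rw [hφ.I_lap_av hC.toIsDir hs (hC.Γ_mem hB hf hg).1]
  unfold Calc.NN
  ring

end Cen

end Vale.Agent.P233
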