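import Vale.Agent.P242.H542.DlEnv
import Vale.Agent.P242.H196.R1
import Vale.Agent.P242.H597.PreX

/-! P242, Part A, A-DL (helper542): `Blk_DLX`, the decay lemma at one centre in the vocabulary of
`Voc.lean`, from `H358.Blk_PreX`. -/

set_option linter.all false

open MeasureTheory Filter Topology Set Metric
open scoped ENNReal NNReal InnerProductSpace

universe u

namespace Vale.Agent.P242.H542

open Vale.Agent.P233 Vale.Agent.P242.H71 Vale.Agent.P242.H520 Vale.Agent.P242.H990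
  Vale.Agent.P242.H155

section

variable {M : Type u} [MetricSpace M] [MeasurableSpace M]

/-- The decay lemma at the centre `x`, from the time `t` to the time `t/Λ²`. -/
def DLx (m : Measure M) {n : ℕ} (p : ℝ → M → M → ℝ) (Λ C CL e a₀ : ℝ) (u : Fin n → M →ₘ[m] ℝ)
    (x : M) (t : ℝ) : Prop :=
  ∃ W : (M →ₘ[m] ℝ) → E n,
    ((∀ F G : M →ₘ[m] ℝ, MemLp F 2 m → MemLp G 2 m → W (F + G) = W F + W G) ∧
      ∀ (r : ℝ) (F : M →ₘ[m] ℝ), MemLp F 2 m → W (r • F) = r • W F) ∧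
    ∀ F : M →ₘ[m] ℝ, MemLp F 2 m → MemLp F ∞ m → ∀ c₀ r S : ℝ, 0 ≤ S →
      PP m p t x |F - c₀ • (1 : M →ₘ[m] ℝ)| ≤ r →
      (∀ s ∈ Icc (t / Λ ^ 2) t, ∀ τ ∈ Ioc 0 (a₀ * t),
        PP m p s x |(sob m).lap ((sob m).P τ F)| ≤ S) →
      Gm m p u (t / Λ ^ 2) x (W F) (W F) ≤ (C * r / √t) ^ 2 ∧
      Gm m p u t x (W F) (W F) ≤ (C * r / √t) ^ 2 ∧
      ∃ c₁ : ℝ, PP m p (t / Λ ^ 2) x |F - c₁ • (1 : M →ₘ[m] ℝ) - uc u (W F)| ≤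
        1 / Λ * ((C / Λ + e) * r + CL * t * S)

end

/-- **A-DL** -/
def Blk_DLX : Prop := ForM.{u} fun M _ _ _ => ∀ (m : Measure M) (n : ℕ) (K : ℝ) (o : M) (A : ℝ)
  (p : ℝ → M → M → ℝ), Env m n K o A p → ∃ C a₀ : ℝ, 1 ≤ C ∧ 0 < a₀ ∧ a₀ ≤ 1 / 2 ∧
  ∀ Λ : ℝ, C ≤ Λ → ∃ CL : ℝ, 1 ≤ CL ∧
  ∃ Q₀, 1 ≤ Q₀ ∧ ∀ Q, Q₀ ≤ Q → ∃ R₀, 1 ≤ R₀ ∧ ∀ R, R₀ ≤ R → ∀ e, 0 < e → ∃ ε₁, 0 < ε₁ ∧
    ∀ ε' η ρ, 0 < ε' → ε' ≤ ε₁ → 0 < η → η ≤ ε₁ → ρ ≤ ε₁ →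
      ∀ (u : Fin n → M →ₘ[m] ℝ) (uu : M → E n), Cfg m n K o p R Q η ρ u uu →
        ∀ x ∈ ball o (R / 2 * ρ), ∀ t, 0 < t → t ≤ ρ ^ 2 → TTx m K p Q ε' ρ u x (t / Λ ^ 2) →
          DLx m p Λ C CL e a₀ u x t

theorem dlv_real0 {N A' M0 : ℝ} (hn1 : 1 ≤ N) (hA : 1 ≤ A') (hM : 1 ≤ M0) :
    1 ≤ 30 * N ^ 3 * A' ^ 2 * M0 ∧ 4 * N * M0 ≤ 30 * N ^ 3 * A' ^ 2 * M0 ∧
      4 * N * A' ^ 2 * M0 ≤ 30 * N ^ 3 * A' ^ 2 * M0 := by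
  have hA2 : 1 ≤ A' ^ 2 := one_le_pow₀ hA
  have hn3 : N ≤ N ^ 3 := by
    calc N = N ^ 1 := (pow_one _).symm
      _ ≤ N ^ 3 := pow_le_pow_right₀ hn1 (by norm_num)
  have h0 : 0 < N := by linarith
  have h1 : 4 * N * A' ^ 2 * M0 ≤ 30 * N ^ 3 * A' ^ 2 * M0 := by
    have h2 : N * (A' ^ 2 * M0) ≤ N ^ 3 * (A' ^ 2 * M0) := by gcongr
    have h3 : 0 < N * (A' ^ 2 * M0) := by positivity
    nlinarith only [h2, h3]
  have h4 : 4 * N * M0 ≤ 4 * N * A' ^ 2 * M0 := by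
    calc 4 * N * M0 = 4 * N * 1 * M0 := by ring
      _ ≤ 4 * N * A' ^ 2 * M0 := by gcongr
  have h5 : 1 ≤ N * M0 := one_le_mul_of_one_le_of_one_le hn1 hM
  exact ⟨by linarith only [h1, h4, h5], h4.trans h1, h1⟩

theorem dlv_real1 {N A' M0 i r t D : ℝ} (hn1 : 1 ≤ N) (hA : 1 ≤ A') (hM : 1 ≤ M0) (hi : 0 < i)
    (hr : 0 ≤ r) (ht : 0 < t) (hD : D = 30 * N ^ 3 * A' ^ 2 * M0) :
    2 * (N * (2 * M0 / √t * r) ^ 2) ≤ ((D + i) * r / √t) ^ 2 := by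
  obtain ⟨-, h1, -⟩ := dlv_real0 hn1 hA hM
  rw [← hD] at h1
  have hst := Real.sqrt_pos.2 ht
  have e1 : 2 * (N * (2 * M0 / √t * r) ^ 2) ≤ (2 * N * (2 * M0 / √t * r)) ^ 2 := by
    rw [mul_pow (2 * N)]
    have h2 : 2 * N ≤ (2 * N) ^ 2 := by nlinarith only [hn1]
    have h3 := mul_le_mul_of_nonneg_right h2 (sq_nonneg (2 * M0 / √t * r))
    linarith only [h3]
  refine e1.trans ?_
  have e2 : 2 * N * (2 * M0 / √t * r) ≤ (D + i) * r / √t := by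
    have e3 : 2 * N * (2 * M0 / √t * r) = (4 * N * M0) * r / √t := by ring
    rw [e3]
    have e4 : 4 * N * M0 ≤ D + i := by linarith only [h1, hi]
    gcongr
  exact pow_le_pow_left₀ (by positivity) e2 2

theorem dlv_real2 {N A' M0 i r t D Λ ε e S : ℝ} (hn1 : 1 ≤ N) (hA : 1 ≤ A') (hM : 1 ≤ M0)
    (hi : 0 < i) (hr : 0 ≤ r) (hΛ : 1 ≤ Λ) (hD : D = 30 * N ^ 3 * A' ^ 2 * M0)
    (he : D * Λ ^ 2 * √ε ≤ e) :
    1 / Λ * ((4 * N * A' ^ 2 * M0 / Λ + 30 * N ^ 3 * A' ^ 2 * M0 * Λ ^ 2 * √ε) * r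
      + 30 * N ^ 3 * A' ^ 2 * M0 * Λ ^ 2 * (t * S))
      ≤ 1 / Λ * (((D + i) / Λ + e) * r + D * Λ ^ 2 * t * S) := by
  obtain ⟨-, -, h1⟩ := dlv_real0 hn1 hA hM
  rw [← hD] at h1 ⊢
  have hΛ0 : 0 < Λ := by linarith
  have e1 : 4 * N * A' ^ 2 * M0 / Λ ≤ (D + i) / Λ := by
    have : 4 * N * A' ^ 2 * M0 ≤ D + i := by linarith only [h1, hi]
    gcongr
  have e2 : (4 * N * A' ^ 2 * M0 / Λ + D * Λ ^ 2 * √ε) * r ≤ ((D + i) / Λ + e) * r :=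
    mul_le_mul_of_nonneg_right (add_le_add e1 he) hr
  have e3 : D * Λ ^ 2 * (t * S) = D * Λ ^ 2 * t * S := by ring
  rw [e3]
  have h0 : 0 ≤ 1 / Λ := by positivity
  exact mul_le_mul_of_nonneg_left (by linarith only [e2]) h0

theorem blk_DLX_of (H : H358.Blk_PreX.{u}) : Blk_DLX.{u} := by
  intro M _ _ _ _ _ m n K o A p hE
  obtain ⟨A', κ, a₀, hctr⟩ := ctr_env hE 1
  have hφo := hctr o (by rw [dist_self]; norm_num)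
  have ha := hφo.ha
  have hA := hφo.hA
  have hκ := hφo.hκ
  have ha2 : a₀ ≤ 1 / 2 := by nlinarith [hφo.ha']
  have hn1 : (1 : ℝ) ≤ n := by exact_mod_cast env_npos hE
  have hM := MM_ge hA ha ha2 (n := n)
  set M0 := MM A' a₀ n with hM0
  set D : ℝ := 30 * n ^ 3 * A' ^ 2 * M0 with hD
  have hD1 : 1 ≤ D := (dlv_real0 hn1 hA hM).1
  have hinv : 0 < 1 / a₀ := by positivity
  refine ⟨D + 1 / a₀, a₀, by linarith, ha, ha2, fun Λ hΛC => ?_⟩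
  have hΛ1 : 1 ≤ Λ := by linarith
  have hΛ0 : 0 < Λ := by linarith
  have haΛ : 1 ≤ a₀ * Λ := by
    have h1 : 1 / a₀ ≤ Λ := by linarith
    have h2 := mul_le_mul_of_nonneg_left h1 ha.le
    rwa [mul_one_div_cancel ha.ne'] at h2
  have hΛ2 : 1 ≤ Λ ^ 2 := one_le_pow₀ hΛ1
  refine ⟨D * Λ ^ 2, one_le_mul_of_one_le_of_one_le hD1 hΛ2, ?_⟩
  obtain ⟨Q₀, hQ₀, HQ⟩ := H M m n K o A p hE Λ hΛ1
  refine ⟨Q₀, hQ₀, fun Q hQ => ?_⟩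
  obtain ⟨R₀, hR₀, HR⟩ := HQ Q hQ
  refine ⟨R₀, hR₀, fun R hR e he => ?_⟩
  set ε : ℝ := min 1 ((e / (D * Λ ^ 2)) ^ 2) with hε
  have hε0 : 0 < ε := lt_min one_pos (by positivity)
  have hε1 : ε ≤ 1 := min_le_left _ _
  have hεe : D * Λ ^ 2 * √ε ≤ e := by
    have h1 : √ε ≤ e / (D * Λ ^ 2) := by
      rw [Real.sqrt_le_left (by positivity)]
      exact min_le_right _ _
    calc D * Λ ^ 2 * √ε ≤ D * Λ ^ 2 * (e / (D * Λ ^ 2)) := by gcongr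
      _ = e := by field_simp
  obtain ⟨ε₂, hε₂, HP⟩ := HR R hR ε hε0
  refine ⟨min ε₂ (min (ε / 2) (ε / (2 * n * Λ))), by positivity, ?_⟩
  intro ε' η ρ h1 h2 h3 h4 h5 u uu hu x hx t ht htρ hT
  have k1 : ε' ≤ ε₂ := h2.trans (min_le_left _ _)
  have k2 : ε' ≤ ε / 2 := h2.trans ((min_le_right _ _).trans (min_le_left _ _))
  have k3 : η ≤ ε₂ := h4.trans (min_le_left _ _)
  have k4 : η ≤ ε / (2 * n * Λ) := h4.trans ((min_le_right _ _).trans (min_le_right _ _))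
  have k5 : ρ ≤ ε₂ := h5.trans (min_le_left _ _)
  have hρ := hu.ρ_pos
  have hR1 : 1 ≤ R := hR₀.trans hR
  have hQ1 : 1 ≤ Q := hQ₀.trans hQ
  have hxR : x ∈ ball o (R * ρ) := ball_subset_ball (by nlinarith) hx
  have hxo : dist x o ≤ 1 := by
    have h6 := mem_ball.1 hxR
    linarith [hu.Rρ]
  have ht' : 0 < t / Λ ^ 2 := by positivity
  have htr : t / Λ ^ 2 ≤ t := div_le_self ht.le hΛ2
  have hP := HP ε' η ρ h1 k1 h3 k3 k5 u uu hu x hx (t / Λ ^ 2) ht' (htr.trans htρ) hT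
  have hη' : 2 * n * Λ * η ≤ ε := by
    rw [le_div_iff₀ (by positivity)] at k4
    linarith
  obtain ⟨W, hW, HW⟩ := dlx_at hE (hctr x hxo) hu hQ1 hxR ht htρ haΛ h3.le hT hP.pd
    (fun s l1 l2 => hP.av s (le_trans (div_le_self ht'.le hΛ2) l1)
      (l2.trans (le_of_eq (by field_simp)))) le_rfl h1.le (by linarith) hε1 hη'
  refine ⟨W, hW, fun F hF hF' c₀ r S hS hr hl => ?_⟩
  obtain ⟨g1, g1', c₁, g2⟩ := HW F hF hF' c₀ r S hS hr hl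
  have hr0 : 0 ≤ r := le_trans (by
    unfold PP
    exact (H597.env_cen hE x).av_nonneg ht (abs_nonneg _)) hr
  have hG2 := dlv_real1 hn1 hA hM hinv hr0 ht hD
  refine ⟨g1.trans (le_trans ?_ hG2), g1'.trans hG2, c₁,
    g2.trans (dlv_real2 hn1 hA hM hinv hr0 hΛ1 hD hεe)⟩
  have : 0 ≤ (n : ℝ) * (2 * M0 / √t * r) ^ 2 := by positivity
  linarith only [this]

/-- **A-DL, without hypotheses** -/
theorem blk_DLX : Blk_DLX.{u} := blk_DLX_of H597.blk_PreX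

section

variable {M : Type u} [MetricSpace M] [CompleteSpace M] [SecondCountableTopology M]
  [MeasurableSpace M] [BorelSpace M] {m : Measure M} {n : ℕ} {K : ℝ} {o : M} {A : ℝ}
  {p : ℝ → M → M → ℝ} {u : Fin n → M →ₘ[m] ℝ} {x : M} {t Λ C CL e a₀ : ℝ}

/-- `c ↦ u_c` as a linear map -/
noncomputable def ucL (u : Fin n → M →ₘ[m] ℝ) : E n →ₗ[ℝ] (M →ₘ[m] ℝ) where
  toFun c := uc u c
  map_add' c d := H751.uc_add c d
  map_smul' a c := H751.uc_smul a c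

/-- the form used by helper196 -/
theorem DLx.dlAt (h : DLx m p Λ C CL e a₀ u x t) :
    H196.DLAt (sob m) (fun s => ph m p s x) (ucL u) t (t / Λ ^ 2) a₀ ((C / Λ + e) / Λ)
      (CL * t / Λ) := by
  obtain ⟨W, -, HW⟩ := h
  intro F hF hF' c₀ r S hr hS h1 h2
  obtain ⟨-, -, c₁, g⟩ := HW F hF hF' c₀ r S hS h1 h2
  refine ⟨c₁, W F, ?_⟩
  refine le_trans g (le_of_eq ?_)
  ring

end

end Vale.Agent.P242.H542
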