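import Vale.Agent.P242.H542.Gam

/-! P242, Part A (helper542): averages against a centre family: Cauchy-Schwarz, mean value
inequality for the heat flow, the kernel facts `Ctr` at one centre. -/

set_option linter.all false

open MeasureTheory Filter Topology Set
open scoped ENNReal NNReal

namespace Vale.Agent.P233

variable {M : Type*} [MeasurableSpace M] {m : Measure M} {C : Calc m}

/-- the class of the root -/
noncomputable def rtc (a : M →ₘ[m] ℝ) : M →ₘ[m] ℝ :=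
  AEEqFun.comp Real.sqrt Real.continuous_sqrt a

theorem rtc_ae (a : M →ₘ[m] ℝ) : ∀ᵐ x ∂m, rtc a x = √(a x) := AEEqFun.coeFn_comp _ _ _

theorem rtc_nonneg (a : M →ₘ[m] ℝ) : 0 ≤ rtc a := by
  rw [nonneg_iff_ae]
  filter_upwards [rtc_ae a] with x hx
  rw [hx]; exact Real.sqrt_nonneg _

theorem rtc_sq {a : M →ₘ[m] ℝ} (ha : 0 ≤ a) : rtc a ^ 2 = a := by
  rw [eq_iff_ae]
  filter_upwards [sq_ae (rtc a), rtc_ae a, nonneg_iff_ae.1 ha] with x h1 h2 h3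
  rw [h1, h2, Real.sq_sqrt h3]

theorem gr_eq (C : Calc m) (f : M →ₘ[m] ℝ) : C.gr f = rtc (C.Γ f f) := rfl

theorem mem_abs {p : ℝ≥0∞} {f : M →ₘ[m] ℝ} (hf : MemLp f p m) :
    MemLp (|f| : M →ₘ[m] ℝ) p m :=
  mem_of_le hf (by filter_upwards [abs_ae' f] with x hx; rw [hx, abs_abs])

theorem le_abs_cls (f : M →ₘ[m] ℝ) : f ≤ |f| := le_abs_self f

theorem abs_mul_cls (f g : M →ₘ[m] ℝ) : |f * g| = |f| * |g| := by
  rw [eq_iff_ae]
  filter_upwards [abs_ae' (f * g), mul_ae f g, mul_ae (|f|) (|g|), abs_ae' f, abs_ae' g]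
    with x h1 h2 h3 h4 h5
  rw [h1, h2, h3, h4, h5, abs_mul]

theorem abs_smul_cls (c : ℝ) (f : M →ₘ[m] ℝ) : |c • f| = |c| • |f| := by
  rw [eq_iff_ae]
  filter_upwards [abs_ae' (c • f), smul_ae f c, smul_ae (|f|) (|c|), abs_ae' f]
    with x h1 h2 h3 h4
  rw [h1, h2, h3, h4, abs_mul]

theorem abs_add_cls (f g : M →ₘ[m] ℝ) : |f + g| ≤ |f| + |g| := by
  rw [le_iff_ae]
  filter_upwards [abs_ae' (f + g), add_ae f g, add_ae (|f|) (|g|), abs_ae' f, abs_ae' g]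
    with x h1 h2 h3 h4 h5
  rw [h1, h2, h3, h4, h5]; exact abs_add_le _ _

theorem abs_neg_cls (f : M →ₘ[m] ℝ) : |-f| = |f| := abs_neg f

theorem abs_sub_cls (f g : M →ₘ[m] ℝ) : |f - g| ≤ |f| + |g| := by
  rw [sub_eq_add_neg]
  exact (abs_add_cls f (-g)).trans_eq (by rw [abs_neg_cls])

theorem I_abs {f : M →ₘ[m] ℝ} (hf : MemLp f 1 m) : |I f| ≤ I |f| := by
  rw [abs_le]
  constructor
  · rw [neg_le, ← I_neg]
    exact I_mono (mem_neg hf) (mem_abs hf) (neg_le_abs f)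
  · exact I_mono hf (mem_abs hf) (le_abs_self f)

/-- Cauchy-Schwarz for geometric means -/
theorem I_gm {a b c : M →ₘ[m] ℝ} (ha : MemLp a 1 m) (hb : MemLp b 1 m) (ha0 : 0 ≤ a)
    (hb0 : 0 ≤ b) (h : ∀ᵐ x ∂m, |c x| ≤ √(a x) * √(b x)) :
    MemLp c 1 m ∧ I |c| ≤ √(I a) * √(I b) := by
  have hra : MemLp (rtc a) 2 m := memLp_two_of_sq (by rw [rtc_sq ha0]; exact ha)
  have hrb : MemLp (rtc b) 2 m := memLp_two_of_sq (by rw [rtc_sq hb0]; exact hb)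
  have hm := mem_mul_22 hra hrb
  have hle : ∀ᵐ x ∂m, |c x| ≤ |(rtc a * rtc b : M →ₘ[m] ℝ) x| := by
    filter_upwards [h, mul_ae (rtc a) (rtc b), rtc_ae a, rtc_ae b] with x h1 h2 h3 h4
    rw [h2, h3, h4]
    exact h1.trans (le_abs_self _)
  have hc : MemLp c 1 m := mem_of_le hm hle
  refine ⟨hc, ?_⟩
  have h1 : I |c| ≤ I (rtc a * rtc b) := by
    refine I_mono (mem_abs hc) hm ?_
    rw [le_iff_ae]
    filter_upwards [abs_ae' c, h, mul_ae (rtc a) (rtc b), rtc_ae a, rtc_ae b] with x h0 h1 h2 h3 h4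
    rw [h0, h2, h3, h4]; exact h1
  have h2 := I_cs hra hrb
  rw [rtc_sq ha0, rtc_sq hb0] at h2
  refine h1.trans ?_
  rw [← Real.sqrt_mul (I_nonneg ha0)]
  exact Real.le_sqrt_of_sq_le h2

/-- weighted Cauchy-Schwarz for geometric means -/
theorem I_gm_w {φ a b c : M →ₘ[m] ℝ} (h0 : 0 ≤ φ) (ha : MemLp (φ * a : M →ₘ[m] ℝ) 1 m)
    (hb : MemLp (φ * b : M →ₘ[m] ℝ) 1 m) (ha0 : 0 ≤ a) (hb0 : 0 ≤ b)
    (h : ∀ᵐ x ∂m, |c x| ≤ √(a x) * √(b x)) :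
    MemLp (φ * c : M →ₘ[m] ℝ) 1 m ∧ I (φ * |c|) ≤ √(I (φ * a)) * √(I (φ * b)) := by
  have key := I_gm (c := φ * c) ha hb (mul_nonneg h0 ha0) (mul_nonneg h0 hb0) (by
    filter_upwards [h, mul_ae φ c, mul_ae φ a, mul_ae φ b, nonneg_iff_ae.1 h0,
      nonneg_iff_ae.1 ha0] with x h1 h2 h3 h4 h5 h6
    rw [h2, h3, h4, Real.sqrt_mul h5, Real.sqrt_mul h5, abs_mul, abs_of_nonneg h5]
    have h7 := Real.mul_self_sqrt h5
    calc φ x * |c x| ≤ φ x * (√(a x) * √(b x)) := mul_le_mul_of_nonneg_left h1 h5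
      _ = √(φ x) * √(a x) * (√(φ x) * √(b x)) := by
        rw [show √(φ x) * √(a x) * (√(φ x) * √(b x)) = (√(φ x) * √(φ x)) * (√(a x) * √(b x)) by
          ring, h7])
  refine ⟨key.1, ?_⟩
  have e : φ * |c| = |φ * c| := by rw [abs_mul_cls, abs_of_nonneg h0]
  rw [e]; exact key.2

/-- the sign of a class -/
noncomputable def sgc (f : M →ₘ[m] ℝ) : M →ₘ[m] ℝ :=
  AEEqFun.compMeasurable (fun t : ℝ => if 0 ≤ t then (1 : ℝ) else -1)
    (Measurable.ite measurableSet_Ici measurable_const measurable_const) f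

theorem sgc_ae (f : M →ₘ[m] ℝ) : ∀ᵐ x ∂m, sgc f x = if 0 ≤ f x then (1 : ℝ) else -1 :=
  AEEqFun.coeFn_compMeasurable _ _ _

theorem sgc_mul (f : M →ₘ[m] ℝ) : f * sgc f = |f| := by
  rw [eq_iff_ae]
  filter_upwards [mul_ae f (sgc f), sgc_ae f, abs_ae' f] with x h1 h2 h3
  rw [h1, h2, h3]
  split_ifs with h
  · rw [mul_one, abs_of_nonneg h]
  · rw [abs_of_neg (not_le.1 h)]; ring

theorem sgc_abs (f : M →ₘ[m] ℝ) : |sgc f| = 1 := by
  rw [eq_iff_ae]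
  filter_upwards [sgc_ae f, abs_ae' (sgc f), one_ae (M := M) (m := m)] with x h2 h3 h4
  rw [h3, h2, h4]
  split_ifs with h
  · exact abs_one
  · rw [abs_neg, abs_one]

theorem sgc_top (f : M →ₘ[m] ℝ) : MemLp (sgc f) ∞ m := by
  refine mem_of_le (g := (1 : M →ₘ[m] ℝ)) mem_top_one ?_
  filter_upwards [abs_ae' (sgc f), eq_iff_ae.1 (sgc_abs f), one_ae (M := M) (m := m)]
    with x h1 h2 h3
  rw [← h1, h2, h3, abs_one]

namespace IsDir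

variable (hC : IsDir C) {s t S b : ℝ} {f g h w F G φ ψ : M →ₘ[m] ℝ}
include hC

/-- the heat equation in `L²`, tested -/
theorem hasDeriv_P (ht : 0 < t) (hg : MemLp g 2 m) (hψ : MemLp ψ 2 m) :
    HasDerivAt (fun s => I (C.P s g * ψ)) (I (C.lap (C.P t g) * ψ)) t := by
  have h2 : 0 < t / 2 := by linarith
  have h1 := hC.P_hasDeriv_I (t := t / 2) h2 (hC.P_isLap h2 hg) hψ
  have e1 : C.P (t / 2) (C.lap (C.P (t / 2) g)) = C.lap (C.P t g) := by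
    rw [← hC.P_lap_add h2.le h2 hg]
    congr 2; ring
  rw [e1] at h1
  have h3 : HasDerivAt (fun r => I (C.P (r - t / 2) (C.P (t / 2) g) * ψ))
      (I (C.lap (C.P t g) * ψ)) t := by
    have e : t - t / 2 = t / 2 := by ring
    exact HasDerivAt.comp_sub_const t (t / 2) (by rw [e]; exact h1)
  refine h3.congr_of_eventuallyEq ?_
  filter_upwards [eventually_gt_nhds (show t / 2 < t by linarith)] with r hr
  rw [hC.P_P (by linarith) h2.le hg]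
  congr 3; ring

/-- mean value inequality -/
theorem P_mean (hS : 0 < S) (hg : MemLp g 2 m) (hψ : MemLp ψ 2 m)
    (hb : ∀ τ, 0 < τ → τ < S → |I (C.lap (C.P τ g) * ψ)| ≤ b) :
    |I (C.P S g * ψ) - I (g * ψ)| ≤ S * b := by
  obtain ⟨c, hc, h1⟩ := exists_hasDerivAt_eq_slope (fun s => I (C.P s g * ψ))
    (fun τ => I (C.lap (C.P τ g) * ψ)) hS (hC.P_cont_I hg hψ).continuousOn
    (fun τ hτ => hC.hasDeriv_P hτ.1 hg hψ)
  simp only [sub_zero, hC.P_zero_time hg] at h1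
  have h2 := hb c hc.1 hc.2
  rw [h1, abs_div, abs_of_pos hS, div_le_iff₀ hS] at h2
  linarith

/-- mean value inequality for averages -/
theorem P_mean_abs (hS : 0 < S) (hg : MemLp g 2 m) (h0 : 0 ≤ φ) (hφ2 : MemLp φ 2 m)
    (hb : ∀ τ, 0 < τ → τ < S → I (φ * |C.lap (C.P τ g)|) ≤ b) :
    I (φ * |C.P S g - g|) ≤ S * b := by
  set ψ := φ * sgc (C.P S g - g) with hψd
  have hψ : MemLp ψ 2 m := mem_top_mul hφ2 (sgc_top _)
  have hab : |ψ| = φ := by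
    rw [hψd, abs_mul_cls, sgc_abs, mul_one, abs_of_nonneg h0]
  have key := hC.P_mean hS hg hψ (b := b) (by
    intro τ h1 h2
    have hl := (hC.P_isLap h1 hg).2.1
    refine (I_abs (mem_mul_22 hl hψ)).trans ?_
    rw [abs_mul_cls, hab, mul_comm]
    exact hb τ h1 h2)
  have hP := hC.P_mem2 S hg
  rw [← I_sub (mem_mul_22 hP hψ) (mem_mul_22 hg hψ), ← sub_mul] at key
  have e : (C.P S g - g) * ψ = φ * |C.P S g - g| := by
    rw [hψd, ← sgc_mul (C.P S g - g)]; ring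
  rw [e] at key
  exact (le_abs_self _).trans key

/-- `|P_t F| ≤ P_t |F|` -/
theorem P_abs_le (ht : 0 ≤ t) (hF : MemLp F 2 m) : |C.P t F| ≤ C.P t |F| := by
  rw [abs_le']
  constructor
  · exact hC.P_mono ht hF (mem_abs hF) (le_abs_self F)
  · rw [← hC.P_neg t hF]
    exact hC.P_mono ht (mem_neg hF) (mem_abs hF) (neg_le_abs F)

end IsDir

namespace Cen

variable {φ : ℝ → M →ₘ[m] ℝ} (hφ : Cen C φ) {K₀ N s t : ℝ} {f g h F G : M →ₘ[m] ℝ}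
include hφ

theorem av_P_abs (hC : IsDir C) (hs : 0 < s) (ht : 0 ≤ t) (hF : MemLp F 2 m) :
    I (φ s * |C.P t F|) ≤ I (φ (s + t) * |F|) := by
  rw [← hφ.av_P hC hs ht (mem_abs hF)]
  exact I_mono (mem_mul_22 (hφ.mem2 s hs) (mem_abs (hC.P_mem2 t hF)))
    (mem_mul_22 (hφ.mem2 s hs) (hC.P_mem2 t (mem_abs hF)))
    (mul_le_mul_of_nonneg_left (hC.P_abs_le ht hF) (hφ.nonneg s hs))

theorem av_const (hs : 0 < s) (c : ℝ) : I (φ s * (c • (1 : M →ₘ[m] ℝ))) = c := by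
  have e : φ s * (c • (1 : M →ₘ[m] ℝ)) = c • φ s := by rw [mul_smul_comm, mul_one]
  rw [e, I_smul, hφ.mass s hs, mul_one]

/-- integrability against the centre: bounded plus integrable -/
theorem av_memT (hs : 0 < s) (hF : MemLp F ∞ m) : MemLp (φ s * F : M →ₘ[m] ℝ) 1 m :=
  mem_top_mul (hφ.mem1 s hs) hF

theorem av_mem2 (hs : 0 < s) (hF : MemLp F 2 m) : MemLp (φ s * F : M →ₘ[m] ℝ) 1 m :=
  mem_mul_22 (hφ.mem2 s hs) hF

/-- Cauchy-Schwarz for the gradient -/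
theorem av_Γ_abs (hC : IsDir C) (hs : 0 < s) (hf : f ∈ C.W) (hg : g ∈ C.W) :
    I (φ s * |C.Γ f g|) ≤ √(I (φ s * C.Γ f f)) * √(I (φ s * C.Γ g g)) :=
  (I_gm_w (hφ.nonneg s hs) (hφ.mem_mul hs (hC.mem1 f hf)) (hφ.mem_mul hs (hC.mem1 g hg))
    (hC.nonneg f hf) (hC.nonneg g hg) (hC.Γ_abs_ae hf hg)).2

/-- Jensen: `P_s|F|² ≤ P_s F²` -/
theorem av_abs_le (hs : 0 < s) (hF0 : 0 ≤ F) (hF : MemLp (φ s * F : M →ₘ[m] ℝ) 1 m) :
    I (φ s * rtc F) ≤ √(I (φ s * F)) := by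
  have h1 := (I_gm_w (φ := φ s) (a := F) (b := 1) (c := rtc F) (hφ.nonneg s hs) hF
    (by rw [mul_one]; exact hφ.mem1 s hs) hF0 zero_le_one (by
      filter_upwards [rtc_ae F, one_ae (M := M) (m := m)] with x h1 h2
      rw [h1, h2, Real.sqrt_one, mul_one, abs_of_nonneg (Real.sqrt_nonneg _)])).2
  rw [mul_one, hφ.mass s hs, Real.sqrt_one, mul_one, abs_of_nonneg (rtc_nonneg F)] at h1
  exact h1

theorem av_gr (hC : IsDir C) (hs : 0 < s) (hf : f ∈ C.W) :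
    I (φ s * C.gr f) ≤ √(I (φ s * C.Γ f f)) :=
  hφ.av_abs_le hs (hC.nonneg f hf) (hφ.mem_mul hs (hC.mem1 f hf))

/-- Cauchy-Schwarz for `gam` at the centre -/
theorem av_gam_abs (hC : IsGamma C) (hB : C.BEi (-K₀)) (hs : 0 < s) (ht : 0 < t)
    (hf : f ∈ C.Test) (hg : g ∈ C.Test) :
    I (φ s * |C.gam K₀ t f g|)
      ≤ √(C.NN (-K₀) f f (φ (s + t))) * √(C.NN (-K₀) g g (φ (s + t))) := by
  rw [← hφ.av_gam hC hB hs ht hf hf, ← hφ.av_gam hC hB hs ht hg hg]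
  exact (I_gm_w (hφ.nonneg s hs) (hφ.av_mem2 hs (hC.gam_mem2 hB ht hf hf))
    (hφ.av_mem2 hs (hC.gam_mem2 hB ht hg hg)) (hC.gam_nonneg hB ht hf)
    (hC.gam_nonneg hB ht hg) (hC.gam_abs_ae hB ht hf hg)).2

end Cen

/-- Kernel facts at one centre, on the time interval `(0,T]`. -/
structure Ctr (C : Calc m) (φ : ℝ → M →ₘ[m] ℝ) (n : ℕ) (T A κ a₀ : ℝ) : Prop
    extends Cen C φ where
  hA : 1 ≤ A
  hκ : 1 ≤ κ
  ha : 0 < a₀
  ha' : 2 * κ * a₀ ≤ 1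
  /-- (K3) -/
  k3 : ∀ s, 0 < s → κ * s ≤ T → |C.lap (φ s)| ≤ (A / s) • φ (κ * s)
  /-- (K7) -/
  k7 : ∀ s, 0 < s → s ≤ T → ∀ g ∈ C.TestI,
    I (φ s * |g - I (φ s * g) • 1|) ≤ A * √s * I (φ s * C.gr g)
  /-- (K8) -/
  k8 : ∀ s t, 0 < s → s ≤ a₀ * t → t ≤ T → φ s ≤ (A * (t / s) ^ n) • φ t
  /-- (K1) and (K5) -/
  k1 : ∀ s τ t, 0 < s → 0 < τ → s ≤ a₀ * t → τ ≤ a₀ * t → t ≤ T → ∀ g : M →ₘ[m] ℝ,
    MemLp g 2 m → MemLp g ∞ m → ∀ c : ℝ,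
    I (φ s * C.Γ (C.P τ g) (C.P τ g)) ≤ A / τ * (t / τ) ^ n * I (φ t * |g - c • 1|) ^ 2

namespace Ctr

variable {φ : ℝ → M →ₘ[m] ℝ} {n : ℕ} {T A κ a₀ : ℝ} (hφ : Ctr C φ n T A κ a₀)
variable {K₀ N s t : ℝ} {f g h F G : M →ₘ[m] ℝ}
include hφ

/-- (K3), integrated -/
theorem av_lap (hs : 0 < s) (hT : κ * s ≤ T) (hF : MemLp F 1 m)
    (hl : MemLp (C.lap (φ s) * F : M →ₘ[m] ℝ) 1 m) :
    |I (C.lap (φ s) * F)| ≤ A / s * I (φ (κ * s) * |F|) := by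
  have hκs : 0 < κ * s := mul_pos (by linarith [hφ.hκ]) hs
  refine (I_abs hl).trans ?_
  rw [abs_mul_cls, ← I_smul, ← smul_mul_assoc]
  refine I_mono ?_ ?_ (mul_le_mul_of_nonneg_right (hφ.k3 s hs hT) (abs_nonneg F))
  · rw [← abs_mul_cls]; exact mem_abs hl
  · rw [smul_mul_assoc]; exact mem_smul _ (hφ.mem_mul hκs (mem_abs hF))

end Ctr

end Vale.Agent.P233
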