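import Vale.Agent.P242.H542.Avg
import Vale.Agent.P242.H990.Far

/-! P242, Part A (helper542): the kernel facts `Ctr` at every centre from `Ker0` and `KB`. -/

set_option linter.all false

open MeasureTheory Filter Topology Set
open scoped ENNReal NNReal

universe u

namespace Vale.Agent.P242.H542

open Vale.Agent.P233 Vale.Agent.P242.H520 Vale.Agent.P242.H937 Vale.Agent.P242.H990

variable {M : Type u} [MetricSpace M] [MeasurableSpace M] {m : Measure M} {p : ℝ → M → M → ℝ}
  {n : ℕ} {o : M} {A : ℝ}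

/-- the constant in (k1) -/
noncomputable def cB (n : ℕ) (A : ℝ) : ℝ := cG n A (4 * A ^ 2) 0 * Real.exp A * (A ^ 2 * Real.exp A)

section

variable (hC : IsGamma (sob m)) (hp : Ker0 m p) (hk : KB n o A p)
include hC hp hk

/-- (k1) with separate times -/
theorem k1_sep [BorelSpace M] [SecondCountableTopology M]
    (hfin : ∀ (x : M) (r : ℝ), m (Metric.ball x r) < ∞)
    {s τ t : ℝ} (y : M) (hs : 0 < s) (hτ : 0 < τ) (h1 : 16 * A ^ 4 * s ≤ t)
    (h2 : 16 * A ^ 4 * τ ≤ t) (h3 : t ≤ 1 / 2) {g : M →ₘ[m] ℝ} (hg : MemLp g 2 m) (a : ℝ) :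
    I (ph m p s y * (sob m).Γ ((sob m).P τ g) ((sob m).P τ g)) ≤
      cB n A ^ 2 * cG n A (4 * A ^ 2) 0 * Real.exp (10 * A * dist y o) / τ * (t / τ) ^ n *
        I (ph m p t y * |g - a • 1|) ^ 2 := by
  have hD := hC.toIsDir
  have hA := hk.one_le
  have hA0 := hk.pos
  have hA2 : 1 ≤ A ^ 2 := one_le_pow₀ hA
  have hA4 : A ^ 2 ≤ A ^ 4 := pow_le_pow_right₀ hA (by norm_num)
  have ht : 0 < t := lt_of_lt_of_le (by positivity) h1
  have q0 : 0 < √τ := Real.sqrt_pos.2 hτ
  have qs : √τ ^ 2 = τ := Real.sq_sqrt hτ.le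
  have h4 : t ≤ t / τ * τ := by rw [div_mul_cancel₀ _ hτ.ne']
  have c1 : 0 < cG n A (4 * A ^ 2) 0 := cG_pos hA (by positivity)
  have hfar := Γ_P_le_far hC hp hk hfin y hτ h2 h4 h3 hg a
  have eJ : I (ph m p t y * |g - a • 1|) = pt m p t (fun w => |g w - a|) y := by
    rw [I_ph_mul hp ht]
    refine pt_congr hp ?_ t y
    filter_upwards [abs_ae' (g - a • 1), sub_ae g (a • (1 : M →ₘ[m] ℝ)),
      smul_ae (1 : M →ₘ[m] ℝ) a, one_ae (M := M) (m := m)] with z a1 a2 a3 a4
    rw [a1, a2, a3, a4, mul_one]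
  rw [eJ]
  set J := pt m p t (fun w => |g w - a|) y with hJ
  have J0 : 0 ≤ J := pt_nonneg hp ht y (Eventually.of_forall fun z => abs_nonneg _)
  set G := (sob m).Γ ((sob m).P τ g) ((sob m).P τ g) with hG
  have hW := hD.P_mem hτ hg
  set c := cB n A ^ 2 / τ * (t / τ) ^ n * Real.exp (8 * A * dist y o) * J ^ 2 with hc
  have hb : ∀ᵐ z ∂m, G z ≤ c * Real.exp (dist y z ^ 2 / (2 * A * s)) := by
    filter_upwards [hfar, hD.Γ_nonneg_ae hW] with z a1 a2
    have b1 : G z = √(G z) ^ 2 := (Real.sq_sqrt a2).symm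
    have b2 := pow_le_pow_left₀ (Real.sqrt_nonneg (G z)) a1 2
    have hq : (√(t / τ) ^ n) ^ 2 = (t / τ) ^ n := by
      rw [← pow_mul, mul_comm n 2, pow_mul, Real.sq_sqrt (by positivity)]
    have x0 : ∀ r : ℝ, Real.exp r ^ 2 = Real.exp (2 * r) := fun r => by
      rw [pow_two, ← Real.exp_add]; congr 1; ring
    have x1 : Real.exp (8 * A * dist y o) = Real.exp (4 * A * dist y o) ^ 2 := by
      rw [x0]; congr 1; ring
    have x2 : Real.exp (8 * A * dist y z ^ 2 / t) = Real.exp (4 * A * dist y z ^ 2 / t) ^ 2 := by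
      rw [x0]; congr 1; ring
    have b3 : ((cG n A (4 * A ^ 2) 0 * Real.exp A * cF n A (t / τ) / √τ *
        Real.exp (4 * A * dist y o)) * Real.exp (4 * A * dist y z ^ 2 / t) * J) ^ 2
        = c * Real.exp (8 * A * dist y z ^ 2 / t) := by
      rw [hc, x1, x2, ← hq]
      have e : ((cG n A (4 * A ^ 2) 0 * Real.exp A * cF n A (t / τ) / √τ *
        Real.exp (4 * A * dist y o)) * Real.exp (4 * A * dist y z ^ 2 / t) * J) ^ 2
        = cB n A ^ 2 / √τ ^ 2 * (√(t / τ) ^ n) ^ 2 * Real.exp (4 * A * dist y o) ^ 2 * J ^ 2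
          * Real.exp (4 * A * dist y z ^ 2 / t) ^ 2 := by
        unfold cB cF
        ring
      rw [e, qs]
    have b4 : Real.exp (8 * A * dist y z ^ 2 / t) ≤ Real.exp (dist y z ^ 2 / (2 * A * s)) := by
      apply Real.exp_le_exp.2
      rw [div_le_div_iff₀ ht (by positivity)]
      have h5 : 16 * A ^ 2 * s ≤ t := by nlinarith
      have d0 := sq_nonneg (dist y z)
      nlinarith
    rw [b1]
    refine b2.trans (b3.le.trans ?_)
    have : 0 ≤ c := by positivity
    gcongr
  have hst : 4 * A ^ 2 * s ≤ t := by nlinarith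
  have hs1 : 4 * A ^ 2 * s ≤ 1 / 2 := hst.trans h3
  obtain ⟨gi, gm⟩ := pt_gauss_moment hp hk y hs le_rfl hs1
  rw [mul_div_assoc (4 * A ^ 2) s s, div_self hs.ne', mul_one] at gm
  have hint : Integrable (fun z => p s y z * G z) m := by
    refine (gi.const_mul c).mono' ((ph_meas hp hs y).mul G.aestronglyMeasurable) ?_
    filter_upwards [hb, hD.Γ_nonneg_ae hW] with z a1 a2
    have p0 := hp.nonneg s hs y z
    rw [Real.norm_eq_abs, abs_of_nonneg (mul_nonneg p0 a2)]
    calc p s y z * G z ≤ p s y z * (c * Real.exp (dist y z ^ 2 / (2 * A * s))) := by gcongr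
      _ = _ := by ring
  rw [I_ph_mul hp hs]
  have h5 : pt m p s G y ≤ c * pt m p s (fun z => Real.exp (dist y z ^ 2 / (2 * A * s))) y := by
    unfold pt
    rw [← integral_const_mul]
    refine integral_mono_ae hint (gi.const_mul c) ?_
    filter_upwards [hb] with z a1
    calc p s y z * G z ≤ p s y z * (c * Real.exp (dist y z ^ 2 / (2 * A * s))) :=
          mul_le_mul_of_nonneg_left a1 (hp.nonneg s hs y z)
      _ = _ := by ring
  have hc0 : 0 ≤ c := by positivity
  refine h5.trans ((mul_le_mul_of_nonneg_left gm hc0).trans (le_of_eq ?_))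
  have e3 : Real.exp (10 * A * dist y o) = Real.exp (8 * A * dist y o) *
      Real.exp (2 * A * dist y o) := by
    rw [← Real.exp_add]; congr 1; ring
  rw [hc, e3]
  ring

/-- **`Ctr` at all centres of a bounded region** -/
theorem ctr_of [BorelSpace M] [SecondCountableTopology M] [SigmaFinite m] [m.IsOpenPosMeasure]
    (hfin : ∀ (x : M) (r : ℝ), m (Metric.ball x r) < ∞) {K : ℝ} (hn : 0 < n)
    (hBE : (sob m).BE K n) (R₀ : ℝ) :
    ∃ A' κ a₀ : ℝ, ∀ x, dist x o ≤ R₀ →
      Ctr (sob m) (fun s => ph m p s x) n (1 / 2) A' κ a₀ := by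
  have hD := hC.toIsDir
  have hA := hk.one_le
  have hA0 := hk.pos
  have hA2 : 1 ≤ A ^ 2 := one_le_pow₀ hA
  have hA4 : A ^ 2 ≤ A ^ 4 := pow_le_pow_right₀ hA (by norm_num)
  have hN : (0 : ℝ) < n := by exact_mod_cast hn
  have hB := hC.bei hN hBE
  have c1 : 0 < cG n A (4 * A ^ 2) 0 := cG_pos hA (by positivity)
  have cK0 : 0 < cK n A (512 * A ^ 2) 0 := cK_pos hA (by positivity)
  have cL0 : 0 < cL n n K A (512 * A ^ 2) 0 := by unfold cL; positivity
  have cB0 : 0 < cB n A := by unfold cB; positivity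
  set a1 : ℝ := cL n n K A (512 * A ^ 2) 0 * Real.exp (32 * A * R₀) with ha1
  set a2 : ℝ := 2 * Real.exp |K| * √2 with ha2
  set a3 : ℝ := A ^ 2 * Real.exp (2 * A * R₀) with ha3
  set a4 : ℝ := cB n A ^ 2 * cG n A (4 * A ^ 2) 0 * Real.exp (10 * A * R₀) with ha4
  have p1 : 0 < a1 := by positivity
  have p2 : 0 < a2 := by positivity
  have p3 : 0 < a3 := by positivity
  have p4 : 0 < a4 := by positivity
  refine ⟨1 + a1 + a2 + a3 + a4, 512 * A ^ 2, 1 / (1024 * A ^ 4), fun x hx => ?_⟩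
  refine ⟨⟨fun s hs => ph_mem2 hp hs x, fun s hs => ph_top hC hp hk hs x,
    fun s hs => ph_nonneg hp hs x, fun s hs => ph_mem1 hp hs x, fun s hs => I_ph hp hs x,
    fun s t hs ht => P_ph hD hp ht hs x⟩, by linarith, by nlinarith, by positivity, ?_, ?_, ?_,
    ?_, ?_⟩
  · rw [mul_one_div, div_le_one (by positivity)]
    nlinarith
  · -- k3
    intro s hs hT
    have h := ph_lap_le hC hp hk hN hBE (Γ := 512 * A ^ 2) (C₀ := 0) (x := x) (x' := x) hs le_rfl
      le_rfl hT (by rw [dist_self, zero_mul])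
    have hκs : 0 < 512 * A ^ 2 * s := by positivity
    rw [le_iff_ae]
    filter_upwards [h, abs_ae' ((sob m).lap (ph m p s x)),
      smul_ae (ph m p (512 * A ^ 2 * s) x) ((1 + a1 + a2 + a3 + a4) / s),
      ph_ae hp hκs x] with z b1 b2 b3 b4
    rw [b2, b3, b4]
    refine b1.trans (mul_le_mul_of_nonneg_right ?_ (hp.nonneg _ hκs x z))
    have e : cL n n K A (512 * A ^ 2) 0 / s * Real.exp (32 * A * dist x o)
        ≤ a1 / s := by
      rw [ha1]
      calc cL n n K A (512 * A ^ 2) 0 / s * Real.exp (32 * A * dist x o)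
          ≤ cL n n K A (512 * A ^ 2) 0 / s * Real.exp (32 * A * R₀) := by gcongr
        _ = _ := by ring
    refine e.trans ?_
    gcongr
    linarith
  · -- k7
    intro s hs hT g hg
    have hgW := (hC.test_A hg.1).1
    have h := poinc hfin hC hB hp hs hgW x
    have e1 : I (ph m p s x * |g - I (ph m p s x * g) • 1|)
        = pt m p s (fun z => |g z - pt m p s g x|) x := by
      rw [I_ph_mul hp hs, I_ph_mul hp hs]
      refine pt_congr hp ?_ s x
      filter_upwards [abs_ae' (g - (pt m p s g x) • 1), sub_ae g ((pt m p s g x) • (1 : M →ₘ[m] ℝ)),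
        smul_ae (1 : M →ₘ[m] ℝ) (pt m p s g x), one_ae (M := M) (m := m)] with z a1 a2 a3 a4
      rw [a1, a2, a3, a4, mul_one]
    have e2 : I (ph m p s x * (sob m).gr g) = pt m p s (fun z => √((sob m).Γ g g z)) x := by
      rw [I_ph_mul hp hs]
      exact pt_congr hp ((sob m).gr_ae g) s x
    rw [e1, e2]
    refine h.trans (mul_le_mul_of_nonneg_right ?_
      (pt_nonneg hp hs x (Eventually.of_forall fun z => Real.sqrt_nonneg _)))
    have e3 : √(2 * s) = √2 * √s := Real.sqrt_mul (by norm_num) _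
    rw [e3]
    have e4 : Real.exp (2 * |K| * s) ≤ Real.exp |K| := by
      apply Real.exp_le_exp.2
      nlinarith [abs_nonneg K]
    calc 2 * Real.exp (2 * |K| * s) * (√2 * √s) ≤ 2 * Real.exp |K| * (√2 * √s) := by gcongr
      _ = a2 * √s := by rw [ha2]; ring
      _ ≤ (1 + a1 + a2 + a3 + a4) * √s := by gcongr; linarith
  · -- k8
    intro s t hs hst hT
    have hst' : 4 * A ^ 2 * s ≤ t := by
      rw [one_div, inv_mul_eq_div, le_div_iff₀ (by positivity)] at hst
      nlinarith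
    have ht : 0 < t := lt_of_lt_of_le (by positivity) hst'
    have h2 : t ≤ t / s * s := by rw [div_mul_cancel₀ _ hs.ne']
    rw [le_iff_ae]
    filter_upwards [ph_ae hp hs x, ph_ae hp ht x,
      smul_ae (ph m p t x) ((1 + a1 + a2 + a3 + a4) * (t / s) ^ n)] with z b1 b2 b3
    rw [b1, b3, b2]
    have h := hk.p_le (x := x) (x' := x) (z := z) (Γ := t / s) (C₀ := 0) hs hst' h2 hT
      (by rw [dist_self, zero_mul])
    refine h.trans (mul_le_mul_of_nonneg_right ?_ (hp.nonneg t ht x z))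
    have hst1 : 1 ≤ t / s := by
      rw [one_le_div hs]; nlinarith
    have e1 : √(t / s) ≤ t / s := by
      rw [Real.sqrt_le_left (by positivity)]; nlinarith
    unfold cG
    rw [mul_zero, zero_pow two_ne_zero, add_zero, Real.exp_zero, mul_one]
    calc A ^ 2 * √(t / s) ^ n * Real.exp (2 * A * dist x o)
        ≤ A ^ 2 * (t / s) ^ n * Real.exp (2 * A * R₀) := by gcongr
      _ = a3 * (t / s) ^ n := by rw [ha3]; ring
      _ ≤ _ := by gcongr; linarith
  · -- k1
    intro s τ t hs hτ hst hτt hT g hg _ c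
    have hx' : ∀ r : ℝ, r ≤ 1 / (1024 * A ^ 4) * t → 0 < r → 16 * A ^ 4 * r ≤ t := by
      intro r hr hr0
      rw [one_div, inv_mul_eq_div, le_div_iff₀ (by positivity)] at hr
      nlinarith [mul_pos hr0 (pow_pos hA0 4)]
    have h := k1_sep hC hp hk hfin x hs hτ (hx' s hst hs) (hx' τ hτt hτ) hT hg c
    refine h.trans ?_
    have ht : 0 < t := lt_of_lt_of_le (by positivity) (hx' s hst hs)
    gcongr
    calc cB n A ^ 2 * cG n A (4 * A ^ 2) 0 * Real.exp (10 * A * dist x o)
        ≤ cB n A ^ 2 * cG n A (4 * A ^ 2) 0 * Real.exp (10 * A * R₀) := by gcongr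
      _ ≤ _ := by rw [← ha4]; linarith

end

end Vale.Agent.P242.H542
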