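import Vale.Agent.P242.H542.Dl0

/-! P242, Part A, package A-DL (helper542): decay lemma (A6 of note 3517) at a fixed centre. -/

set_option linter.all false

open MeasureTheory Filter Topology Set
open scoped ENNReal NNReal

namespace Vale.Agent.P242.H542

open Vale.Agent.P233

variable {M : Type*} [MeasurableSpace M] {m : Measure M} {C : Calc m}
variable {φ : ℝ → M →ₘ[m] ℝ} {n : ℕ} {T A κ a₀ : ℝ}
variable {K₀ s t τ c : ℝ} {f g h F G : M →ₘ[m] ℝ}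

/-- the constant of the decay lemma -/
noncomputable def MM (A a₀ : ℝ) (n : ℕ) : ℝ := A * (2 / a₀) ^ (n + 2)

theorem MM_ge (hA : 1 ≤ A) (ha : 0 < a₀) (ha2 : a₀ ≤ 1 / 2) : 1 ≤ MM A a₀ n := by
  have h1 : 1 ≤ 2 / a₀ := by rw [le_div_iff₀ ha]; linarith
  exact one_le_mul_of_one_le_of_one_le hA (one_le_pow₀ h1)

/-- `(A/τ) (t/τ)^n ≤ M/t` for `τ ≥ a₀ t / 2` -/
theorem cst_le (hA : 1 ≤ A) (ha : 0 < a₀) (ha2 : a₀ ≤ 1 / 2) (ht : 0 < t) :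
    A / (a₀ * t) * (t / (a₀ * t)) ^ n ≤ MM A a₀ n / t := by
  have hA0 : 0 < A := by linarith
  have e1 : t / (a₀ * t) = 1 / a₀ := by field_simp
  have e2 : A / (a₀ * t) * (1 / a₀) ^ n = A * (1 / a₀) ^ (n + 1) / t := by
    rw [pow_succ]; field_simp
  rw [e1, e2, MM]
  gcongr ?_ / t
  gcongr A * ?_
  have h1 : (1 : ℝ) / a₀ ≤ 2 / a₀ := by gcongr; norm_num
  have h2 : 1 ≤ 2 / a₀ := by rw [le_div_iff₀ ha]; linarith
  calc (1 / a₀) ^ (n + 1) ≤ (2 / a₀) ^ (n + 1) := by gcongr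
    _ ≤ (2 / a₀) ^ (n + 2) := pow_le_pow_right₀ h2 (by omega)

theorem cst_le' (hA : 1 ≤ A) (ha : 0 < a₀) (ha2 : a₀ ≤ 1 / 2) (ht : 0 < t) :
    A / (a₀ * t / 2) * (t / (a₀ * t / 2)) ^ n ≤ MM A a₀ n / t := by
  have hA0 : 0 < A := by linarith
  have e1 : t / (a₀ * t / 2) = 2 / a₀ := by field_simp
  have e2 : A / (a₀ * t / 2) * (2 / a₀) ^ n = A * (2 / a₀) ^ (n + 1) / t := by
    rw [pow_succ]; field_simp
  rw [e1, e2, MM]
  gcongr ?_ / t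
  gcongr A * ?_
  have h2 : 1 ≤ 2 / a₀ := by rw [le_div_iff₀ ha]; linarith
  exact pow_le_pow_right₀ h2 (by omega)

section one

variable (hC : IsGamma C) (hφ : Ctr C φ n T A κ a₀)

/-- energy of `P_{a₀ t} g` at the centre -/
theorem X_le (hs : 0 < s) (ht : 0 < t) (hst : s ≤ a₀ * t) (hT : t ≤ T) (hφ : Ctr C φ n T A κ a₀)
    (hg : MemLp g 2 m) (hg' : MemLp g ∞ m) (c : ℝ) :
    I (φ s * C.Γ (C.P (a₀ * t) g) (C.P (a₀ * t) g))
      ≤ MM A a₀ n / t * I (φ t * |g - c • 1|) ^ 2 :=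
  (hφ.k1 s (a₀ * t) t hs (mul_pos hφ.ha ht) hst le_rfl hT g hg hg' c).trans
    (mul_le_mul_of_nonneg_right (cst_le hφ.hA hφ.ha hφ.a_le ht) (sq_nonneg _))

/-- energy of `Δ P_{a₀ t} g` at the centre -/
theorem Y_le (hC : IsGamma C) [SigmaFinite m] (hn : 0 < n) (hBE : C.BE (-K₀) n)
    (hs : 0 < s) (ht : 0 < t) (hst : s ≤ a₀ * t) (hT : t ≤ T) (hφ : Ctr C φ n T A κ a₀)
    (hg : MemLp g 2 m) (hg' : MemLp g ∞ m) :
    I (φ s * C.Γ (C.lap (C.P (a₀ * t) g)) (C.lap (C.P (a₀ * t) g)))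
      ≤ MM A a₀ n / t * I (φ t * |C.lap (C.P (a₀ * t / 2) g)|) ^ 2 := by
  have h2 : 0 < a₀ * t / 2 := by have := mul_pos hφ.ha ht; linarith
  have hN : (0 : ℝ) < n := by exact_mod_cast hn
  have hI := H715.P_testI_pos hC hN hBE h2 hg hg'
  have e : C.lap (C.P (a₀ * t) g) = C.P (a₀ * t / 2) (C.lap (C.P (a₀ * t / 2) g)) := by
    rw [← hC.P_lap_add h2.le h2 hg]
    congr 2; ring
  have h1 := hφ.k1 s (a₀ * t / 2) t hs h2 hst (by linarith [mul_pos hφ.ha ht]) hT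
    (C.lap (C.P (a₀ * t / 2) g)) (hC.P_isLap h2 hg).2.1 hI.2 0
  rw [zero_smul, sub_zero, ← e] at h1
  exact h1.trans (mul_le_mul_of_nonneg_right (cst_le' hφ.hA hφ.ha hφ.a_le ht) (sq_nonneg _))

/-- `γ_s(P_{a₀ t} g)(x)`, for `κ s ≤ a₀ t` -/
theorem gam_le (hC : IsGamma C) [SigmaFinite m] (hn : 0 < n) (hBE : C.BE (-K₀) n) (hK : 0 ≤ K₀)
    (hs : 0 < s) (ht : 0 < t) (hst : κ * s ≤ a₀ * t) (hT : t ≤ T) (hKt : K₀ * t ≤ 1)
    (hφ : Ctr C φ n T A κ a₀) (hg : MemLp g 2 m) (hg' : MemLp g ∞ m) (c : ℝ) {b : ℝ}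
    (hb : I (φ t * |C.lap (C.P (a₀ * t / 2) g)|) ≤ b / t) :
    C.NN (-K₀) (C.P (a₀ * t) g) (C.P (a₀ * t) g) (φ s)
      ≤ 2 * A * MM A a₀ n / (s * t) * (I (φ t * |g - c • 1|) + b) ^ 2 := by
  have hat := mul_pos hφ.ha ht
  have hN : (0 : ℝ) < n := by exact_mod_cast hn
  have hB := hC.bei hN hBE
  have hg1 := H715.P_testI_pos hC hN hBE hat hg hg'
  have hA := hφ.hA
  have ha := hφ.ha
  have ha2 := hφ.a_le
  have hκ := hφ.hκ
  have hss : s ≤ κ * s := by nlinarith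
  have hat' : a₀ * t ≤ t := by nlinarith
  set M0 := MM A a₀ n with hM0
  have hM1 : 1 ≤ M0 := MM_ge hA ha ha2
  have hr0 : 0 ≤ I (φ t * |g - c • 1|) := hφ.av_nonneg ht (abs_nonneg _)
  set r := I (φ t * |g - c • 1|) with hr
  have hb0' : 0 ≤ I (φ t * |C.lap (C.P (a₀ * t / 2) g)|) := hφ.av_nonneg ht (abs_nonneg _)
  have hb0 : 0 ≤ b := by
    have h := mul_nonneg (hb0'.trans hb) ht.le
    rwa [div_mul_cancel₀ _ ht.ne'] at h
  have h0 := hφ.NN_le (K₀ := K₀) hC hB hK hs (hst.trans (hat'.trans hT)) hg1.1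
  have hX1 := X_le (mul_pos hφ.κ_pos hs) ht hst hT hφ hg hg' c
  have hX2 := X_le hs ht (hss.trans hst) hT hφ hg hg' c
  have hY := Y_le hC hn hBE hs ht (hss.trans hst) hT hφ hg hg'
  rw [← hr, ← hM0] at hX1 hX2
  rw [← hM0] at hY
  have hY2 : I (φ s * C.Γ (C.lap (C.P (a₀ * t) g)) (C.lap (C.P (a₀ * t) g)))
      ≤ M0 / t * (b / t) ^ 2 := by
    refine hY.trans ?_
    gcongr
  have s1 : √(I (φ s * C.Γ (C.P (a₀ * t) g) (C.P (a₀ * t) g))) ≤ √(M0 / t) * r := by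
    refine (Real.sqrt_le_sqrt hX2).trans ?_
    rw [Real.sqrt_mul (by positivity), Real.sqrt_sq hr0]
  have s2 : √(I (φ s * C.Γ (C.lap (C.P (a₀ * t) g)) (C.lap (C.P (a₀ * t) g))))
      ≤ √(M0 / t) * (b / t) := by
    refine (Real.sqrt_le_sqrt hY2).trans ?_
    rw [Real.sqrt_mul (by positivity), Real.sqrt_sq (by positivity)]
  have s3 : √(I (φ s * C.Γ (C.P (a₀ * t) g) (C.P (a₀ * t) g)))
      * √(I (φ s * C.Γ (C.lap (C.P (a₀ * t) g)) (C.lap (C.P (a₀ * t) g))))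
      ≤ M0 / t * (r * (b / t)) := by
    refine (mul_le_mul s1 s2 (Real.sqrt_nonneg _) (by positivity)).trans (le_of_eq ?_)
    have : √(M0 / t) * r * (√(M0 / t) * (b / t)) = (√(M0 / t) * √(M0 / t)) * (r * (b / t)) := by
      ring
    rw [this, Real.mul_self_sqrt (by positivity)]
  have p1 : A / (2 * s) * I (φ (κ * s) * C.Γ (C.P (a₀ * t) g) (C.P (a₀ * t) g))
      ≤ A / (2 * s) * (M0 / t * r ^ 2) := by gcongr
  have p2 : K₀ * I (φ s * C.Γ (C.P (a₀ * t) g) (C.P (a₀ * t) g)) ≤ K₀ * (M0 / t * r ^ 2) := by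
    gcongr
  have hs_t : s ≤ t := by linarith
  have hKs : K₀ ≤ 1 / t := by rw [le_div_iff₀ ht]; exact hKt
  have hst' : 1 / t ≤ 1 / s := one_div_le_one_div_of_le hs hs_t
  -- all terms are bounded by multiples of M0/(s t)
  have q1 : A / (2 * s) * (M0 / t * r ^ 2) = M0 / (s * t) * (A / 2 * r ^ 2) := by
    field_simp
  have q2 : M0 / t * (r * (b / t)) ≤ M0 / (s * t) * (r * b) := by
    have e : M0 / t * (r * (b / t)) = M0 / t * (1 / t) * (r * b) := by ring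
    have e' : M0 / (s * t) * (r * b) = M0 / t * (1 / s) * (r * b) := by
      rw [show M0 / (s * t) = M0 / t * (1 / s) by field_simp]
    rw [e, e']
    gcongr
  have q3 : K₀ * (M0 / t * r ^ 2) ≤ M0 / (s * t) * (r ^ 2) := by
    have e' : M0 / (s * t) * (r ^ 2) = 1 / s * (M0 / t * r ^ 2) := by field_simp
    rw [e']
    have : K₀ ≤ 1 / s := hKs.trans hst'
    gcongr
  have fin : M0 / (s * t) * (A / 2 * r ^ 2) + M0 / (s * t) * (r * b) + M0 / (s * t) * (r ^ 2)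
      ≤ 2 * A * M0 / (s * t) * (r + b) ^ 2 := by
    have e' : 2 * A * M0 / (s * t) * (r + b) ^ 2 = M0 / (s * t) * (2 * A * (r + b) ^ 2) := by
      field_simp
    rw [e', ← mul_add, ← mul_add]
    have hrb := mul_nonneg hr0 hb0
    gcongr
    nlinarith [mul_nonneg (sub_nonneg.2 hA) (sq_nonneg r), mul_nonneg (sub_nonneg.2 hA) hrb,
      mul_nonneg (sub_nonneg.2 hA) (sq_nonneg b), sq_nonneg b, sq_nonneg r]
  linarith

/-- the hypotheses on the almost orthonormal functions `u_a` at a centre, times `[t', t]` -/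
structure Frame (C : Calc m) (φ : ℝ → M →ₘ[m] ℝ) (K₀ ε t' t : ℝ) {n : ℕ}
    (u : Fin n → M →ₘ[m] ℝ) : Prop where
  test : ∀ a, u a ∈ C.TestI
  /-- (H1) -/
  ort : ∀ a b, I (φ t' * |C.Γ (u a) (u b) - (if a = b then (1 : ℝ) else 0) • 1|) ≤ ε
  /-- (H2) -/
  le2 : ∀ a s, t' ≤ s → s ≤ t → I (φ s * C.Γ (u a) (u a)) ≤ 2
  /-- (H3) -/
  gam : ∀ a s, t' ≤ s → s ≤ t → s * C.NN (-K₀) (u a) (u a) (φ s) ≤ ε
  /-- (H4) -/
  lap : ∀ a s, t' ≤ s → s ≤ t → t * √(I (φ s * C.Γ (C.lap (u a)) (C.lap (u a)))) ≤ ε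
  /-- rank `n` -/
  rank : ∀ f ∈ C.W, ∀ᵐ x ∂m,
    (∀ a b, |C.Γ (u a) (u b) x - (if a = b then (1 : ℝ) else 0)| ≤ 1 / (4 * n)) →
      C.Γ f f x ≤ 2 * ∑ a, C.Γ f (u a) x ^ 2

end one

end Vale.Agent.P242.H542
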