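import Vale.Agent.P242.H542.Avg

/-! P242, Part A, package A-DL (helper542): the source of `Γ(f,g)` and the bound of `γ_s(f)` at a
centre; estimate (K9). -/

set_option linter.all false

open MeasureTheory Filter Topology Set
open scoped ENNReal NNReal

namespace Vale.Agent.P233

variable {M : Type*} [MeasurableSpace M] {m : Measure M} {C : Calc m}

namespace Cen

variable {φ : ℝ → M →ₘ[m] ℝ} (hφ : Cen C φ) {K₀ N s t τ : ℝ} {f g h F G : M →ₘ[m] ℝ}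
include hφ

/-- Cauchy-Schwarz for `Γ(f,h)` with `f` a test function, in `L²` form -/
theorem av_P_Γ_abs (hC : IsGamma C) (hs : 0 < s) (ht : 0 ≤ t) (hf : f ∈ C.Test) (hh : h ∈ C.W) :
    I (φ s * |C.P t (C.Γ f h)|)
      ≤ √(I (φ (s + t) * C.Γ f f)) * √(I (φ (s + t) * C.Γ h h)) :=
  (hφ.av_P_abs hC.toIsDir hs ht (hC.Γ_mem2 (hC.test_A hf).1 (hC.test_Γ_top hf) hh)).trans
    (hφ.av_Γ_abs hC.toIsDir (by linarith) (hC.test_A hf).1 hh)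

/-- the source of `Γ(f,g)`: `P_s |Δ P_t Γ(f,g)|(x)` -/
theorem av_lap_P_Γ (hC : IsGamma C) (hB : C.BEi (-K₀)) (hK : 0 ≤ K₀) (hs : 0 < s) (ht : 0 < t)
    (hf : f ∈ C.Test) (hg : g ∈ C.Test) :
    I (φ s * |C.lap (C.P t (C.Γ f g))|)
      ≤ 2 * (√(C.NN (-K₀) f f (φ (s + t))) * √(C.NN (-K₀) g g (φ (s + t))))
        + √(I (φ (s + t) * C.Γ f f)) * √(I (φ (s + t) * C.Γ (C.lap g) (C.lap g)))
        + √(I (φ (s + t) * C.Γ g g)) * √(I (φ (s + t) * C.Γ (C.lap f) (C.lap f)))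
        + 2 * K₀ * (√(I (φ (s + t) * C.Γ f f)) * √(I (φ (s + t) * C.Γ g g))) := by
  have hD := hC.toIsDir
  have fA := hC.test_A hf
  have gA := hC.test_A hg
  have lf := hC.test_lap_mem hf
  have lg := hC.test_lap_mem hg
  have m1 := hC.Γ_mem2 fA.1 (hC.test_Γ_top hf) lg
  have m2 := hC.Γ_mem2 gA.1 (hC.test_Γ_top hg) lf
  have m3 := hC.Γ_mem2' hB hf hg
  have mg := hC.gam_mem2 (K₀ := K₀) hB ht hf hg
  have e : C.lap (C.P t (C.Γ f g)) = (2 : ℝ) • C.gam K₀ t f g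
      + (C.P t (C.Γ f (C.lap g)) + C.P t (C.Γ g (C.lap f)))
      + (-(2 * K₀)) • C.P t (C.Γ f g) := by
    rw [hC.lap_P_Γ (K₀ := K₀) hB, hC.P_add t m1 m2]
    module
  have hle : |C.lap (C.P t (C.Γ f g))| ≤ (2 : ℝ) • |C.gam K₀ t f g|
      + (|C.P t (C.Γ f (C.lap g))| + |C.P t (C.Γ g (C.lap f))|)
      + (2 * K₀) • |C.P t (C.Γ f g)| := by
    rw [e]
    refine (abs_add_cls _ _).trans (add_le_add ((abs_add_cls _ _).trans
      (add_le_add ?_ (abs_add_cls _ _))) ?_)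
    · rw [abs_smul_cls, abs_of_pos (by norm_num : (0 : ℝ) < 2)]
    · rw [abs_smul_cls, abs_neg, abs_of_nonneg (by linarith : (0 : ℝ) ≤ 2 * K₀)]
  have n1 := hφ.av_mem2 hs (mem_abs mg)
  have n2 := hφ.av_mem2 hs (mem_abs (hC.P_mem2 t m1))
  have n3 := hφ.av_mem2 hs (mem_abs (hC.P_mem2 t m2))
  have n4 := hφ.av_mem2 hs (mem_abs (hC.P_mem2 t m3))
  have n0 := hφ.av_mem2 hs (mem_abs (hD.lap_P_mem2 ht m3))
  have e2 : φ s * ((2 : ℝ) • |C.gam K₀ t f g|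
      + (|C.P t (C.Γ f (C.lap g))| + |C.P t (C.Γ g (C.lap f))|)
      + (2 * K₀) • |C.P t (C.Γ f g)|)
      = (2 : ℝ) • (φ s * |C.gam K₀ t f g|)
      + (φ s * |C.P t (C.Γ f (C.lap g))| + φ s * |C.P t (C.Γ g (C.lap f))|)
      + (2 * K₀) • (φ s * |C.P t (C.Γ f g)|) := by algebra
  have m4 := mem_add (mem_add (mem_smul 2 n1) (mem_add n2 n3)) (mem_smul (2 * K₀) n4)
  have h1 := I_mono n0 (by rw [e2]; exact m4) (mul_le_mul_of_nonneg_left hle (hφ.nonneg s hs))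
  rw [e2, I_add (mem_add (mem_smul 2 n1) (mem_add n2 n3)) (mem_smul (2 * K₀) n4),
    I_add (mem_smul 2 n1) (mem_add n2 n3), I_add n2 n3, I_smul, I_smul] at h1
  have b1 := hφ.av_gam_abs hC hB hs ht hf hg
  have b2 := hφ.av_P_Γ_abs hC hs ht.le hf lg
  have b3 := hφ.av_P_Γ_abs hC hs ht.le hg lf
  have b4 := hφ.av_P_Γ_abs hC hs ht.le hf gA.1
  have b5 := mul_le_mul_of_nonneg_left b4 (by linarith : (0 : ℝ) ≤ 2 * K₀)
  linarith

end Cen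

namespace Ctr

variable {φ : ℝ → M →ₘ[m] ℝ} {n : ℕ} {T A κ a₀ : ℝ} (hφ : Ctr C φ n T A κ a₀)
variable {K₀ N s t τ : ℝ} {f g h F G : M →ₘ[m] ℝ}
include hφ

theorem A_pos : 0 < A := by linarith [hφ.hA]

theorem κ_pos : 0 < κ := by linarith [hφ.hκ]

theorem a_le : a₀ ≤ 1 / 2 := by nlinarith [hφ.hκ, hφ.ha, hφ.ha']

/-- `γ_s(f,f)(x)` from the energy at time `κ s` and the energy of `Δf` -/
theorem NN_le (hC : IsGamma C) (hB : C.BEi (-K₀)) (hK : 0 ≤ K₀) (hs : 0 < s) (hT : κ * s ≤ T)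
    (hf : f ∈ C.Test) :
    C.NN (-K₀) f f (φ s) ≤ A / (2 * s) * I (φ (κ * s) * C.Γ f f)
      + √(I (φ s * C.Γ f f)) * √(I (φ s * C.Γ (C.lap f) (C.lap f)))
      + K₀ * I (φ s * C.Γ f f) := by
  have hD := hC.toIsDir
  have fA := hC.test_A hf
  have lf := hC.test_lap_mem hf
  have h1 := hφ.lap_av_Γ (K₀ := K₀) hC hB hs hf hf
  have mΓ := hC.mem1 _ fA.1
  have hl : MemLp (C.lap (φ s) * C.Γ f f : M →ₘ[m] ℝ) 1 m :=
    mem_mul_22 (hφ.isLap hD hs).2.1 (hC.Γ_mem2' hB hf hf)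
  have h2 := hφ.av_lap hs hT mΓ hl
  rw [abs_of_nonneg (hC.nonneg f fA.1)] at h2
  have h3 := hφ.av_Γ_abs hD hs fA.1 lf
  have m1 : MemLp (φ s * C.Γ f (C.lap f) : M →ₘ[m] ℝ) 1 m := hφ.mem_mul hs (hD.Γ_mem1 fA.1 lf)
  have h4 : |I (φ s * C.Γ f (C.lap f))| ≤ I (φ s * |C.Γ f (C.lap f)|) := by
    have := I_abs m1
    rwa [abs_mul_cls, abs_of_nonneg (hφ.nonneg s hs)] at this
  rw [mul_add, I_add m1 m1] at h1
  have h5 := (abs_le.1 (h4.trans h3)).1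
  have h6 := (abs_le.1 h2).2
  have e : A / (2 * s) = (A / s) / 2 := by field_simp
  rw [e]
  linarith

/-- (K8), averaged -/
theorem av_le (hs : 0 < s) (hst : s ≤ a₀ * t) (hT : t ≤ T) (hF0 : 0 ≤ F)
    (h1 : MemLp (φ s * F : M →ₘ[m] ℝ) 1 m) (h2 : MemLp (φ t * F : M →ₘ[m] ℝ) 1 m) :
    I (φ s * F) ≤ A * (t / s) ^ n * I (φ t * F) := by
  rw [← I_smul, ← smul_mul_assoc]
  refine I_mono h1 ?_ (mul_le_mul_of_nonneg_right (hφ.k8 s t hs hst hT) hF0)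
  rw [smul_mul_assoc]; exact mem_smul _ h2

end Ctr

end Vale.Agent.P233
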