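import Vale.Agent.P242.H542.Dl

/-! P242, Part A, package A-DL (helper542): decay lemma, the coefficients `v_a`. -/

set_option linter.all false

open MeasureTheory Filter Topology Set
open scoped ENNReal NNReal

namespace Vale.Agent.P242.H542

open Vale.Agent.P233

variable {M : Type*} [MeasurableSpace M] {m : Measure M} {C : Calc m}
variable {φ : ℝ → M →ₘ[m] ℝ} {n : ℕ} {T A κ a₀ : ℝ}
variable {K₀ s t t' τ c ε Λ b : ℝ} {f g h F G : M →ₘ[m] ℝ} {u : Fin n → M →ₘ[m] ℝ}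

/-- `v_a` -/
noncomputable def vco (C : Calc m) (φ : ℝ → M →ₘ[m] ℝ) (a₀ t t' : ℝ) {n : ℕ}
    (u : Fin n → M →ₘ[m] ℝ) (g : M →ₘ[m] ℝ) (a : Fin n) : ℝ :=
  I (φ (t' + a₀ ^ 2 * t) * C.Γ (C.P (a₀ * t) g) (u a))

theorem cst_le'' (hA : 1 ≤ A) (ha : 0 < a₀) (ha2 : a₀ ≤ 1 / 2) (ht : 0 < t) :
    A / (a₀ ^ 2 * t) * (a₀ * t / (a₀ ^ 2 * t)) ^ n ≤ MM A a₀ n / t := by
  have hA0 : 0 < A := by linarith
  have e1 : a₀ * t / (a₀ ^ 2 * t) = 1 / a₀ := by field_simp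
  have e2 : A / (a₀ ^ 2 * t) * (1 / a₀) ^ n = A * (1 / a₀) ^ (n + 2) / t := by
    rw [pow_add]; field_simp
  rw [e1, e2, MM]
  gcongr ?_ / t
  gcongr A * ?_
  have h1 : (1 : ℝ) / a₀ ≤ 2 / a₀ := by gcongr; norm_num
  gcongr

/-- `I(φ_s |Γ(P_{a₀ t} g, u_a)|) ≤ 2 M r / √t` -/
theorem av_Γu (hC : IsGamma C) [SigmaFinite m] (hn : 0 < n) (hBE : C.BE (-K₀) n)
    (hs : 0 < s) (ht : 0 < t) (hst : s ≤ a₀ * t) (hT : t ≤ T) (hts : t' ≤ s)
    (hφ : Ctr C φ n T A κ a₀) (hu : Frame C φ K₀ ε t' t u)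
    (hg : MemLp g 2 m) (hg' : MemLp g ∞ m) (c : ℝ) (a : Fin n) :
    I (φ s * |C.Γ (C.P (a₀ * t) g) (u a)|)
      ≤ √(2 * (MM A a₀ n / t)) * I (φ t * |g - c • 1|) := by
  have hat := mul_pos hφ.ha ht
  have ha2 := hφ.a_le
  have hM1 : 1 ≤ MM A a₀ n := MM_ge hφ.hA hφ.ha ha2
  have hst2 : s ≤ t := by nlinarith [hφ.ha]
  have hr0 : 0 ≤ I (φ t * |g - c • 1|) := hφ.av_nonneg ht (abs_nonneg _)
  have h1 := hφ.av_Γ_abs hC.toIsDir hs (hC.P_mem hat hg) (hC.test_A (hu.test a).1).1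
  have hX := X_le hs ht hst hT hφ hg hg' c
  have h2 := hu.le2 a s hts hst2
  refine h1.trans ?_
  have s1 := Real.sqrt_le_sqrt hX
  have s2 := Real.sqrt_le_sqrt h2
  rw [Real.sqrt_mul (by positivity), Real.sqrt_sq hr0] at s1
  refine (mul_le_mul s1 s2 (Real.sqrt_nonneg _) (by positivity)).trans (le_of_eq ?_)
  rw [Real.sqrt_mul (by norm_num : (0 : ℝ) ≤ 2)]
  ring

/-- the arithmetic of `osc1` -/
theorem osc_real {M0 r sX sY sG sU sL sE : ℝ} (hA : 1 ≤ A) (hM1 : 1 ≤ M0) (ht : 0 < t)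
    (hs : 0 < s) (hΛ1 : 1 ≤ Λ) (htΛ : t ≤ Λ ^ 2 * s) (hr0 : 0 ≤ r) (hb0 : 0 ≤ b)
    (hε0 : 0 ≤ ε) (hε : ε ≤ 1) (hK : 0 ≤ K₀) (hKt : K₀ * t ≤ ε)
    (p1 : 0 ≤ sX) (p2 : 0 ≤ sY) (p3 : 0 ≤ sG) (p4 : 0 ≤ sU) (p5 : 0 ≤ sL) (p6 : 0 ≤ sE)
    (x1 : sX ≤ √M0 / √t * r) (x2 : sY ≤ √M0 / √t * (b / t))
    (x3 : sG ≤ √(2 * A * M0) / (√s * √t) * (r + b)) (x4 : sU ≤ √ε / √s)
    (x5 : sL ≤ ε / t) (x6 : sE ≤ √2) :
    2 * (sG * sU) + sX * sL + sE * sY + 2 * K₀ * (sX * sE)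
      ≤ 8 * A * M0 * Λ ^ 2 / (t * √t) * (√ε * r + b) := by
  have st := Real.sqrt_pos.2 ht
  have stt := Real.sq_sqrt ht.le
  have sss := Real.sqrt_pos.2 hs
  have hM2 : √M0 ≤ M0 := by
    rw [Real.sqrt_le_left (by linarith)]; nlinarith only [hM1]
  have hAM : √(2 * A * M0) ≤ 3 / 2 * (A * M0) := by
    have h1 : 1 ≤ A * M0 := one_le_mul_of_one_le_of_one_le hA hM1
    rw [Real.sqrt_le_left (by positivity)]
    have e : 2 * A * M0 = 2 * (A * M0) := by ring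
    rw [e]
    nlinarith only [h1]
  have h22 : √2 ≤ 3 / 2 := by
    rw [Real.sqrt_le_left (by norm_num)]; norm_num
  have hεε : ε ≤ √ε := by
    refine Real.le_sqrt_of_sq_le ?_
    nlinarith only [hε0, hε]
  have hε1 : √ε ≤ 1 := by
    rw [Real.sqrt_le_one]; exact hε
  have se0 := Real.sqrt_nonneg ε
  -- each term
  have y1 : sG * sU ≤ 3 / 2 * (A * M0) * Λ ^ 2 / (t * √t) * (√ε * (r + b)) := by
    refine (mul_le_mul x3 x4 p4 (by positivity)).trans ?_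
    have e : √(2 * A * M0) / (√s * √t) * (r + b) * (√ε / √s)
        = √(2 * A * M0) * (1 / (s * √t)) * (√ε * (r + b)) := by
      rw [show (s : ℝ) * √t = √s * √s * √t by rw [Real.mul_self_sqrt hs.le]]
      field_simp
    rw [e]
    have e2 : 1 / (s * √t) ≤ Λ ^ 2 / (t * √t) := by
      rw [div_le_div_iff₀ (by positivity) (by positivity)]
      have := mul_le_mul_of_nonneg_right htΛ st.le
      linarith only [this]
    calc √(2 * A * M0) * (1 / (s * √t)) * (√ε * (r + b))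
        ≤ 3 / 2 * (A * M0) * (Λ ^ 2 / (t * √t)) * (√ε * (r + b)) := by gcongr
      _ = _ := by ring
  have y2 : sX * sL ≤ M0 / (t * √t) * (√ε * r) := by
    refine (mul_le_mul x1 x5 p5 (by positivity)).trans ?_
    calc √M0 / √t * r * (ε / t) ≤ M0 / √t * r * (√ε / t) := by gcongr
      _ = _ := by field_simp
  have y3 : sE * sY ≤ 3 / 2 * M0 / (t * √t) * b := by
    refine (mul_le_mul x6 x2 p2 (by positivity)).trans ?_
    calc √2 * (√M0 / √t * (b / t)) ≤ 3 / 2 * (M0 / √t * (b / t)) := by gcongr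
      _ = _ := by field_simp
  have y4 : 2 * K₀ * (sX * sE) ≤ 3 * M0 / (t * √t) * (√ε * r) := by
    have h5 : K₀ ≤ √ε / t := by
      rw [le_div_iff₀ ht]; linarith only [hKt, hεε]
    have x1' : sX ≤ M0 / √t * r := x1.trans (by gcongr)
    have x6' : sE ≤ 3 / 2 := x6.trans h22
    calc 2 * K₀ * (sX * sE) ≤ 2 * (√ε / t) * ((M0 / √t * r) * (3 / 2)) := by gcongr
      _ = _ := by field_simp
  have hD : 0 < t * √t := by positivity
  have hΛ2 : 1 ≤ Λ ^ 2 := one_le_pow₀ hΛ1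
  have hAMΛ : 1 ≤ A * Λ ^ 2 := one_le_mul_of_one_le_of_one_le hA hΛ2
  have e1 : 2 * (3 / 2 * (A * M0) * Λ ^ 2 / (t * √t) * (√ε * (r + b)))
      + M0 / (t * √t) * (√ε * r) + 3 / 2 * M0 / (t * √t) * b + 3 * M0 / (t * √t) * (√ε * r)
      = M0 / (t * √t) * (3 * (A * Λ ^ 2) * (√ε * r) + 3 * (A * Λ ^ 2) * (√ε * b)
        + 4 * (√ε * r) + 3 / 2 * b) := by
    ring
  have e2 : 8 * A * M0 * Λ ^ 2 / (t * √t) * (√ε * r + b)
      = M0 / (t * √t) * (8 * (A * Λ ^ 2) * (√ε * r) + 8 * (A * Λ ^ 2) * b) := by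
    ring
  have fin : M0 / (t * √t) * (3 * (A * Λ ^ 2) * (√ε * r) + 3 * (A * Λ ^ 2) * (√ε * b)
        + 4 * (√ε * r) + 3 / 2 * b)
      ≤ M0 / (t * √t) * (8 * (A * Λ ^ 2) * (√ε * r) + 8 * (A * Λ ^ 2) * b) := by
    have hq := mul_nonneg se0 hr0
    have hq2 : √ε * b ≤ b := mul_le_of_le_one_left hb0 hε1
    have z1 := mul_nonneg (sub_nonneg.2 hAMΛ) hq
    have z2 := mul_nonneg (sub_nonneg.2 hAMΛ) hb0
    have z3 := mul_nonneg (by linarith only [hAMΛ] : (0:ℝ) ≤ A * Λ ^ 2) (sub_nonneg.2 hq2)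
    gcongr ?_ * ?_
    linarith only [z1, z2, z3, hq, hb0]
  linarith only [y1, y2, y3, y4, e1, e2, fin]

/-- first part of the oscillation of `Γ(P_{a₀ t} g, u_a)`: the source -/
theorem osc1 (hC : IsGamma C) [SigmaFinite m] (hn : 0 < n) (hBE : C.BE (-K₀) n) (hK : 0 ≤ K₀)
    (ht : 0 < t) (hT : t ≤ T) (hΛ1 : 1 ≤ Λ) (ht'0 : 0 < t') (htΛ : t ≤ Λ ^ 2 * t')
    (ht'a : t' ≤ a₀ ^ 2 * t) (hε0 : 0 ≤ ε) (hε : ε ≤ 1) (hKt : K₀ * t ≤ ε)
    (hφ : Ctr C φ n T A κ a₀) (hu : Frame C φ K₀ ε t' t u)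
    (hg : MemLp g 2 m) (hg' : MemLp g ∞ m) (c : ℝ)
    (hb : I (φ t * |C.lap (C.P (a₀ * t / 2) g)|) ≤ b / t) (hτ : 0 < τ) (hτ2 : τ < a₀ ^ 2 * t)
    (a : Fin n) :
    I (φ t' * |C.lap (C.P τ (C.Γ (C.P (a₀ * t) g) (u a)))|)
      ≤ 8 * A * MM A a₀ n * Λ ^ 2 / (t * √t) * (√ε * I (φ t * |g - c • 1|) + b) := by
  have ha := hφ.ha
  have ha2 := hφ.a_le
  have hA := hφ.hA
  have hκ := hφ.hκ
  have hN : (0 : ℝ) < n := by exact_mod_cast hn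
  have hB := hC.bei hN hBE
  have hat := mul_pos ha ht
  obtain ⟨s, hs_def⟩ : ∃ s, s = t' + τ := ⟨_, rfl⟩
  have hs : 0 < s := by linarith only [ht'0, hτ, hs_def]
  have hss : t' ≤ s := by linarith only [hτ, hs_def]
  have hs2 : s ≤ 2 * (a₀ ^ 2 * t) := by linarith only [hτ2, ht'a, hs_def]
  have hκs : κ * s ≤ a₀ * t := by
    have h1 : κ * s ≤ κ * (2 * (a₀ ^ 2 * t)) := mul_le_mul_of_nonneg_left hs2 hφ.κ_pos.le
    have h2 : κ * (2 * (a₀ ^ 2 * t)) = (2 * κ * a₀) * (a₀ * t) := by ring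
    have h3 := mul_le_mul_of_nonneg_right hφ.ha' hat.le
    linarith only [h1, h2, h3]
  have hs1 : s ≤ a₀ * t := by
    have := mul_le_mul_of_nonneg_right hκ hs.le
    linarith only [this, hκs]
  have hst : s ≤ t := by
    have := mul_le_mul_of_nonneg_right ha2 ht.le
    linarith only [this, hs1, ht]
  have hKt1 : K₀ * t ≤ 1 := hKt.trans hε
  have hM1 : 1 ≤ MM A a₀ n := MM_ge hA ha ha2
  have hr0 : 0 ≤ I (φ t * |g - c • 1|) := hφ.av_nonneg ht (abs_nonneg _)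
  have hg1 := H715.P_testI_pos hC hN hBE hat hg hg'
  have hua := (hu.test a).1
  have hb0' : 0 ≤ I (φ t * |C.lap (C.P (a₀ * t / 2) g)|) := hφ.av_nonneg ht (abs_nonneg _)
  have hb0 : 0 ≤ b := by
    have h := mul_nonneg (hb0'.trans hb) ht.le
    rwa [div_mul_cancel₀ _ ht.ne'] at h
  have hG := gam_le hC hn hBE hK hs ht hκs hT hKt1 hφ hg hg' c hb
  have hX := X_le hs ht hs1 hT hφ hg hg' c
  have hY := Y_le hC hn hBE hs ht hs1 hT hφ hg hg'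
  have h2 := hu.le2 a s hss hst
  have h3 := hu.gam a s hss hst
  have h4 := hu.lap a s hss hst
  have key := hφ.av_lap_P_Γ (K₀ := K₀) hC hB hK ht'0 hτ hg1.1 hua
  rw [← hs_def] at key
  have hY2 : I (φ s * C.Γ (C.lap (C.P (a₀ * t) g)) (C.lap (C.P (a₀ * t) g)))
      ≤ MM A a₀ n / t * (b / t) ^ 2 := by
    refine hY.trans ?_
    gcongr
  have x1 : √(I (φ s * C.Γ (C.P (a₀ * t) g) (C.P (a₀ * t) g)))
      ≤ √(MM A a₀ n) / √t * I (φ t * |g - c • 1|) := by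
    refine (Real.sqrt_le_sqrt hX).trans ?_
    rw [Real.sqrt_mul (by positivity), Real.sqrt_sq hr0, Real.sqrt_div' _ ht.le]
  have x2 : √(I (φ s * C.Γ (C.lap (C.P (a₀ * t) g)) (C.lap (C.P (a₀ * t) g))))
      ≤ √(MM A a₀ n) / √t * (b / t) := by
    refine (Real.sqrt_le_sqrt hY2).trans ?_
    rw [Real.sqrt_mul (by positivity), Real.sqrt_sq (by positivity), Real.sqrt_div' _ ht.le]
  have x3 : √(C.NN (-K₀) (C.P (a₀ * t) g) (C.P (a₀ * t) g) (φ s))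
      ≤ √(2 * A * MM A a₀ n) / (√s * √t) * (I (φ t * |g - c • 1|) + b) := by
    refine (Real.sqrt_le_sqrt hG).trans ?_
    rw [Real.sqrt_mul (by positivity), Real.sqrt_sq (by positivity),
      Real.sqrt_div' _ (by positivity), Real.sqrt_mul hs.le]
  have x4 : √(C.NN (-K₀) (u a) (u a) (φ s)) ≤ √ε / √s := by
    rw [← Real.sqrt_div' _ hs.le]
    refine Real.sqrt_le_sqrt ?_
    rw [le_div_iff₀ hs]; linarith only [h3]
  have x5 : √(I (φ s * C.Γ (C.lap (u a)) (C.lap (u a)))) ≤ ε / t := by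
    rw [le_div_iff₀ ht]; linarith only [h4]
  have x6 : √(I (φ s * C.Γ (u a) (u a))) ≤ √2 := Real.sqrt_le_sqrt h2
  have htΛ' : t ≤ Λ ^ 2 * s :=
    htΛ.trans (mul_le_mul_of_nonneg_left hss (by positivity))
  exact key.trans (osc_real hA hM1 ht hs hΛ1 htΛ' hr0 hb0 hε0 hε hK hKt (Real.sqrt_nonneg _)
    (Real.sqrt_nonneg _) (Real.sqrt_nonneg _) (Real.sqrt_nonneg _) (Real.sqrt_nonneg _)
    (Real.sqrt_nonneg _) x1 x2 x3 x4 x5 x6)

/-- second part of the oscillation: Poincaré -/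
theorem osc2 (hC : IsGamma C) [SigmaFinite m] (hn : 0 < n) (hBE : C.BE (-K₀) n)
    (ht : 0 < t) (hT : t ≤ T) (ht'0 : 0 < t') (ht' : t' ≤ a₀ ^ 2 * t)
    (hφ : Ctr C φ n T A κ a₀) (hu : Frame C φ K₀ ε t' t u)
    (hg : MemLp g 2 m) (hg' : MemLp g ∞ m) (c : ℝ) (a : Fin n) :
    I (φ t' * |C.P (a₀ ^ 2 * t) (C.Γ (C.P (a₀ * t) g) (u a)) - vco C φ a₀ t t' u g a • 1|)
      ≤ 2 * A * MM A a₀ n * √t' / t * I (φ t * |g - c • 1|) := by
  have ha := hφ.ha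
  have ha2 := hφ.a_le
  have hA := hφ.hA
  have hN : (0 : ℝ) < n := by exact_mod_cast hn
  have hB := hC.bei hN hBE
  have hat := mul_pos ha ht
  have haat : 0 < a₀ ^ 2 * t := by positivity
  have hat' : a₀ * t ≤ t := by nlinarith
  have hg1 := H715.P_testI_pos hC hN hBE hat hg hg'
  have hua := (hu.test a).1
  set M0 := MM A a₀ n with hM0
  have hM1 : 1 ≤ M0 := MM_ge hA ha ha2
  have hr0 : 0 ≤ I (φ t * |g - c • 1|) := hφ.av_nonneg ht (abs_nonneg _)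
  set F := C.Γ (C.P (a₀ * t) g) (u a) with hF
  have hF2 : MemLp F 2 m := hC.Γ_mem2' hB hg1.1 hua
  have hFt : MemLp F ∞ m := hC.Γ_memTop (hC.test_A hg1.1).1 (hC.test_Γ_top hg1.1)
    (hC.test_A hua).1 (hC.test_Γ_top hua)
  have hPF := H715.P_testI_pos hC hN hBE haat hF2 hFt
  have hv : vco C φ a₀ t t' u g a = I (φ t' * C.P (a₀ ^ 2 * t) F) := by
    rw [hφ.av_P hC.toIsDir ht'0 haat.le hF2]; rfl
  have h1 := hφ.k7 t' ht'0 (by nlinarith) _ hPF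
  rw [← hv] at h1
  have h2 := hφ.av_gr hC.toIsDir ht'0 (hC.P_mem haat hF2)
  have hta : t' ≤ a₀ * (a₀ * t) := by nlinarith
  have h3 := hφ.k1 t' (a₀ ^ 2 * t) (a₀ * t) ht'0 haat hta (by nlinarith) (hat'.trans hT) F hF2 hFt 0
  rw [zero_smul, sub_zero] at h3
  have h4 := av_Γu hC hn hBE (s := a₀ * t) (t' := t') hat ht le_rfl hT (by nlinarith) hφ hu hg hg' c a
  rw [← hF, ← hM0] at h4
  set r := I (φ t * |g - c • 1|) with hr
  have h40 : 0 ≤ I (φ (a₀ * t) * |F|) := hφ.av_nonneg hat (abs_nonneg _)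
  have h5 : I (φ t' * C.Γ (C.P (a₀ ^ 2 * t) F) (C.P (a₀ ^ 2 * t) F))
      ≤ M0 / t * (√(2 * (M0 / t)) * r) ^ 2 := by
    refine h3.trans ?_
    refine mul_le_mul (cst_le'' hA ha ha2 ht) ?_ (sq_nonneg _) (by positivity)
    gcongr
  have h6 : √(I (φ t' * C.Γ (C.P (a₀ ^ 2 * t) F) (C.P (a₀ ^ 2 * t) F))) ≤ 2 * M0 / t * r := by
    refine (Real.sqrt_le_sqrt h5).trans ?_
    rw [Real.sqrt_le_left (by positivity), mul_pow, Real.sq_sqrt (by positivity)]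
    have : M0 / t * (2 * (M0 / t) * r ^ 2) = 2 * (M0 / t * r) ^ 2 := by ring
    rw [this]
    have e : 2 * M0 / t * r = 2 * (M0 / t * r) := by ring
    rw [e]
    nlinarith [sq_nonneg (M0 / t * r)]
  refine h1.trans ?_
  calc A * √t' * I (φ t' * C.gr (C.P (a₀ ^ 2 * t) F)) ≤ A * √t' * (2 * M0 / t * r) := by
        gcongr
        exact h2.trans h6
    _ = _ := by ring

end Vale.Agent.P242.H542
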