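import Vale.Agent.P242.H542.Dl2

/-! P242, Part A, package A-DL (helper542): decay lemma (A6 of note 3517) at a fixed centre. -/

set_option linter.all false

open MeasureTheory Filter Topology Set
open scoped ENNReal NNReal

namespace Vale.Agent.P242.H542

open Vale.Agent.P233

variable {M : Type*} [MeasurableSpace M] {m : Measure M} {C : Calc m}

section tools

variable {ψ F G : M →ₘ[m] ℝ}

theorem wI_add (h0 : 0 ≤ ψ) (hF : MemLp (ψ * F : M →ₘ[m] ℝ) 1 m)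
    (hG : MemLp (ψ * G : M →ₘ[m] ℝ) 1 m) :
    MemLp (ψ * (F + G) : M →ₘ[m] ℝ) 1 m ∧ I (ψ * |F + G|) ≤ I (ψ * |F|) + I (ψ * |G|) := by
  have e : ∀ H : M →ₘ[m] ℝ, ψ * |H| = |ψ * H| := fun H => by
    rw [abs_mul_cls, abs_of_nonneg h0]
  have hs : MemLp (ψ * (F + G) : M →ₘ[m] ℝ) 1 m := by rw [mul_add]; exact mem_add hF hG
  refine ⟨hs, ?_⟩
  rw [e, e, e, ← I_add (mem_abs hF) (mem_abs hG)]
  refine I_mono (mem_abs hs) (mem_add (mem_abs hF) (mem_abs hG)) ?_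
  rw [mul_add]; exact abs_add_cls _ _

theorem wI_smul (c : ℝ) : I (ψ * |c • F|) = |c| * I (ψ * |F|) := by
  rw [abs_smul_cls, mul_smul_comm, I_smul]

theorem wI_sum {ι : Type*} (s : Finset ι) (h0 : 0 ≤ ψ) {H : ι → M →ₘ[m] ℝ} (c : ι → ℝ)
    (hH : ∀ i, MemLp (ψ * H i : M →ₘ[m] ℝ) 1 m) :
    MemLp (ψ * ∑ i ∈ s, c i • H i : M →ₘ[m] ℝ) 1 m ∧
      I (ψ * |∑ i ∈ s, c i • H i|) ≤ ∑ i ∈ s, |c i| * I (ψ * |H i|) := by
  classical
  induction s using Finset.induction_on with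
  | empty =>
    constructor
    · rw [Finset.sum_empty, mul_zero]; exact mem_zero
    · rw [Finset.sum_empty, Finset.sum_empty, abs_zero, mul_zero, I_zero]
  | insert i s hi ih =>
    rw [Finset.sum_insert hi, Finset.sum_insert hi]
    have h1 : MemLp (ψ * (c i • H i) : M →ₘ[m] ℝ) 1 m := by
      rw [mul_smul_comm]; exact mem_smul _ (hH i)
    have h2 := wI_add h0 h1 ih.1
    refine ⟨h2.1, h2.2.trans ?_⟩
    rw [wI_smul]
    linarith [ih.2]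

theorem Γ_sum_left (hC : IsDir C) {ι : Type*} (s : Finset ι) {H : ι → M →ₘ[m] ℝ} (c : ι → ℝ)
    (hH : ∀ i, H i ∈ C.W) (hF : F ∈ C.W) :
    ∑ i ∈ s, c i • H i ∈ C.W ∧
      C.Γ (∑ i ∈ s, c i • H i) F = ∑ i ∈ s, c i • C.Γ (H i) F := by
  classical
  induction s using Finset.induction_on with
  | empty =>
    rw [Finset.sum_empty, Finset.sum_empty]
    exact ⟨hC.zero_mem, hC.Γ_zero_left hF⟩
  | insert i s hi ih =>
    rw [Finset.sum_insert hi, Finset.sum_insert hi]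
    have h1 := hC.smul_mem (c i) _ (hH i)
    refine ⟨hC.add_mem _ h1 _ ih.1, ?_⟩
    rw [hC.add_left _ h1 _ ih.1 _ hF, ih.2, hC.smul_left _ _ (hH i) _ hF]

theorem Γ_sub_le (hC : IsDir C) (hF : F ∈ C.W) (hG : G ∈ C.W) :
    C.Γ (F - G) (F - G) ≤ (2 : ℝ) • C.Γ F F + (2 : ℝ) • C.Γ G G := by
  have h1 := hC.nonneg _ (hC.add_mem F hF G hG)
  have e1 := hC.Γ_expand 1 hF hG
  have e2 := hC.Γ_expand (-1) hF hG
  rw [one_smul] at e1
  have e3 : F - G = F + (-1 : ℝ) • G := by module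
  rw [e3, e2]
  rw [e1] at h1
  rw [← sub_nonneg]
  convert h1 using 1
  module

end tools

variable {φ : ℝ → M →ₘ[m] ℝ} {n : ℕ} {T A κ a₀ : ℝ}
variable {K₀ s t t' τ c ε Λ b : ℝ} {f g h F G : M →ₘ[m] ℝ} {u : Fin n → M →ₘ[m] ℝ}

/-- the oscillation of `Γ(P_{a₀ t} g, u_a)` at time `t'` -/
theorem osc (hC : IsGamma C) [SigmaFinite m] (hn : 0 < n) (hBE : C.BE (-K₀) n) (hK : 0 ≤ K₀)
    (ht : 0 < t) (hT : t ≤ T) (hΛ1 : 1 ≤ Λ) (ht'0 : 0 < t') (htΛ : t ≤ Λ ^ 2 * t')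
    (ht'a : t' ≤ a₀ ^ 2 * t) (hε0 : 0 ≤ ε) (hε : ε ≤ 1) (hKt : K₀ * t ≤ ε)
    (hφ : Ctr C φ n T A κ a₀) (hu : Frame C φ K₀ ε t' t u)
    (hg : MemLp g 2 m) (hg' : MemLp g ∞ m) (c : ℝ)
    (hb : I (φ t * |C.lap (C.P (a₀ * t / 2) g)|) ≤ b / t) (a : Fin n) :
    I (φ t' * |C.Γ (C.P (a₀ * t) g) (u a) - vco C φ a₀ t t' u g a • 1|)
      ≤ 2 * A * MM A a₀ n * √t' / t * I (φ t * |g - c • 1|)
        + 8 * A * MM A a₀ n * Λ ^ 2 / √t * (√ε * I (φ t * |g - c • 1|) + b) := by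
  have ha := hφ.ha
  have ha2 := hφ.a_le
  have hA := hφ.hA
  have hN : (0 : ℝ) < n := by exact_mod_cast hn
  have hB := hC.bei hN hBE
  have hat := mul_pos ha ht
  have haat : 0 < a₀ ^ 2 * t := by positivity
  have hg1 := H715.P_testI_pos hC hN hBE hat hg hg'
  have hua := (hu.test a).1
  have hM1 : 1 ≤ MM A a₀ n := MM_ge hA ha ha2
  have hr0 : 0 ≤ I (φ t * |g - c • 1|) := hφ.av_nonneg ht (abs_nonneg _)
  have hb0' : 0 ≤ I (φ t * |C.lap (C.P (a₀ * t / 2) g)|) := hφ.av_nonneg ht (abs_nonneg _)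
  have hb0 : 0 ≤ b := by
    have h := mul_nonneg (hb0'.trans hb) ht.le
    rwa [div_mul_cancel₀ _ ht.ne'] at h
  have hF2 : MemLp (C.Γ (C.P (a₀ * t) g) (u a)) 2 m := hC.Γ_mem2' hB hg1.1 hua
  have h1 := hC.P_mean_abs haat hF2 (hφ.nonneg t' ht'0) (hφ.mem2 t' ht'0)
    (fun τ h1 h2 => osc1 hC hn hBE hK ht hT hΛ1 ht'0 htΛ ht'a hε0 hε hKt hφ hu hg hg' c hb h1 h2 a)
  have h2 := osc2 hC hn hBE ht hT ht'0 ht'a hφ hu hg hg' c a
  have hφ2 := hφ.mem2 t' ht'0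
  have m1 : MemLp (φ t' * (C.Γ (C.P (a₀ * t) g) (u a)
      - C.P (a₀ ^ 2 * t) (C.Γ (C.P (a₀ * t) g) (u a))) : M →ₘ[m] ℝ) 1 m :=
    mem_mul_22 hφ2 (mem_sub hF2 (hC.P_mem2 _ hF2))
  have m2 : MemLp (φ t' * (C.P (a₀ ^ 2 * t) (C.Γ (C.P (a₀ * t) g) (u a))
      - vco C φ a₀ t t' u g a • 1) : M →ₘ[m] ℝ) 1 m := by
    rw [mul_sub, mul_smul_comm, mul_one]
    exact mem_sub (mem_mul_22 hφ2 (hC.P_mem2 _ hF2)) (mem_smul _ (hφ.mem1 t' ht'0))
  have h3 := (wI_add (hφ.nonneg t' ht'0) m1 m2).2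
  rw [sub_add_sub_cancel, abs_sub_comm (C.Γ (C.P (a₀ * t) g) (u a))
    (C.P (a₀ ^ 2 * t) (C.Γ (C.P (a₀ * t) g) (u a)))] at h3
  have h4 : a₀ ^ 2 * t * (8 * A * MM A a₀ n * Λ ^ 2 / (t * √t)
      * (√ε * I (φ t * |g - c • 1|) + b))
      ≤ 8 * A * MM A a₀ n * Λ ^ 2 / √t * (√ε * I (φ t * |g - c • 1|) + b) := by
    have st := Real.sqrt_pos.2 ht
    have e : a₀ ^ 2 * t * (8 * A * MM A a₀ n * Λ ^ 2 / (t * √t)
      * (√ε * I (φ t * |g - c • 1|) + b)) = a₀ ^ 2 * (8 * A * MM A a₀ n * Λ ^ 2 / √t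
      * (√ε * I (φ t * |g - c • 1|) + b)) := by
      field_simp
    rw [e]
    have h5 : a₀ ^ 2 ≤ 1 := by nlinarith only [ha, ha2]
    exact mul_le_of_le_one_left (by positivity) h5
  linarith only [h1, h2, h3, h4]

/-- the coefficients are bounded -/
theorem vco_abs (hC : IsGamma C) [SigmaFinite m] (hn : 0 < n) (hBE : C.BE (-K₀) n)
    (ht : 0 < t) (hT : t ≤ T) (ht'0 : 0 < t') (ht'a : t' ≤ a₀ ^ 2 * t)
    (hφ : Ctr C φ n T A κ a₀) (hu : Frame C φ K₀ ε t' t u)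
    (hg : MemLp g 2 m) (hg' : MemLp g ∞ m) (c : ℝ) (a : Fin n) :
    |vco C φ a₀ t t' u g a| ≤ 2 * MM A a₀ n / √t * I (φ t * |g - c • 1|) := by
  have ha := hφ.ha
  have ha2 := hφ.a_le
  have hA := hφ.hA
  have hN : (0 : ℝ) < n := by exact_mod_cast hn
  have hat := mul_pos ha ht
  have hM1 : 1 ≤ MM A a₀ n := MM_ge hA ha ha2
  have hr0 : 0 ≤ I (φ t * |g - c • 1|) := hφ.av_nonneg ht (abs_nonneg _)
  have hs : 0 < t' + a₀ ^ 2 * t := by positivity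
  have hs1 : t' + a₀ ^ 2 * t ≤ a₀ * t := by
    have h1 := mul_le_mul_of_nonneg_right ha2 hat.le
    have e : a₀ ^ 2 * t = a₀ * (a₀ * t) := by ring
    rw [e] at ht'a ⊢
    linarith only [ht'a, h1]
  have h1 := av_Γu hC hn hBE hs ht hs1 hT (by linarith only [mul_pos (pow_pos ha 2) ht] :
    t' ≤ t' + a₀ ^ 2 * t) hφ hu hg hg' c a
  have hm : MemLp (φ (t' + a₀ ^ 2 * t) * C.Γ (C.P (a₀ * t) g) (u a) : M →ₘ[m] ℝ) 1 m :=
    hφ.mem_mul hs (hC.Γ_mem1 (hC.P_mem hat hg) (hC.test_A (hu.test a).1).1)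
  have h2 := I_abs hm
  rw [abs_mul_cls, abs_of_nonneg (hφ.nonneg _ hs)] at h2
  refine (h2.trans h1).trans ?_
  refine mul_le_mul_of_nonneg_right ?_ hr0
  rw [Real.sqrt_le_left (by positivity), div_pow, mul_pow, Real.sq_sqrt ht.le, mul_div_assoc',
    div_le_div_iff_of_pos_right ht]
  nlinarith only [hM1]

/-- pointwise use of the rank -/
theorem rank_le (hC : IsGamma C) (hn : 0 < n) (hu : Frame C φ K₀ ε t' t u) (hf : f ∈ C.W) :
    ∀ᵐ x ∂m, C.gr f x ≤ √2 * ∑ b, |C.Γ f (u b) x|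
      + √(4 * n * ∑ a, ∑ b, |(C.Γ (u a) (u b) - (if a = b then (1 : ℝ) else 0) • 1 :
          M →ₘ[m] ℝ) x|) * √(C.Γ f f x) := by
  have hN : (0 : ℝ) < n := by exact_mod_cast hn
  filter_upwards [hu.rank f hf, C.gr_ae f, ae_all_iff.2 fun a => ae_all_iff.2 fun b =>
    sub_ae (C.Γ (u a) (u b)) ((if a = b then (1 : ℝ) else 0) • (1 : M →ₘ[m] ℝ)),
    ae_all_iff.2 fun a => ae_all_iff.2 fun b =>
    smul_ae (1 : M →ₘ[m] ℝ) (if (a : Fin n) = b then (1 : ℝ) else 0),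
    one_ae (M := M) (m := m)] with x h1 h2 h3 h4 h5
  have h6 : ∀ a b, (C.Γ (u a) (u b) - (if a = b then (1 : ℝ) else 0) • 1 : M →ₘ[m] ℝ) x
      = C.Γ (u a) (u b) x - (if a = b then (1 : ℝ) else 0) := fun a b => by
    rw [h3 a b, h4 a b, h5, mul_one]
  rw [h2]
  simp only [h6]
  set D : Fin n → Fin n → ℝ := fun a b => |C.Γ (u a) (u b) x - (if a = b then (1 : ℝ) else 0)|
    with hD
  have hD0 : ∀ a b, 0 ≤ D a b := fun a b => abs_nonneg _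
  by_cases hc : ∀ a b, D a b ≤ 1 / (4 * n)
  · have h7 := h1 hc
    have h8 : C.Γ f f x ≤ (√2 * ∑ b, |C.Γ f (u b) x|) ^ 2 := by
      refine h7.trans ?_
      rw [mul_pow, Real.sq_sqrt (by norm_num)]
      refine mul_le_mul_of_nonneg_left ?_ (by norm_num)
      have := Finset.sum_sq_le_sq_sum_of_nonneg (s := Finset.univ)
        (f := fun b => |C.Γ f (u b) x|) (fun b _ => abs_nonneg _)
      simpa [sq_abs] using this
    have h9 : √(C.Γ f f x) ≤ √2 * ∑ b, |C.Γ f (u b) x| := by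
      rw [Real.sqrt_le_left (by positivity)]; exact h8
    have h10 : 0 ≤ √(4 * n * ∑ a, ∑ b, D a b) * √(C.Γ f f x) := by positivity
    linarith
  · push Not at hc
    obtain ⟨a, b, hab⟩ := hc
    have h7 : D a b ≤ ∑ a, ∑ b, D a b :=
      (Finset.single_le_sum (f := fun b => D a b) (fun b _ => hD0 a b) (Finset.mem_univ b)).trans
        (Finset.single_le_sum (f := fun a => ∑ b, D a b)
          (fun a _ => Finset.sum_nonneg fun b _ => hD0 a b) (Finset.mem_univ a))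
    have h8 : 1 ≤ 4 * n * ∑ a, ∑ b, D a b := by
      have h9 := hab.le.trans h7
      rw [div_le_iff₀ (by positivity)] at h9
      linarith
    have h9 : 1 ≤ √(4 * n * ∑ a, ∑ b, D a b) := Real.one_le_sqrt.2 h8
    have h10 : 0 ≤ √2 * ∑ b, |C.Γ f (u b) x| := by positivity
    nlinarith [Real.sqrt_nonneg (C.Γ f f x)]

end Vale.Agent.P242.H542
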