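import Vale.Agent.P242.H542.Dl3

/-! P242, Part A, package A-DL (helper542): decay lemma (A6 of note 3517) at a fixed centre. -/

set_option linter.all false

open MeasureTheory Filter Topology Set
open scoped ENNReal NNReal

namespace Vale.Agent.P242.H542

open Vale.Agent.P233

variable {M : Type*} [MeasurableSpace M] {m : Measure M} {C : Calc m}
variable {φ : ℝ → M →ₘ[m] ℝ} {n : ℕ} {T A κ a₀ : ℝ}
variable {K₀ s t t' τ c ε Λ b : ℝ} {f g h F G : M →ₘ[m] ℝ} {u : Fin n → M →ₘ[m] ℝ}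

theorem sum_ae' {ι : Type*} (s : Finset ι) (H : ι → M →ₘ[m] ℝ) :
    ∀ᵐ x ∂m, (∑ i ∈ s, H i : M →ₘ[m] ℝ) x = ∑ i ∈ s, H i x := by
  classical
  induction s using Finset.induction_on with
  | empty =>
    simp only [Finset.sum_empty]
    exact zero_ae
  | insert i s hi ih =>
    rw [Finset.sum_insert hi]
    filter_upwards [add_ae (H i) (∑ j ∈ s, H j), ih] with x h1 h2
    rw [h1, h2, Finset.sum_insert hi]

theorem I_wsum {ι : Type*} (s : Finset ι) {ψ : M →ₘ[m] ℝ} {H : ι → M →ₘ[m] ℝ}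
    (hH : ∀ i, MemLp (ψ * H i : M →ₘ[m] ℝ) 1 m) :
    MemLp (ψ * ∑ i ∈ s, H i : M →ₘ[m] ℝ) 1 m ∧
      I (ψ * ∑ i ∈ s, H i) = ∑ i ∈ s, I (ψ * H i) := by
  classical
  induction s using Finset.induction_on with
  | empty =>
    simp only [Finset.sum_empty, mul_zero]
    exact ⟨mem_zero, I_zero⟩
  | insert i s hi ih =>
    rw [Finset.sum_insert hi, Finset.sum_insert hi, mul_add]
    exact ⟨mem_add (hH i) ih.1, by rw [I_add (hH i) ih.1, ih.2]⟩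

/-- energy of a linear combination -/
theorem comb_le (hC : IsGamma C) (hs : 0 < s) (hts : t' ≤ s) (hst : s ≤ t)
    (hφ : Cen C φ) (hu : Frame C φ K₀ ε t' t u) (v : Fin n → ℝ) :
    I (φ s * C.Γ (∑ a, v a • u a) (∑ a, v a • u a)) ≤ 2 * (∑ a, |v a|) ^ 2 := by
  have hD := hC.toIsDir
  have huW : ∀ a, u a ∈ C.W := fun a => (hC.test_A (hu.test a).1).1
  have hw : ∑ a, v a • u a ∈ C.W := (Γ_sum_left hD Finset.univ v huW hC.zero_mem).1
  set w := ∑ a, v a • u a with hwd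
  have e : C.Γ w w = ∑ a, v a • C.Γ (u a) w := (Γ_sum_left hD Finset.univ v huW hw).2
  have h1 := (wI_sum Finset.univ (hφ.nonneg s hs) v
    (fun a => hφ.mem_mul hs (hD.Γ_mem1 (huW a) hw))).2
  rw [← e, abs_of_nonneg (hC.nonneg w hw)] at h1
  set X := I (φ s * C.Γ w w) with hX
  have hX0 : 0 ≤ X := hφ.av_nonneg hs (hC.nonneg w hw)
  have h2 : ∀ a, |v a| * I (φ s * |C.Γ (u a) w|) ≤ |v a| * (√2 * √X) := fun a =>
    mul_le_mul_of_nonneg_left ((hφ.av_Γ_abs hD hs (huW a) hw).trans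
      (mul_le_mul_of_nonneg_right (Real.sqrt_le_sqrt (hu.le2 a s hts hst)) (Real.sqrt_nonneg _)))
      (abs_nonneg _)
  have h3 := h1.trans (Finset.sum_le_sum fun a _ => h2 a)
  rw [← Finset.sum_mul] at h3
  set S := ∑ a, |v a| with hS
  have hS0 : 0 ≤ S := Finset.sum_nonneg fun a _ => abs_nonneg _
  have h4 : √X ≤ S * √2 := by
    by_contra hc
    push Not at hc
    have h5 : 0 ≤ S * √2 := by positivity
    have h6 : S * √2 * √X < √X * √X := mul_lt_mul_of_pos_right hc (lt_of_le_of_lt h5 hc)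
    rw [Real.mul_self_sqrt hX0] at h6
    linarith only [h3, h6]
  have h5 : √X ^ 2 ≤ (S * √2) ^ 2 := by gcongr
  rw [Real.sq_sqrt hX0, mul_pow, Real.sq_sqrt (by norm_num)] at h5
  linarith only [h5]

/-- the arithmetic of the decay lemma -/
theorem dl_real {N M0 r E0 G0 X : ℝ} (hN : 1 ≤ N) (hA : 1 ≤ A) (hM1 : 1 ≤ M0) (ht : 0 < t)
    (hΛ1 : 1 ≤ Λ) (hr0 : 0 ≤ r) (hb0 : 0 ≤ b) (hε0 : 0 ≤ ε) (hε : ε ≤ 1)
    (hE : E0 = 2 * A * M0 * (√t / Λ) / t * r + 8 * A * M0 * Λ ^ 2 / √t * (√ε * r + b))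
    (hG : G0 ≤ √2 * (N * (E0 + N * (2 * M0 / √t * r) * ε))
      + √(4 * N * (N * (N * ε))) * (5 * N * M0 / √t * r))
    (hX : X ≤ b + A * (√t / Λ) * G0) :
    X ≤ 1 / Λ * ((4 * N * A ^ 2 * M0 / Λ + 30 * N ^ 3 * A ^ 2 * M0 * Λ ^ 2 * √ε) * r
      + 30 * N ^ 3 * A ^ 2 * M0 * Λ ^ 2 * b) := by
  have st := Real.sqrt_pos.2 ht
  have h22 : √2 ≤ 3 / 2 := by
    rw [Real.sqrt_le_left (by norm_num)]; norm_num
  have hεε : ε ≤ √ε := by
    refine Real.le_sqrt_of_sq_le ?_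
    nlinarith only [hε0, hε]
  have se0 := Real.sqrt_nonneg ε
  have hΛ0 : 0 < Λ := by linarith only [hΛ1]
  have s1 : √(4 * N * (N * (N * ε))) ≤ 2 * N ^ 2 * √ε := by
    rw [Real.sqrt_le_left (by positivity), mul_pow, Real.sq_sqrt hε0]
    have e : 4 * N * (N * (N * ε)) = 4 * N ^ 3 * ε := by ring
    have e2 : (2 * N ^ 2) ^ 2 * ε = 4 * N ^ 3 * ε * N := by ring
    rw [e, e2]
    exact le_mul_of_one_le_right (by positivity) hN
  have hE0 : 0 ≤ E0 := by rw [hE]; positivity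
  have g1 : √2 * (N * (E0 + N * (2 * M0 / √t * r) * ε))
      ≤ 3 / 2 * N * E0 + 3 * N ^ 2 * M0 * √ε / √t * r := by
    calc √2 * (N * (E0 + N * (2 * M0 / √t * r) * ε))
        ≤ 3 / 2 * (N * (E0 + N * (2 * M0 / √t * r) * √ε)) := by gcongr
      _ = _ := by ring
  have g2 : √(4 * N * (N * (N * ε))) * (5 * N * M0 / √t * r)
      ≤ 10 * N ^ 3 * M0 * √ε / √t * r := by
    calc √(4 * N * (N * (N * ε))) * (5 * N * M0 / √t * r)
        ≤ 2 * N ^ 2 * √ε * (5 * N * M0 / √t * r) := by gcongr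
      _ = _ := by ring
  have g3 : 3 * N ^ 2 * M0 * √ε / √t * r ≤ 3 * N ^ 3 * M0 * √ε / √t * r := by
    have : N ^ 2 ≤ N ^ 3 := pow_le_pow_right₀ hN (by norm_num)
    gcongr
  have g4 : G0 ≤ 3 / 2 * N * E0 + 13 * N ^ 3 * M0 * √ε / √t * r := by
    have e : 13 * N ^ 3 * M0 * √ε / √t * r = 3 * N ^ 3 * M0 * √ε / √t * r
      + 10 * N ^ 3 * M0 * √ε / √t * r := by ring
    rw [e]
    linarith only [hG, g1, g2, g3]
  have g5 : X ≤ b + A * (√t / Λ) * (3 / 2 * N * E0 + 13 * N ^ 3 * M0 * √ε / √t * r) :=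
    hX.trans (by gcongr)
  have e5 : b + A * (√t / Λ) * (3 / 2 * N * E0 + 13 * N ^ 3 * M0 * √ε / √t * r)
      = 1 / Λ * (3 * N * A ^ 2 * M0 / Λ * r + (12 * N * A ^ 2 * M0 * Λ ^ 2 * (√ε * r)
        + 13 * N ^ 3 * A * M0 * (√ε * r)) + (Λ + 12 * N * A ^ 2 * M0 * Λ ^ 2) * b) := by
    rw [hE]
    have hst : √t * √t = t := Real.mul_self_sqrt ht.le
    have e6 : 2 * A * M0 * (√t / Λ) / t * r = 2 * A * M0 / Λ / √t * r := by
      have h7 : √t / t = 1 / √t := Real.sqrt_div_self'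
      calc 2 * A * M0 * (√t / Λ) / t * r = 2 * A * M0 / Λ * (√t / t) * r := by ring
        _ = _ := by rw [h7]; ring
    rw [e6]
    field_simp
    ring
  rw [e5] at g5
  refine g5.trans ?_
  have hq := mul_nonneg se0 hr0
  have hN3 : N ≤ N ^ 3 := le_self_pow₀ hN (by norm_num)
  have hA2 : A ≤ A ^ 2 := le_self_pow₀ hA (by norm_num)
  have hΛ2 : 1 ≤ Λ ^ 2 := one_le_pow₀ hΛ1
  have hΛ3 : Λ ≤ Λ ^ 2 := le_self_pow₀ hΛ1 (by norm_num)
  have hN31 : 1 ≤ N ^ 3 := one_le_pow₀ hN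
  have hA21 : 1 ≤ A ^ 2 := one_le_pow₀ hA
  have t1 : 3 * N * A ^ 2 * M0 / Λ * r ≤ 4 * N * A ^ 2 * M0 / Λ * r := by
    gcongr; norm_num
  have t2 : 12 * N * A ^ 2 * M0 * Λ ^ 2 * (√ε * r)
      ≤ 12 * N ^ 3 * A ^ 2 * M0 * Λ ^ 2 * (√ε * r) := by gcongr
  have t3 : 13 * N ^ 3 * A * M0 * (√ε * r) ≤ 18 * N ^ 3 * A ^ 2 * M0 * Λ ^ 2 * (√ε * r) := by
    calc 13 * N ^ 3 * A * M0 * (√ε * r) ≤ 18 * N ^ 3 * A ^ 2 * M0 * (√ε * r) := by
          gcongr; norm_num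
      _ = 18 * N ^ 3 * A ^ 2 * M0 * 1 * (√ε * r) := by ring
      _ ≤ _ := by gcongr
  have t4 : Λ ≤ 18 * N ^ 3 * A ^ 2 * M0 * Λ ^ 2 := by
    calc Λ ≤ Λ ^ 2 := hΛ3
      _ = 1 * 1 * 1 * 1 * Λ ^ 2 := by ring
      _ ≤ 18 * N ^ 3 * A ^ 2 * M0 * Λ ^ 2 := by gcongr; norm_num
  have t5 : 12 * N * A ^ 2 * M0 * Λ ^ 2 ≤ 12 * N ^ 3 * A ^ 2 * M0 * Λ ^ 2 := by gcongr
  have t6 : (Λ + 12 * N * A ^ 2 * M0 * Λ ^ 2) * b ≤ 30 * N ^ 3 * A ^ 2 * M0 * Λ ^ 2 * b := by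
    refine mul_le_mul_of_nonneg_right ?_ hb0
    linarith only [t4, t5]
  gcongr 1 / Λ * ?_
  linarith only [t1, t2, t3, t6]

/-- **Decay lemma** (A6 of note 3517) at a fixed centre. -/
theorem dl (hC : IsGamma C) [SigmaFinite m] (hn : 0 < n) (hBE : C.BE (-K₀) n) (hK : 0 ≤ K₀)
    (hφ : Ctr C φ n T A κ a₀) (ht : 0 < t) (hT : t ≤ T) (hΛ : 1 ≤ a₀ * Λ)
    (ht' : t' = t / Λ ^ 2) (hε0 : 0 ≤ ε) (hε : ε ≤ 1) (hKt : K₀ * t ≤ ε)
    (hu : Frame C φ K₀ ε t' t u) (hg : MemLp g 2 m) (hg' : MemLp g ∞ m) (c : ℝ)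
    (hb : ∀ τ, 0 < τ → τ < a₀ * t → I (φ t * |C.lap (C.P τ g)|) ≤ b / t)
    (hb' : ∀ τ, 0 < τ → τ < a₀ * t → I (φ t' * |C.lap (C.P τ g)|) ≤ b / t) :
    (∀ a, |vco C φ a₀ t t' u g a| ≤ 2 * MM A a₀ n / √t * I (φ t * |g - c • 1|)) ∧
    I (φ t' * |g - (I (φ t' * (C.P (a₀ * t) g - ∑ a, vco C φ a₀ t t' u g a • u a)) • 1
        + ∑ a, vco C φ a₀ t t' u g a • u a)|)
      ≤ 1 / Λ * ((4 * n * A ^ 2 * MM A a₀ n / Λ + 30 * n ^ 3 * A ^ 2 * MM A a₀ n * Λ ^ 2 * √ε)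
          * I (φ t * |g - c • 1|) + 30 * n ^ 3 * A ^ 2 * MM A a₀ n * Λ ^ 2 * b) := by
  have hD := hC.toIsDir
  have ha := hφ.ha
  have ha2 := hφ.a_le
  have hA := hφ.hA
  have hN : (0 : ℝ) < n := by exact_mod_cast hn
  have hN1 : (1 : ℝ) ≤ n := by exact_mod_cast hn
  have hB := hC.bei hN hBE
  have hat := mul_pos ha ht
  have hat' : a₀ * t ≤ t := by nlinarith only [ha2, ht]
  have hΛ0 : 0 < Λ := by
    by_contra h
    push Not at h
    nlinarith only [h, hΛ, ha]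
  have hΛ1 : 1 ≤ Λ := by nlinarith only [hΛ0, hΛ, ha2]
  have ht'0 : 0 < t' := by rw [ht']; positivity
  have htΛ : t ≤ Λ ^ 2 * t' := by rw [ht']; exact le_of_eq (by field_simp)
  have ht'a : t' ≤ a₀ ^ 2 * t := by
    rw [ht', div_le_iff₀ (by positivity)]
    have h1 : 1 ≤ (a₀ * Λ) ^ 2 := one_le_pow₀ hΛ
    have e : a₀ ^ 2 * t * Λ ^ 2 = (a₀ * Λ) ^ 2 * t := by ring
    rw [e]
    exact le_mul_of_one_le_left ht.le h1
  have ht'1 : t' ≤ a₀ * t := by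
    refine ht'a.trans ?_
    have : a₀ ^ 2 ≤ a₀ := by nlinarith only [ha, ha2]
    gcongr
  have ht't : t' ≤ t := ht'1.trans hat'
  have hst' : √t' = √t / Λ := by
    rw [ht', Real.sqrt_div' _ (by positivity), Real.sqrt_sq hΛ0.le]
  have hM1 : 1 ≤ MM A a₀ n := MM_ge hA ha ha2
  have hr0 : 0 ≤ I (φ t * |g - c • 1|) := hφ.av_nonneg ht (abs_nonneg _)
  have hbh := hb (a₀ * t / 2) (by linarith only [hat]) (by linarith only [hat])
  have hb0' : 0 ≤ I (φ t * |C.lap (C.P (a₀ * t / 2) g)|) := hφ.av_nonneg ht (abs_nonneg _)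
  have hb0 : 0 ≤ b := by
    have h := mul_nonneg (hb0'.trans hbh) ht.le
    rwa [div_mul_cancel₀ _ ht.ne'] at h
  have hg1 := H715.P_testI_pos hC hN hBE hat hg hg'
  have hv := fun a => vco_abs hC hn hBE ht hT ht'0 ht'a hφ hu hg hg' c a
  have hosc := fun a => osc hC hn hBE hK ht hT hΛ1 ht'0 htΛ ht'a hε0 hε hKt hφ hu hg hg' c hbh a
  refine ⟨hv, ?_⟩
  set v := vco C φ a₀ t t' u g with hvd
  set M0 := MM A a₀ n with hM0
  set r := I (φ t * |g - c • 1|) with hr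
  set g1 := C.P (a₀ * t) g with hg1d
  have huI : ∀ a, u a ∈ C.TestI := hu.test
  have huW : ∀ a, u a ∈ C.W := fun a => (hC.test_A (hu.test a).1).1
  have hwI : ∑ a, v a • u a ∈ C.TestI := hC.tI_sum _ fun a _ => hC.tI_smul _ (huI a)
  set w := ∑ a, v a • u a with hwd
  have hwW : w ∈ C.W := (hC.test_A hwI.1).1
  have hgW : g1 ∈ C.W := (hC.test_A hg1.1).1
  have hfI := hC.tI_sub hg1 hwI
  have hfW : g1 - w ∈ C.W := (hC.test_A hfI.1).1
  set f2 := g1 - w with hf2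
  set c₁ := I (φ t' * f2) with hc1
  have hφ2 := hφ.mem2 t' ht'0
  have hψ0 := hφ.nonneg t' ht'0
  -- the source
  have k1 : I (φ t' * |g1 - g|) ≤ b := by
    have h1 := hD.P_mean_abs hat hg hψ0 hφ2 hb'
    refine h1.trans ?_
    have e : a₀ * t * (b / t) = a₀ * b := by field_simp
    rw [e]
    exact mul_le_of_le_one_left hb0 (by linarith only [ha2])
  -- Poincare
  have k2 := hφ.k7 t' ht'0 (ht't.trans hT) f2 hfI
  rw [← hc1] at k2
  -- the decomposition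
  have m1 : MemLp (φ t' * (g - g1) : M →ₘ[m] ℝ) 1 m :=
    mem_mul_22 hφ2 (mem_sub hg (hD.P_mem2 _ hg))
  have m2 : MemLp (φ t' * (f2 - c₁ • 1) : M →ₘ[m] ℝ) 1 m := by
    rw [mul_sub, mul_smul_comm, mul_one]
    exact mem_sub (mem_mul_22 hφ2 (hC.memLp _ hfW)) (mem_smul _ (hφ.mem1 t' ht'0))
  have k3 := (wI_add hψ0 m1 m2).2
  have e3 : g - g1 + (f2 - c₁ • 1) = g - (c₁ • 1 + w) := by rw [hf2]; abel
  rw [e3, abs_sub_comm g g1] at k3
  -- each gradient component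
  have hD1 : ∀ a b', MemLp (φ t' * (C.Γ (u a) (u b') - (if a = b' then (1 : ℝ) else 0) • 1) :
      M →ₘ[m] ℝ) 1 m := fun a b' => by
    rw [mul_sub, mul_smul_comm, mul_one]
    exact mem_sub (hφ.mem_mul ht'0 (hD.Γ_mem1 (huW a) (huW b'))) (mem_smul _ (hφ.mem1 t' ht'0))
  have hS : ∑ a, |v a| ≤ n * (2 * M0 / √t * r) := by
    calc ∑ a, |v a| ≤ ∑ a : Fin n, (2 * M0 / √t * r) := Finset.sum_le_sum fun a _ => hv a
      _ = _ := by rw [Finset.sum_const, Finset.card_univ, Fintype.card_fin, nsmul_eq_mul]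
  have k4 : ∀ b', I (φ t' * |C.Γ f2 (u b')|)
      ≤ (2 * A * M0 * √t' / t * r + 8 * A * M0 * Λ ^ 2 / √t * (√ε * r + b))
        + n * (2 * M0 / √t * r) * ε := by
    intro b'
    have e4 : C.Γ f2 (u b') = (C.Γ g1 (u b') - v b' • 1)
        + ∑ a, (-v a) • (C.Γ (u a) (u b') - (if a = b' then (1 : ℝ) else 0) • 1) := by
      have h1 : C.Γ w (u b') = ∑ a, v a • C.Γ (u a) (u b') :=
        (Γ_sum_left hD Finset.univ v huW (huW b')).2
      have h2 : ∑ a, (-v a) • (C.Γ (u a) (u b') - (if a = b' then (1 : ℝ) else 0) • (1 : M →ₘ[m] ℝ))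
          = v b' • 1 - ∑ a, v a • C.Γ (u a) (u b') := by
        have h3 : ∀ a, (-v a) • (C.Γ (u a) (u b')
            - (if a = b' then (1 : ℝ) else 0) • (1 : M →ₘ[m] ℝ))
            = (if a = b' then v a else 0) • (1 : M →ₘ[m] ℝ) - v a • C.Γ (u a) (u b') := by
          intro a
          split_ifs with h
          · module
          · module
        simp only [h3]
        rw [Finset.sum_sub_distrib, ← Finset.sum_smul, Finset.sum_ite_eq' Finset.univ b',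
          if_pos (Finset.mem_univ b')]
      rw [hD.Γ_sub_left hgW hwW (huW b'), h1, h2]
      abel
    have ma : MemLp (φ t' * (C.Γ g1 (u b') - v b' • 1) : M →ₘ[m] ℝ) 1 m := by
      rw [mul_sub, mul_smul_comm, mul_one]
      exact mem_sub (hφ.mem_mul ht'0 (hD.Γ_mem1 hgW (huW b'))) (mem_smul _ (hφ.mem1 t' ht'0))
    have hs := wI_sum Finset.univ hψ0 (fun a => -v a) (fun a => hD1 a b')
    have h5 := (wI_add hψ0 ma hs.1).2
    rw [← e4] at h5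
    have h6 : ∑ a, |-v a| * I (φ t' * |C.Γ (u a) (u b') - (if a = b' then (1 : ℝ) else 0) • 1|)
        ≤ n * (2 * M0 / √t * r) * ε := by
      calc ∑ a, |-v a| * I (φ t' * |C.Γ (u a) (u b') - (if a = b' then (1 : ℝ) else 0) • 1|)
          ≤ ∑ a, |v a| * ε := Finset.sum_le_sum fun a _ => by
            rw [abs_neg]
            exact mul_le_mul_of_nonneg_left (hu.ort a b') (abs_nonneg _)
        _ = (∑ a, |v a|) * ε := by rw [Finset.sum_mul]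
        _ ≤ _ := mul_le_mul_of_nonneg_right hS hε0
    linarith only [h5, h6, hs.2, hosc b']
  -- the rank inequality, integrated
  set D : Fin n → Fin n → (M →ₘ[m] ℝ) := fun a b' =>
    |C.Γ (u a) (u b') - (if a = b' then (1 : ℝ) else 0) • 1| with hDd
  have hDm : ∀ a b', MemLp (φ t' * D a b' : M →ₘ[m] ℝ) 1 m := fun a b' => by
    have := mem_abs (hD1 a b')
    rwa [abs_mul_cls, abs_of_nonneg hψ0] at this
  have hEa := fun a => I_wsum (ψ := φ t') Finset.univ (fun b' => hDm a b')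
  have hEE := I_wsum (ψ := φ t') Finset.univ (fun a => (hEa a).1)
  set E := ∑ a, ∑ b', D a b' with hEd
  have hE0 : 0 ≤ E := Finset.sum_nonneg fun a _ => Finset.sum_nonneg fun b' _ => abs_nonneg _
  have hEI : I (φ t' * E) ≤ n * (n * ε) := by
    rw [hEE.2]
    calc ∑ a, I (φ t' * ∑ b', D a b') = ∑ a, ∑ b', I (φ t' * D a b') :=
          Finset.sum_congr rfl fun a _ => (hEa a).2
      _ ≤ ∑ a : Fin n, ∑ b' : Fin n, ε :=
          Finset.sum_le_sum fun a _ => Finset.sum_le_sum fun b' _ => hu.ort a b'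
      _ = n * (n * ε) := by simp [Finset.sum_const, nsmul_eq_mul]
  have hGm := fun b' => mem_abs (hφ.mem_mul ht'0 (hD.Γ_mem1 hfW (huW b')))
  have hGm' : ∀ b', MemLp (φ t' * |C.Γ f2 (u b')| : M →ₘ[m] ℝ) 1 m := fun b' => by
    have := hGm b'
    rwa [abs_mul_cls, abs_of_nonneg hψ0] at this
  have hGG := I_wsum (ψ := φ t') Finset.univ hGm'
  have hff := hC.nonneg f2 hfW
  have h4E : (0 : M →ₘ[m] ℝ) ≤ (4 * (n : ℝ)) • E := smul_nonneg' (by positivity) hE0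
  have h4Em : MemLp (φ t' * ((4 * (n : ℝ)) • E) : M →ₘ[m] ℝ) 1 m := by
    rw [mul_smul_comm]; exact mem_smul _ hEE.1
  have hZ := I_gm_w (c := rtc ((4 * (n : ℝ)) • E) * rtc (C.Γ f2 f2)) hψ0 h4Em
    (hφ.mem_mul ht'0 (hC.mem1 f2 hfW)) h4E hff (by
      filter_upwards [mul_ae (rtc ((4 * (n : ℝ)) • E)) (rtc (C.Γ f2 f2)),
        rtc_ae ((4 * (n : ℝ)) • E), rtc_ae (C.Γ f2 f2)] with x h1 h2 h3
      rw [h1, h2, h3, abs_of_nonneg (by positivity)])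
  have hcls : C.gr f2 ≤ √2 • (∑ b', |C.Γ f2 (u b')|)
      + rtc ((4 * (n : ℝ)) • E) * rtc (C.Γ f2 f2) := by
    rw [le_iff_ae]
    filter_upwards [rank_le hC hn hu hfW, mul_ae (rtc ((4 * (n : ℝ)) • E)) (rtc (C.Γ f2 f2)),
        rtc_ae ((4 * (n : ℝ)) • E), rtc_ae (C.Γ f2 f2), smul_ae E (4 * (n : ℝ)),
        sum_ae' Finset.univ (fun a => ∑ b', D a b'), ae_all_iff.2 fun a => sum_ae' Finset.univ (D a),
        ae_all_iff.2 fun a => ae_all_iff.2 fun b' => abs_ae' (C.Γ (u a) (u b')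
          - (if a = b' then (1 : ℝ) else 0) • (1 : M →ₘ[m] ℝ)),
        add_ae (√2 • (∑ b', |C.Γ f2 (u b')|)) (rtc ((4 * (n : ℝ)) • E) * rtc (C.Γ f2 f2)),
        smul_ae (∑ b', |C.Γ f2 (u b')|) (√2), sum_ae' Finset.univ (fun b' => |C.Γ f2 (u b')|),
        ae_all_iff.2 fun b' => abs_ae' (C.Γ f2 (u b'))]
      with x x1 x2 x3 x4 x5 x6 x7 x8 x9 x10 x11 x12
    rw [x9, x2, x3, x4, x5, x10, x11]
    have y1 : ∑ b', |C.Γ f2 (u b')| x = ∑ b', |C.Γ f2 (u b') x| :=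
      Finset.sum_congr rfl fun b' _ => x12 b'
    have y2 : E x = ∑ a, ∑ b', |(C.Γ (u a) (u b')
        - (if a = b' then (1 : ℝ) else 0) • 1 : M →ₘ[m] ℝ) x| := by
      rw [hEd, x6]
      refine Finset.sum_congr rfl fun a _ => ?_
      rw [x7 a]
      exact Finset.sum_congr rfl fun b' _ => x8 a b'
    rw [y1, y2]
    exact x1
  have hgrm : MemLp (φ t' * C.gr f2 : M →ₘ[m] ℝ) 1 m :=
    mem_mul_22 hφ2 (memLp_two_of_sq (by rw [gr_eq, rtc_sq hff]; exact hC.mem1 f2 hfW))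
  have k5 : I (φ t' * C.gr f2) ≤ √2 * ∑ b', I (φ t' * |C.Γ f2 (u b')|)
      + √(4 * n * (n * (n * ε))) * √(I (φ t' * C.Γ f2 f2)) := by
    have hsm : MemLp (φ t' * (√2 • (∑ b', |C.Γ f2 (u b')|)) : M →ₘ[m] ℝ) 1 m := by
      rw [mul_smul_comm]; exact mem_smul _ hGG.1
    have h1 := I_mono hgrm (by rw [mul_add]; exact mem_add hsm hZ.1)
      (mul_le_mul_of_nonneg_left hcls hψ0)
    rw [mul_add, I_add hsm hZ.1, mul_smul_comm, I_smul, hGG.2] at h1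
    have h2 := hZ.2
    rw [abs_of_nonneg (mul_nonneg (rtc_nonneg _) (rtc_nonneg _)), mul_smul_comm, I_smul] at h2
    have h3 : √(4 * n * I (φ t' * E)) ≤ √(4 * n * (n * (n * ε))) :=
      Real.sqrt_le_sqrt (by gcongr)
    have h4 := mul_le_mul_of_nonneg_right h3 (Real.sqrt_nonneg (I (φ t' * C.Γ f2 f2)))
    linarith only [h1, h2, h4]
  -- the energy of `f2`
  have k6 : √(I (φ t' * C.Γ f2 f2)) ≤ 5 * n * M0 / √t * r := by
    have h1 := Γ_sub_le hD hgW hwW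
    have ma := hφ.mem_mul ht'0 (hC.mem1 g1 hgW)
    have mb := hφ.mem_mul ht'0 (hC.mem1 w hwW)
    have h2 := I_mono (hφ.mem_mul ht'0 (hC.mem1 f2 hfW)) (by
      rw [mul_add, mul_smul_comm, mul_smul_comm]
      exact mem_add (mem_smul 2 ma) (mem_smul 2 mb)) (mul_le_mul_of_nonneg_left h1 hψ0)
    rw [mul_add, mul_smul_comm, mul_smul_comm, I_add (mem_smul 2 ma) (mem_smul 2 mb), I_smul,
      I_smul] at h2
    have h3 := X_le ht'0 ht ht'1 hT hφ hg hg' c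
    have h4 := comb_le hC ht'0 le_rfl ht't hφ.toCen hu v
    rw [← hg1d, ← hM0, ← hr] at h3
    rw [← hwd] at h4
    have h5 : (∑ a, |v a|) ^ 2 ≤ (n * (2 * M0 / √t * r)) ^ 2 := by
      have : 0 ≤ ∑ a, |v a| := Finset.sum_nonneg fun a _ => abs_nonneg _
      gcongr
    have st := Real.sqrt_pos.2 ht
    have stt : √t ^ 2 = t := Real.sq_sqrt ht.le
    rw [Real.sqrt_le_left (by positivity)]
    have e1 : (n * (2 * M0 / √t * r)) ^ 2 = 4 * (n ^ 2 * M0 ^ 2 * r ^ 2 / t) := by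
      have h8 : (n * (2 * M0 / √t * r)) ^ 2 = 4 * (n ^ 2 * M0 ^ 2 * r ^ 2 / √t ^ 2) := by ring
      rw [h8, stt]
    have e2 : (5 * n * M0 / √t * r) ^ 2 = 25 * (n ^ 2 * M0 ^ 2 * r ^ 2 / t) := by
      have h8 : (5 * n * M0 / √t * r) ^ 2 = 25 * (n ^ 2 * M0 ^ 2 * r ^ 2 / √t ^ 2) := by ring
      rw [h8, stt]
    have e3 : M0 / t * r ^ 2 ≤ n ^ 2 * M0 ^ 2 * r ^ 2 / t := by
      have h6 : M0 ≤ n ^ 2 * M0 ^ 2 := by
        calc M0 = 1 * M0 := by ring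
          _ ≤ n ^ 2 * M0 ^ 2 := by
            have h7 : (1 : ℝ) ≤ n ^ 2 := one_le_pow₀ hN1
            have h8 : M0 ≤ M0 ^ 2 := le_self_pow₀ hM1 (by norm_num)
            gcongr
      calc M0 / t * r ^ 2 = M0 * (r ^ 2 / t) := by ring
        _ ≤ n ^ 2 * M0 ^ 2 * (r ^ 2 / t) := by gcongr
        _ = _ := by ring
    have e4 : 0 ≤ n ^ 2 * M0 ^ 2 * r ^ 2 / t := by positivity
    rw [e1] at h5
    rw [e2]
    linarith only [h2, h3, h4, h5, e3, e4]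
  -- conclusion
  have k7 : ∑ b', I (φ t' * |C.Γ f2 (u b')|)
      ≤ n * ((2 * A * M0 * √t' / t * r + 8 * A * M0 * Λ ^ 2 / √t * (√ε * r + b))
        + n * (2 * M0 / √t * r) * ε) := by
    calc ∑ b', I (φ t' * |C.Γ f2 (u b')|)
        ≤ ∑ b' : Fin n, ((2 * A * M0 * √t' / t * r + 8 * A * M0 * Λ ^ 2 / √t * (√ε * r + b))
        + n * (2 * M0 / √t * r) * ε) := Finset.sum_le_sum fun b' _ => k4 b'
      _ = _ := by rw [Finset.sum_const, Finset.card_univ, Fintype.card_fin, nsmul_eq_mul]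
  rw [hst'] at k7 k2
  have k8 : I (φ t' * C.gr f2) ≤ √2 * (n * ((2 * A * M0 * (√t / Λ) / t * r
      + 8 * A * M0 * Λ ^ 2 / √t * (√ε * r + b)) + n * (2 * M0 / √t * r) * ε))
      + √(4 * n * (n * (n * ε))) * (5 * n * M0 / √t * r) := by
    refine k5.trans (add_le_add ?_ ?_)
    · exact mul_le_mul_of_nonneg_left k7 (Real.sqrt_nonneg _)
    · exact mul_le_mul_of_nonneg_left k6 (Real.sqrt_nonneg _)
  exact dl_real hN1 hA hM1 ht hΛ1 hr0 hb0 hε0 hε rfl k8 (by linarith only [k1, k2, k3])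

end Vale.Agent.P242.H542
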