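import Vale.Agent.P242.H542.CtrK
import Vale.Agent.P242.H542.Dl4
import Vale.Agent.P242.H597.EnvB
import Vale.Agent.P242.H358.Near
import Vale.Agent.P242.H200.Rank2

/-! P242, Part A, A-DL (helper542): the decay lemma in the vocabulary of `Voc.lean`.

`ctr_env` : the kernel facts `Ctr` at every centre of a bounded region, from `Env`.
`frame_at`: the frame `uc u (c a)`, `c` orthonormal for `G_{t'}(x)`, satisfies `Frame` on `[t',t]`.
`dlx_at`  : the decay lemma at one centre and one pair of times `t' = t/Λ²`, `t`.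
`blk_DLX` : `H358.Blk_PreX → Blk_DLX`.
-/

set_option linter.all false

open MeasureTheory Filter Topology Set Metric
open scoped ENNReal NNReal InnerProductSpace

universe u

namespace Vale.Agent.P242.H542

open Vale.Agent.P233 Vale.Agent.P242.H71 Vale.Agent.P242.H520 Vale.Agent.P242.H990
  Vale.Agent.P242.H155

variable {M : Type u} [MetricSpace M] [CompleteSpace M] [SecondCountableTopology M]
  [MeasurableSpace M] [BorelSpace M] {m : Measure M} {n : ℕ} {K : ℝ} {o : M} {A : ℝ}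
  {p : ℝ → M → M → ℝ}

theorem env_npos (h : Env m n K o A p) : 0 < n := by
  have := h.hyp.two_le
  omega

theorem env_be_abs (h : Env m n K o A p) : (sob m).BE (-|K|) n :=
  (H751.env_gamma h).be_mono (by exact_mod_cast env_npos h) (neg_abs_le K) (H751.env_be h)

/-- **`Ctr` at every centre of a bounded region** -/
theorem ctr_env (h : Env m n K o A p) (R₀ : ℝ) :
    ∃ A' κ a₀ : ℝ, ∀ x, dist x o ≤ R₀ → Ctr (sob m) (fun s => ph m p s x) n (1 / 2) A' κ a₀ := by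
  haveI := H597.env_sf h
  haveI := h.hyp.full
  exact ctr_of (H751.env_gamma h) h.ker h.kb (H597.env_fin h) (env_npos h) (H751.env_be h) R₀

variable {R Q η ρ ε ε' e Λ t : ℝ} {u : Fin n → M →ₘ[m] ℝ} {uu : M → E n} {x : M}

/-- `G_s(c,c) ≤ 2 G_{t'}(c,c)` from the average bound -/
theorem G_le_two (h : Env m n K o A p) (hu : Cfg m n K o p R Q η ρ u uu) {s t' : ℝ}
    (ht' : 0 < t') (hst : t' ≤ s) (hs : 0 < s) (c : E n)
    (hav : ∀ c c' : E n,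
      PP m p s x |(sob m).Γ (uc u c) (uc u c') - Gm m p u t' x c c' • (1 : M →ₘ[m] ℝ)| ≤
        e * (√(Gm m p u t' x c c) * √(Gm m p u t' x c' c')))
    (he : e ≤ 1) : Gm m p u s x c c ≤ 2 * Gm m p u t' x c c := by
  have hC := H751.env_gamma h
  have h3 := hav c c
  have hG0 := H597.Gm_nonneg h hu x c ht'
  rw [Real.mul_self_sqrt hG0] at h3
  set a := Gm m p u t' x c c with ha
  have hG1 : MemLp (ph m p s x * (sob m).Γ (uc u c) (uc u c) : M →ₘ[m] ℝ) 1 m :=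
    H751.PP_int_top h.ker hs x (H751.Γ_top hC hu _ _)
  have hone : MemLp (ph m p s x * (a • (1 : M →ₘ[m] ℝ)) : M →ₘ[m] ℝ) 1 m :=
    H751.PP_int_top h.ker hs x (mem_smul _ mem_top_one)
  have hD1 : MemLp (ph m p s x * ((sob m).Γ (uc u c) (uc u c)
      - a • (1 : M →ₘ[m] ℝ)) : M →ₘ[m] ℝ) 1 m := by
    rw [mul_sub]; exact mem_sub hG1 hone
  have h4 : |PP m p s x ((sob m).Γ (uc u c) (uc u c) - a • (1 : M →ₘ[m] ℝ))| ≤
      PP m p s x |(sob m).Γ (uc u c) (uc u c) - a • (1 : M →ₘ[m] ℝ)| := by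
    unfold PP
    refine (I_abs hD1).trans ?_
    rw [abs_mul_cls, abs_of_nonneg (ph_nonneg h.ker hs x)]
  have h5 : PP m p s x ((sob m).Γ (uc u c) (uc u c) - a • (1 : M →ₘ[m] ℝ))
      = Gm m p u s x c c - a := by
    unfold Gm PP
    rw [mul_sub, I_sub hG1 hone, mul_smul_comm, mul_one, I_smul, I_ph h.ker hs x, mul_one]
  rw [h5] at h4
  have h6 := (abs_le.1 (h4.trans h3)).2
  nlinarith

/-- the frame of `G_{t'}(x)` -/
theorem frame_at (h : Env m n K o A p) (hu : Cfg m n K o p R Q η ρ u uu) (hQ : 1 ≤ Q)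
    (hx : x ∈ ball o (R * ρ)) (ht : 0 < t) (htρ : t ≤ ρ ^ 2) (hΛ : 1 ≤ Λ) (hη : 0 ≤ η)
    (hT : TTx m K p Q ε' ρ u x (t / Λ ^ 2))
    (hpd : ∀ c : E n, 1 / 2 * (t / Λ ^ 2 / ρ ^ 2) ^ (1 / 8 : ℝ) * ‖c‖ ^ 2 ≤
      Gm m p u (t / Λ ^ 2) x c c)
    (hav : ∀ s, t / Λ ^ 2 ≤ s → s ≤ t → ∀ c c' : E n,
      PP m p s x |(sob m).Γ (uc u c) (uc u c') - Gm m p u (t / Λ ^ 2) x c c' • (1 : M →ₘ[m] ℝ)| ≤
        e * (√(Gm m p u (t / Λ ^ 2) x c c) * √(Gm m p u (t / Λ ^ 2) x c' c')))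
    (he : e ≤ ε) (hε0 : 0 ≤ ε') (hε' : 2 * ε' ≤ ε) (hε : ε ≤ 1) (hη' : 2 * n * Λ * η ≤ ε)
    {c : Fin n → E n}
    (hc : ∀ a b, Gm m p u (t / Λ ^ 2) x (c a) (c b) = if a = b then 1 else 0) :
    Frame (sob m) (fun s => ph m p s x) |K| ε (t / Λ ^ 2) t (fun a => uc u (c a)) := by
  have hC := H751.env_gamma h
  haveI := H597.env_sf h
  have hρ := hu.ρ_pos
  have hρ2 : 0 < ρ ^ 2 := by positivity
  have hΛ0 : 0 < Λ := by linarith
  have hΛ2 : 1 ≤ Λ ^ 2 := one_le_pow₀ hΛ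
  have ht' : 0 < t / Λ ^ 2 := by positivity
  have hQρ : ρ ^ 2 ≤ Q * ρ ^ 2 := by nlinarith
  have hcc : ∀ a, Gm m p u (t / Λ ^ 2) x (c a) (c a) = 1 := fun a => by rw [hc, if_pos rfl]
  have hn1 : (1 : ℝ) ≤ n := by exact_mod_cast env_npos h
  have hle2 : ∀ a s, t / Λ ^ 2 ≤ s → s ≤ t → Gm m p u s x (c a) (c a) ≤ 2 := by
    intro a s h1 h2
    have h3 := G_le_two h hu ht' h1 (ht'.trans_le h1) (c a) (hav s h1 h2) (he.trans hε)
    rw [hcc] at h3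
    linarith
  refine ⟨fun a => H751.uc_testI hC hu (c a), ?_, ?_, ?_, ?_, ?_⟩
  · intro a b
    have h3 := hav (t / Λ ^ 2) le_rfl (div_le_self ht.le hΛ2) (c a) (c b)
    rw [hc a b, hcc, hcc, Real.sqrt_one, mul_one, mul_one] at h3
    exact h3.trans he
  · exact fun a s h1 h2 => hle2 a s h1 h2
  · intro a s h1 h2
    have h3 := hT s h1 (h2.trans (htρ.trans hQρ)) (c a)
    have h4 := hle2 a s h1 h2
    have h5 : s * gm m K p u s x (c a) (c a) ≤ ε := by nlinarith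
    exact h5
  · intro a s h1 h2
    have hs : 0 < s := ht'.trans_le h1
    have h3 := (H597.lapc2 h hu hx hs (h2.trans (htρ.trans hQρ)) hη (c a)).2
    have h4 := hpd (c a)
    rw [hcc] at h4
    -- `‖c a‖ ≤ √2 (ρ²Λ²/t)^{1/16}`
    set q : ℝ := t / Λ ^ 2 / ρ ^ 2 with hq
    have hq0 : 0 < q := by positivity
    have hq1 : q ≤ 1 := by
      rw [hq, div_le_one hρ2]
      exact (div_le_self ht.le hΛ2).trans htρ
    have h5 : q ≤ q ^ (1 / 8 : ℝ) := by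
      calc q = q ^ (1 : ℝ) := (Real.rpow_one q).symm
        _ ≤ q ^ (1 / 8 : ℝ) := Real.rpow_le_rpow_of_exponent_ge hq0 hq1 (by norm_num)
    have h6 : q * ‖c a‖ ^ 2 ≤ 2 := by
      have : q * ‖c a‖ ^ 2 ≤ q ^ (1 / 8 : ℝ) * ‖c a‖ ^ 2 := by gcongr
      linarith
    -- `t ‖c‖ / ρ² ≤ Λ √2`
    have h7 : t / ρ ^ 2 * ‖c a‖ ≤ 2 * Λ := by
      have e1 : t / ρ ^ 2 = q * Λ ^ 2 := by rw [hq]; field_simp
      have h8 : (t / ρ ^ 2 * ‖c a‖) ^ 2 ≤ (2 * Λ) ^ 2 := by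
        have e2 : (t / ρ ^ 2 * ‖c a‖) ^ 2 = (q * ‖c a‖ ^ 2) * (t / ρ ^ 2) * Λ ^ 2 := by
          rw [show (t / ρ ^ 2 * ‖c a‖) ^ 2 = (t / ρ ^ 2) * (t / ρ ^ 2) * ‖c a‖ ^ 2 by ring]
          nth_rewrite 1 [e1]
          ring
        have e3 : t / ρ ^ 2 ≤ 1 := by rw [div_le_one hρ2]; exact htρ
        rw [e2]
        calc (q * ‖c a‖ ^ 2) * (t / ρ ^ 2) * Λ ^ 2 ≤ 2 * 1 * Λ ^ 2 := by gcongr
          _ ≤ (2 * Λ) ^ 2 := by nlinarith
      exact (sq_le_sq₀ (by positivity) (by positivity)).1 h8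
    have hsn : √(n : ℝ) ≤ n := by
      rw [Real.sqrt_le_left (by positivity)]
      nlinarith
    have h9 : t * √(PP m p s x ((sob m).Γ ((sob m).lap (uc u (c a)))
        ((sob m).lap (uc u (c a))))) ≤ ε := by
      calc t * √(PP m p s x ((sob m).Γ ((sob m).lap (uc u (c a))) ((sob m).lap (uc u (c a)))))
          ≤ t * (√n * (η / ρ ^ 2) * ‖c a‖) := by gcongr
        _ = √n * η * (t / ρ ^ 2 * ‖c a‖) := by ring
        _ ≤ n * η * (2 * Λ) := by gcongr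
        _ = 2 * n * Λ * η := by ring
        _ ≤ ε := hη'
    exact h9
  · intro f hf
    exact H200.full_frame hC (env_npos h) (env_be_abs h) hf fun a => H751.uc_W hC hu (c a)

/-- the approximating vector of `F`: `∑ v_a c_a` -/
noncomputable def dvec (m : Measure M) {n : ℕ} (p : ℝ → M → M → ℝ) (a₀ t t' : ℝ)
    (u : Fin n → M →ₘ[m] ℝ) (x : M) (c : Fin n → E n) (F : M →ₘ[m] ℝ) : E n :=
  ∑ a, vco (sob m) (fun s => ph m p s x) a₀ t t' (fun a => uc u (c a)) F a • c a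

theorem uc_dvec (a₀ t t' : ℝ) (u : Fin n → M →ₘ[m] ℝ) (x : M) (c : Fin n → E n) (F : M →ₘ[m] ℝ) :
    uc u (dvec m p a₀ t t' u x c F)
      = ∑ a, vco (sob m) (fun s => ph m p s x) a₀ t t' (fun a => uc u (c a)) F a • uc u (c a) := by
  unfold dvec
  generalize vco (sob m) (fun s => ph m p s x) a₀ t t' (fun a => uc u (c a)) F = v
  have key : ∀ S : Finset (Fin n), uc u (∑ a ∈ S, v a • c a) = ∑ a ∈ S, v a • uc u (c a) := by
    intro S
    classical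
    induction S using Finset.induction_on with
    | empty =>
      simp only [Finset.sum_empty]
      unfold uc
      refine Finset.sum_eq_zero fun i _ => ?_
      simp
    | insert a S ha ih => rw [Finset.sum_insert ha, Finset.sum_insert ha, H751.uc_add, H751.uc_smul, ih]
  exact key Finset.univ

theorem vco_add {φ : ℝ → M →ₘ[m] ℝ} (hC : IsGamma (sob m)) (hφ : Cen (sob m) φ) {a₀ t t' : ℝ}
    (ha : 0 < a₀) (ht : 0 < t) (ht' : 0 < t') {w : Fin n → M →ₘ[m] ℝ}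
    (hw : ∀ a, w a ∈ (sob m).W) {F G : M →ₘ[m] ℝ} (hF : MemLp F 2 m) (hG : MemLp G 2 m)
    (a : Fin n) :
    vco (sob m) φ a₀ t t' w (F + G) a = vco (sob m) φ a₀ t t' w F a + vco (sob m) φ a₀ t t' w G a := by
  have hD := hC.toIsDir
  have hat : 0 < a₀ * t := mul_pos ha ht
  have hs : 0 < t' + a₀ ^ 2 * t := by positivity
  have hFW := hD.P_mem hat hF
  have hGW := hD.P_mem hat hG
  unfold vco
  rw [hD.P_add _ hF hG, hD.add_left _ hFW _ hGW _ (hw a), mul_add]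
  exact I_add (mem_mul_top (hφ.top _ hs) (hD.Γ_mem1 hFW (hw a)))
    (mem_mul_top (hφ.top _ hs) (hD.Γ_mem1 hGW (hw a)))

theorem vco_smul {φ : ℝ → M →ₘ[m] ℝ} (hC : IsGamma (sob m)) {a₀ t t' : ℝ}
    (ha : 0 < a₀) (ht : 0 < t) {w : Fin n → M →ₘ[m] ℝ}
    (hw : ∀ a, w a ∈ (sob m).W) {F : M →ₘ[m] ℝ} (hF : MemLp F 2 m) (r : ℝ) (a : Fin n) :
    vco (sob m) φ a₀ t t' w (r • F) a = r * vco (sob m) φ a₀ t t' w F a := by
  have hD := hC.toIsDir
  have hat : 0 < a₀ * t := mul_pos ha ht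
  have hFW := hD.P_mem hat hF
  unfold vco
  rw [hD.P_smul _ _ hF, hD.smul_left _ _ hFW _ (hw a), mul_smul_comm, I_smul]

/-- `W` is linear on `L²` -/
def LinL2 (m : Measure M) {n : ℕ} (W : (M →ₘ[m] ℝ) → E n) : Prop :=
  (∀ F G : M →ₘ[m] ℝ, MemLp F 2 m → MemLp G 2 m → W (F + G) = W F + W G) ∧
    ∀ (r : ℝ) (F : M →ₘ[m] ℝ), MemLp F 2 m → W (r • F) = r • W F

theorem dvec_lin (h : Env m n K o A p) (hu : Cfg m n K o p R Q η ρ u uu) {a₀ t t' : ℝ}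
    (ha : 0 < a₀) (ht : 0 < t) (ht' : 0 < t') (x : M) (c : Fin n → E n) :
    LinL2 m (dvec m p a₀ t t' u x c) := by
  have hC := H751.env_gamma h
  have hw : ∀ a, uc u (c a) ∈ (sob m).W := fun a => H751.uc_W hC hu (c a)
  refine ⟨fun F G hF hG => ?_, fun r F hF => ?_⟩
  · unfold dvec
    rw [← Finset.sum_add_distrib]
    refine Finset.sum_congr rfl fun a _ => ?_
    rw [vco_add hC (H597.env_cen h x) ha ht ht' hw hF hG a, add_smul]
  · unfold dvec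
    rw [Finset.smul_sum]
    refine Finset.sum_congr rfl fun a _ => ?_
    rw [vco_smul hC ha ht hw hF r a, mul_smul]

/-- **the decay lemma at one centre** -/
theorem dlx_at (h : Env m n K o A p) {A' κ a₀ : ℝ}
    (hφ : Ctr (sob m) (fun s => ph m p s x) n (1 / 2) A' κ a₀)
    (hu : Cfg m n K o p R Q η ρ u uu) (hQ : 1 ≤ Q)
    (hx : x ∈ ball o (R * ρ)) (ht : 0 < t) (htρ : t ≤ ρ ^ 2) (hΛ : 1 ≤ a₀ * Λ) (hη : 0 ≤ η)
    (hT : TTx m K p Q ε' ρ u x (t / Λ ^ 2))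
    (hpd : ∀ c : E n, 1 / 2 * (t / Λ ^ 2 / ρ ^ 2) ^ (1 / 8 : ℝ) * ‖c‖ ^ 2 ≤
      Gm m p u (t / Λ ^ 2) x c c)
    (hav : ∀ s, t / Λ ^ 2 ≤ s → s ≤ t → ∀ c c' : E n,
      PP m p s x |(sob m).Γ (uc u c) (uc u c') - Gm m p u (t / Λ ^ 2) x c c' • (1 : M →ₘ[m] ℝ)| ≤
        e * (√(Gm m p u (t / Λ ^ 2) x c c) * √(Gm m p u (t / Λ ^ 2) x c' c')))
    (he : e ≤ ε) (hε0 : 0 ≤ ε') (hε' : 2 * ε' ≤ ε) (hε : ε ≤ 1) (hη' : 2 * n * Λ * η ≤ ε) :
    ∃ W : (M →ₘ[m] ℝ) → E n, LinL2 m W ∧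
      ∀ F : M →ₘ[m] ℝ, MemLp F 2 m → MemLp F ∞ m → ∀ c₀ r S : ℝ, 0 ≤ S →
        PP m p t x |F - c₀ • (1 : M →ₘ[m] ℝ)| ≤ r →
        (∀ s ∈ Icc (t / Λ ^ 2) t, ∀ τ ∈ Ioc 0 (a₀ * t),
          PP m p s x |(sob m).lap ((sob m).P τ F)| ≤ S) →
        Gm m p u (t / Λ ^ 2) x (W F) (W F) ≤ n * (2 * MM A' a₀ n / √t * r) ^ 2 ∧
        Gm m p u t x (W F) (W F) ≤ 2 * (n * (2 * MM A' a₀ n / √t * r) ^ 2) ∧
        ∃ c₁ : ℝ, PP m p (t / Λ ^ 2) x |F - c₁ • (1 : M →ₘ[m] ℝ) - uc u (W F)| ≤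
          1 / Λ * ((4 * n * A' ^ 2 * MM A' a₀ n / Λ
            + 30 * n ^ 3 * A' ^ 2 * MM A' a₀ n * Λ ^ 2 * √ε) * r
            + 30 * n ^ 3 * A' ^ 2 * MM A' a₀ n * Λ ^ 2 * (t * S)) := by
  have hC := H751.env_gamma h
  haveI := H597.env_sf h
  have hρ := hu.ρ_pos
  have hρ2 : 0 < ρ ^ 2 := by positivity
  have ha := hφ.ha
  have hA := hφ.hA
  have hκ := hφ.hκ
  have ha' := hφ.ha'
  have ha2 : a₀ ≤ 1 / 2 := by nlinarith
  have hΛ1 : 1 ≤ Λ := by nlinarith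
  have hΛ0 : 0 < Λ := by linarith
  have ht' : 0 < t / Λ ^ 2 := by positivity
  have hQρ : ρ ^ 2 ≤ Q * ρ ^ 2 := by nlinarith
  have hn1 : (1 : ℝ) ≤ n := by exact_mod_cast env_npos h
  have htT : t ≤ 1 / 2 := htρ.trans (hQρ.trans hu.Qρ)
  -- the frame
  have hS := H358.Gm_symBil hC (H751.env_bei h) h.ker hu.test ht' x
  have hpos : ∀ c : E n, c ≠ 0 → 0 < Gm m p u (t / Λ ^ 2) x c c := by
    intro c hc
    refine lt_of_lt_of_le ?_ (hpd c)
    have : 0 < ‖c‖ := norm_pos_iff.2 hc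
    positivity
  obtain ⟨c, hc⟩ := H358.exists_frame_F hS hpos
  have hfr := frame_at h hu hQ hx ht htρ hΛ1 hη hT hpd hav he hε0 hε' hε hη' hc
  have hηε : η ≤ ε := by
    have h1 : η ≤ 2 * n * Λ * η := by
      have : 1 ≤ 2 * n * Λ := by nlinarith
      nlinarith
    linarith
  have hKt : |K| * t ≤ ε := by
    have h1 : |K| * t ≤ |K| * ρ ^ 2 := by gcongr
    linarith [hu.Kρ]
  have hε00 : 0 ≤ ε := by linarith
  refine ⟨dvec m p a₀ t (t / Λ ^ 2) u x c, dvec_lin h hu ha ht ht' x c, ?_⟩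
  intro F hF hF' c₀ r S hS0 hr hl
  have hr0 : 0 ≤ I (ph m p t x * |F - c₀ • (1 : M →ₘ[m] ℝ)|) := by
    exact (H597.env_cen h x).av_nonneg ht (abs_nonneg _)
  have htr : t / Λ ^ 2 ≤ t := div_le_self ht.le (one_le_pow₀ hΛ1)
  obtain ⟨h1, h2⟩ := dl hC (env_npos h) (env_be_abs h) (abs_nonneg K) hφ ht htT hΛ rfl hε00 hε hKt
    hfr hF hF' c₀ (b := t * S)
    (fun τ h3 h4 => by
      rw [mul_div_cancel_left₀ S ht.ne']
      exact hl t ⟨htr, le_rfl⟩ τ ⟨h3, h4.le⟩)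
    (fun τ h3 h4 => by
      rw [mul_div_cancel_left₀ S ht.ne']
      exact hl (t / Λ ^ 2) ⟨le_rfl, htr⟩ τ ⟨h3, h4.le⟩)
  have hM := MM_ge hA ha ha2 (n := n)
  set v := vco (sob m) (fun s => ph m p s x) a₀ t (t / Λ ^ 2) (fun a => uc u (c a)) F with hv
  have hGt' : Gm m p u (t / Λ ^ 2) x (dvec m p a₀ t (t / Λ ^ 2) u x c F)
      (dvec m p a₀ t (t / Λ ^ 2) u x c F) ≤ n * (2 * MM A' a₀ n / √t * r) ^ 2 := by
    have e2 : Gm m p u (t / Λ ^ 2) x (dvec m p a₀ t (t / Λ ^ 2) u x c F)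
        (dvec m p a₀ t (t / Λ ^ 2) u x c F) = ∑ a, v a ^ 2 := by
      have := hS.toForm_apply (dvec m p a₀ t (t / Λ ^ 2) u x c F)
        (dvec m p a₀ t (t / Λ ^ 2) u x c F)
      rw [← this, dvec, map_sum]
      simp only [LinearMap.sum_apply, map_smul, LinearMap.smul_apply, smul_eq_mul, map_sum]
      refine Finset.sum_congr rfl fun a _ => ?_
      rw [Finset.mul_sum, Finset.sum_eq_single a]
      · rw [hS.toForm_apply, hc, if_pos rfl, hv]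
        ring
      · intro b _ hba
        rw [hS.toForm_apply, hc]
        simp [hba, Ne.symm hba]
      · intro ha; exact absurd (Finset.mem_univ a) ha
    rw [e2]
    have h5 : ∀ a, v a ^ 2 ≤ (2 * MM A' a₀ n / √t * r) ^ 2 := by
      intro a
      rw [← sq_abs]
      refine pow_le_pow_left₀ (abs_nonneg _) ((h1 a).trans ?_) 2
      have : 0 ≤ 2 * MM A' a₀ n / √t := by positivity
      exact mul_le_mul_of_nonneg_left hr this
    calc ∑ a, v a ^ 2 ≤ ∑ a : Fin n, (2 * MM A' a₀ n / √t * r) ^ 2 :=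
          Finset.sum_le_sum fun a _ => h5 a
      _ = _ := by simp
  refine ⟨hGt', ?_, ?_⟩
  · have h6 := G_le_two h hu ht' htr ht (dvec m p a₀ t (t / Λ ^ 2) u x c F)
      (hav t htr le_rfl) (he.trans hε)
    linarith
  · refine ⟨I (ph m p (t / Λ ^ 2) x * ((sob m).P (a₀ * t) F - ∑ a, v a • uc u (c a))), ?_⟩
    have e3 : ∀ c₂ : ℝ, F - c₂ • (1 : M →ₘ[m] ℝ) - uc u (dvec m p a₀ t (t / Λ ^ 2) u x c F)
        = F - (c₂ • 1 + ∑ a, v a • uc u (c a)) := by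
      intro c₂
      rw [uc_dvec, sub_sub]
    rw [PP, e3]
    refine h2.trans ?_
    have : 0 ≤ 4 * n * A' ^ 2 * MM A' a₀ n / Λ
          + 30 * n ^ 3 * A' ^ 2 * MM A' a₀ n * Λ ^ 2 * √ε := by positivity
    gcongr
    exact hr

end Vale.Agent.P242.H542
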