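import Vale.Agent.P242.H542.Dl

/-! P242, Part A (helper542): the inner estimate (K9) of helper196 at a fixed centre. -/

set_option linter.all false

open MeasureTheory Filter Topology Set
open scoped ENNReal NNReal

namespace Vale.Agent.P242.H542

open Vale.Agent.P233

variable {M : Type*} [MeasurableSpace M] {m : Measure M} {C : Calc m}
variable {φ : ℝ → M →ₘ[m] ℝ} {n : ℕ} {T A κ a₀ : ℝ}
variable {K₀ s t t' τ c ε Λ b : ℝ} {f g h F G : M →ₘ[m] ℝ}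

/-- integrability of `φ_s |g - c|` -/
theorem osc_mem (hφ : Cen C φ) (hs : 0 < s) (hg : MemLp g 2 m) (c : ℝ) :
    MemLp (φ s * |g - c • 1| : M →ₘ[m] ℝ) 1 m := by
  have h : MemLp (φ s * (g - c • 1) : M →ₘ[m] ℝ) 1 m := by
    rw [mul_sub, mul_smul_comm, mul_one]
    exact mem_sub (mem_mul_22 (hφ.mem2 s hs) hg) (mem_smul _ (hφ.mem1 s hs))
  have := mem_abs h
  rwa [abs_mul_cls, abs_of_nonneg (hφ.nonneg s hs)] at this

theorem osc_le (hφ : Ctr C φ n T A κ a₀) (ht : 0 < t) (hs : a₀ * t / 2 ≤ s) (hst : s ≤ a₀ * t)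
    (hT : t ≤ T) (hg : MemLp g 2 m) (c : ℝ) :
    I (φ s * |g - c • 1|) ≤ A * (2 / a₀) ^ n * I (φ t * |g - c • 1|) := by
  have hat := mul_pos hφ.ha ht
  have hs0 : 0 < s := by linarith
  have h1 := hφ.av_le hs0 hst hT (abs_nonneg _) (osc_mem hφ.toCen hs0 hg c)
    (osc_mem hφ.toCen ht hg c)
  refine h1.trans (mul_le_mul_of_nonneg_right ?_ (hφ.av_nonneg ht (abs_nonneg _)))
  have hA := hφ.A_pos
  have ha := hφ.ha
  gcongr A * ?_ ^ n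
  rw [div_le_div_iff₀ hs0 ha]
  linarith

/-- (K9): `γ_s(P_{a₀² t / 2} g)(x) ≤ C (s t)⁻¹ (P_t|g - c|(x))²`, from (K3) averaged -/
theorem k9 (hC : IsGamma C) [SigmaFinite m] (hn : 0 < n) (hBE : C.BE (-K₀) n) (hK : 0 ≤ K₀)
    (hk3a : ∀ s τ, 0 < s → 0 < τ → s + κ * τ ≤ T → ∀ g : M →ₘ[m] ℝ, MemLp g 2 m →
      MemLp g ∞ m → ∀ c : ℝ,
      I (φ s * |C.lap (C.P τ g)|) ≤ A / τ * I (φ (s + κ * τ) * |g - c • 1|))
    (hs : 0 < s) (ht : 0 < t) (hst : κ * s ≤ a₀ ^ 2 * t / 2) (hT : t ≤ T) (hKt : K₀ * t ≤ 1)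
    (hφ : Ctr C φ n T A κ a₀) (hg : MemLp g 2 m) (hg' : MemLp g ∞ m) (c : ℝ) :
    C.NN (-K₀) (C.P (a₀ ^ 2 * t / 2) g) (C.P (a₀ ^ 2 * t / 2) g) (φ s)
      ≤ 8 * A ^ 3 * MM A a₀ n ^ 4 / (s * t) * I (φ t * |g - c • 1|) ^ 2 := by
  have ha := hφ.ha
  have ha2 := hφ.a_le
  have hA := hφ.hA
  have hA0 := hφ.A_pos
  have hκ := hφ.hκ
  have hat := mul_pos ha ht
  have hat' : a₀ * t ≤ t := by nlinarith only [ha2, ht]
  have hr0 : 0 ≤ I (φ t * |g - c • 1|) := hφ.av_nonneg ht (abs_nonneg _)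
  have hq : 1 ≤ 2 / a₀ := by rw [le_div_iff₀ ha]; linarith only [ha2]
  have hM1 : 1 ≤ MM A a₀ n := MM_ge hA ha ha2
  -- the reference time
  obtain ⟨t₂, ht₂⟩ : ∃ t₂, t₂ = a₀ * t / 2 := ⟨_, rfl⟩
  have ht20 : 0 < t₂ := by rw [ht₂]; linarith only [hat]
  have ht2t : t₂ ≤ t := by rw [ht₂]; linarith only [hat', hat]
  have hτ : 0 < a₀ * t₂ / 2 := by have := mul_pos ha ht20; linarith only [this]
  have hκa : κ * (a₀ * t₂ / 2) ≤ t₂ := by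
    have h1 := mul_le_mul_of_nonneg_right hφ.ha' ht20.le
    have e : κ * (a₀ * t₂ / 2) = (2 * κ * a₀ * t₂) / 4 := by ring
    rw [e]; linarith only [h1, ht20]
  have hκ0 : 0 < κ * (a₀ * t₂ / 2) := mul_pos hφ.κ_pos hτ
  have h3 := hk3a t₂ (a₀ * t₂ / 2) ht20 hτ (by
    rw [ht₂] at hκa ⊢; linarith only [hκa, hat', hT]) g hg hg' c
  have h4 := osc_le hφ ht (s := t₂ + κ * (a₀ * t₂ / 2)) (by rw [ht₂] at hκ0 ⊢; linarith only [hκ0])
    (by rw [ht₂] at hκa ⊢; linarith only [hκa]) hT hg c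
  have h5 := osc_le hφ ht (s := t₂) (by rw [ht₂]) (by rw [ht₂]; linarith only [hat]) hT hg c
  set r := I (φ t * |g - c • 1|) with hr
  have hb : I (φ t₂ * |C.lap (C.P (a₀ * t₂ / 2) g)|) ≤ (A * MM A a₀ n * r) / t₂ := by
    calc I (φ t₂ * |C.lap (C.P (a₀ * t₂ / 2) g)|) ≤ A / (a₀ * t₂ / 2) * (A * (2 / a₀) ^ n * r) :=
          h3.trans (mul_le_mul_of_nonneg_left h4 (by positivity))
      _ = (A * (A * (2 / a₀) ^ (n + 1)) * r) / t₂ := by rw [pow_succ]; field_simp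
      _ ≤ (A * MM A a₀ n * r) / t₂ := by
          have h6 : (2 / a₀) ^ (n + 1) ≤ (2 / a₀) ^ (n + 2) := pow_le_pow_right₀ hq (by omega)
          rw [MM]
          gcongr
  have h6 := gam_le hC hn hBE hK hs ht20 (by
    rw [ht₂]; have e : a₀ * (a₀ * t / 2) = a₀ ^ 2 * t / 2 := by ring
    rw [e]; exact hst) (ht2t.trans hT) (by
      have := mul_le_mul_of_nonneg_left ht2t hK
      linarith only [this, hKt]) hφ hg hg' c hb
  have e7 : a₀ * t₂ = a₀ ^ 2 * t / 2 := by rw [ht₂]; ring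
  rw [e7] at h6
  refine h6.trans ?_
  have h7 : I (φ t₂ * |g - c • 1|) ≤ A * MM A a₀ n * r := by
    refine h5.trans ?_
    have h8 : A * (2 / a₀) ^ n ≤ A * MM A a₀ n := by
      rw [MM]
      have h9 : (2 / a₀) ^ n ≤ (2 / a₀) ^ (n + 2) := pow_le_pow_right₀ hq (by omega)
      have h10 : (2 / a₀) ^ (n + 2) ≤ A * (2 / a₀) ^ (n + 2) :=
        le_mul_of_one_le_left (by positivity) hA
      exact mul_le_mul_of_nonneg_left (h9.trans h10) hA0.le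
    exact mul_le_mul_of_nonneg_right h8 hr0
  have h70 : 0 ≤ I (φ t₂ * |g - c • 1|) := hφ.av_nonneg ht20 (abs_nonneg _)
  have h8 : 1 / t₂ ≤ MM A a₀ n / t := by
    have e : 1 / t₂ = 2 / a₀ / t := by rw [ht₂]; field_simp
    rw [e, MM]
    have h9 : 2 / a₀ ≤ (2 / a₀) ^ (n + 2) := le_self_pow₀ hq (by omega)
    have h10 : (2 / a₀) ^ (n + 2) ≤ A * (2 / a₀) ^ (n + 2) :=
      le_mul_of_one_le_left (by positivity) hA
    gcongr
    exact h9.trans h10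
  calc 2 * A * MM A a₀ n / (s * t₂) * (I (φ t₂ * |g - c • 1|) + A * MM A a₀ n * r) ^ 2
      ≤ 2 * A * MM A a₀ n / (s * t₂) * (A * MM A a₀ n * r + A * MM A a₀ n * r) ^ 2 := by gcongr
    _ = 8 * A ^ 3 * MM A a₀ n ^ 3 / s * (1 / t₂) * r ^ 2 := by field_simp; ring
    _ ≤ 8 * A ^ 3 * MM A a₀ n ^ 3 / s * (MM A a₀ n / t) * r ^ 2 := by gcongr
    _ = _ := by field_simp

end Vale.Agent.P242.H542
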